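import Vale.Agent.FK.Defs

/-!
# P063 / FK / Basic, second half [BAS2]: exchange of coordinates, independence
-/

namespace FK

open Finset

set_option linter.unusedSectionVars false

variable {E : Type*} [Fintype E] [DecidableEq E]

theorem mix_mix_bas (J : Finset E) (x y : E → Bool) : mix J (mix J x y) (mix J y x) = x := by
  funext e
  unfold mix
  by_cases h : e ∈ J <;> simp [h]

theorem WW_mix_bas (p : ℝ) (J : Finset E) (x y : E → Bool) :
    WW p (mix J x y) * WW p (mix J y x) = WW p x * WW p y := by
  unfold WW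
  rw [← Finset.prod_mul_distrib, ← Finset.prod_mul_distrib]
  refine Finset.prod_congr rfl fun e _ => ?_
  unfold mix
  by_cases h : e ∈ J
  · rw [if_pos h, if_pos h, mul_comm]
  · rw [if_neg h, if_neg h]

/-- the exchange, as an equivalence -/
def mixEquiv_bas (J : Finset E) : (E → Bool) × (E → Bool) ≃ (E → Bool) × (E → Bool) where
  toFun z := (mix J z.1 z.2, mix J z.2 z.1)
  invFun z := (mix J z.1 z.2, mix J z.2 z.1)
  left_inv z := by simp [mix_mix_bas]
  right_inv z := by simp [mix_mix_bas]

/-- the exchange of the coordinates in `J` preserves the product weight -/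
theorem sum_mix (p : ℝ) (J : Finset E) (H : (E → Bool) → (E → Bool) → ℝ) :
    ∑ x, ∑ y, WW p x * WW p y * H (mix J x y) (mix J y x) =
      ∑ x, ∑ y, WW p x * WW p y * H x y := by
  have e1 : ∑ x, ∑ y, WW p x * WW p y * H (mix J x y) (mix J y x) =
      ∑ z : (E → Bool) × (E → Bool),
        WW p z.1 * WW p z.2 * H (mix J z.1 z.2) (mix J z.2 z.1) := by
    rw [Fintype.sum_prod_type]
  have e2 : ∑ x, ∑ y, WW p x * WW p y * H x y =
      ∑ z : (E → Bool) × (E → Bool), WW p z.1 * WW p z.2 * H z.1 z.2 := by
    rw [Fintype.sum_prod_type]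
  rw [e1, e2, ← Equiv.sum_comp (mixEquiv_bas J)
    (fun z : (E → Bool) × (E → Bool) => WW p z.1 * WW p z.2 * H z.1 z.2)]
  refine Finset.sum_congr rfl fun z _ => ?_
  change _ = WW p (mix J z.1 z.2) * WW p (mix J z.2 z.1) * H (mix J z.1 z.2) (mix J z.2 z.1)
  rw [WW_mix_bas]

theorem sum_WW_aux (p : ℝ) (u : E → Bool → ℝ) :
    ∑ x : E → Bool, ∏ e, (wt p (x e) * u e (x e)) =
      ∏ e, (p * u e true + (1 - p) * u e false) := by
  have h := Finset.prod_univ_sum (fun _ : E => (Finset.univ : Finset Bool))
    (fun e b => wt p b * u e b)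
  rw [Fintype.piFinset_univ] at h
  rw [← h]
  refine Finset.prod_congr rfl fun e _ => ?_
  rw [Fintype.sum_bool]
  simp [wt]

theorem sum_WW_bas (p : ℝ) : ∑ x : E → Bool, WW p x = 1 := by
  have h := sum_WW_aux (E := E) p (fun _ _ => 1)
  simp only [mul_one] at h
  unfold WW
  rw [h]
  exact Finset.prod_eq_one fun e _ => by ring

theorem Ex_coord_bas (p : ℝ) (a : E) (u : Bool → ℝ) :
    Ex p (fun y : E → Bool => u (y a)) = p * u true + (1 - p) * u false := by
  have h := sum_WW_aux (E := E) p (fun e b => if e = a then u b else 1)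
  unfold Ex WW
  have e1 : ∀ x : E → Bool, (∏ e, wt p (x e)) * u (x a) =
      ∏ e, (wt p (x e) * (if e = a then u (x e) else 1)) := by
    intro x
    rw [Finset.prod_mul_distrib, Finset.prod_ite_eq' univ a (fun e => u (x e)),
      if_pos (mem_univ a)]
  rw [Finset.sum_congr rfl fun x _ => e1 x, h, Finset.prod_eq_single a]
  · rw [if_pos rfl, if_pos rfl]
  · intro e _ he
    rw [if_neg he, if_neg he]
    ring
  · intro h
    exact absurd (mem_univ a) h

theorem Ex_mix (p : ℝ) (J : Finset E) (G : (E → Bool) → ℝ) :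
    Ex p (fun x => Ex p (fun y => G (mix J x y))) = Ex p G := by
  have h := sum_mix p J (fun a _ => G a)
  unfold Ex
  have e1 : ∀ x : E → Bool, WW p x * ∑ y, WW p y * G (mix J x y) =
      ∑ y, WW p x * WW p y * G (mix J x y) := by
    intro x
    rw [Finset.mul_sum]
    exact Finset.sum_congr rfl fun y _ => by ring
  rw [Finset.sum_congr rfl fun x _ => e1 x, h]
  refine Finset.sum_congr rfl fun x _ => ?_
  have e2 : ∀ y : E → Bool, WW p x * WW p y * G x = (WW p x * G x) * WW p y := by
    intro y
    ring
  rw [Finset.sum_congr rfl fun y _ => e2 y, ← Finset.mul_sum, sum_WW_bas, mul_one]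

theorem ch_mix (p : ℝ) (J S : Finset E) (x y : E → Bool) :
    ch p S (mix J x y) = ch p (S \ J) x * ch p (S ∩ J) y := by
  unfold ch
  rw [← Finset.prod_inter_mul_prod_sdiff S J, mul_comm]
  congr 1
  · refine Finset.prod_congr rfl fun e he => ?_
    unfold mix
    rw [if_neg (Finset.mem_sdiff.1 he).2]
  · refine Finset.prod_congr rfl fun e he => ?_
    unfold mix
    rw [if_pos (Finset.mem_inter.1 he).2]

/-- one coordinate is independent of the others -/
theorem Ex_indep (p : ℝ) (a : E) (u : Bool → ℝ) (g : (E → Bool) → ℝ)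
    (hg : ∀ x b, g (Function.update x a b) = g x) :
    Ex p (fun x => u (x a) * g x) = (p * u true + (1 - p) * u false) * Ex p g := by
  rw [← Ex_mix p {a} (fun x => u (x a) * g x), ← Ex_coord_bas p a u]
  have hmix : ∀ x y : E → Bool, mix {a} x y = Function.update x a (y a) := by
    intro x y
    funext e
    unfold mix
    by_cases h : e = a
    · subst h
      simp
    · rw [if_neg (by simpa using h), Function.update_of_ne h]
  have e1 : ∀ x : E → Bool, Ex p (fun y => u (mix {a} x y a) * g (mix {a} x y)) =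
      Ex p (fun y : E → Bool => u (y a)) * g x := by
    intro x
    unfold Ex
    rw [Finset.sum_mul]
    refine Finset.sum_congr rfl fun y _ => ?_
    change WW p y * (u (mix {a} x y a) * g (mix {a} x y)) = WW p y * u (y a) * g x
    rw [hmix, hg, Function.update_self]
    ring
  simp only [e1]
  unfold Ex
  rw [Finset.mul_sum]
  refine Finset.sum_congr rfl fun x _ => ?_
  ring

end FK
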