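import Vale.Agent.FK.Defs
import Vale.Agent.FK.BasicB

/-!
# P063 / FK / Basic: expectations on the p-biased cube
-/

namespace FK

open Finset

variable {E : Type*} [Fintype E] [DecidableEq E]

theorem la_pos {p : ℝ} (h0 : 0 < p) (h1 : p < 1) : 0 < la p := by
  unfold la; nlinarith

theorem la_le (p : ℝ) : la p ≤ 1 / 4 := by
  unfold la; nlinarith [sq_nonneg (p - 1 / 2)]

theorem wt_nonneg {p : ℝ} (h0 : 0 ≤ p) (h1 : p ≤ 1) (b : Bool) : 0 ≤ wt p b := by
  unfold wt; split_ifs <;> linarith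

theorem WW_nonneg {p : ℝ} (h0 : 0 ≤ p) (h1 : p ≤ 1) (x : E → Bool) : 0 ≤ WW p x :=
  Finset.prod_nonneg fun e _ => wt_nonneg h0 h1 (x e)

theorem wt_add (p : ℝ) : wt p true + wt p false = 1 := by
  unfold wt
  simp

theorem sum_WW (p : ℝ) : ∑ x : E → Bool, WW p x = 1 := by
  have h := Finset.prod_univ_sum (fun _ : E => (Finset.univ : Finset Bool))
    (fun (_ : E) (b : Bool) => wt p b)
  rw [Fintype.piFinset_univ] at h
  unfold WW
  rw [← h]
  simp [wt_add]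

theorem Ex_const (p c : ℝ) : Ex p (fun _ : E → Bool => c) = c := by
  unfold Ex
  rw [← Finset.sum_mul, sum_WW, one_mul]

theorem Ex_add (p : ℝ) (f g : (E → Bool) → ℝ) :
    Ex p (fun x => f x + g x) = Ex p f + Ex p g := by
  unfold Ex
  rw [← Finset.sum_add_distrib]
  exact Finset.sum_congr rfl fun x _ => by ring

theorem Ex_sub (p : ℝ) (f g : (E → Bool) → ℝ) :
    Ex p (fun x => f x - g x) = Ex p f - Ex p g := by
  unfold Ex
  rw [← Finset.sum_sub_distrib]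
  exact Finset.sum_congr rfl fun x _ => by ring

theorem Ex_mul_left (p c : ℝ) (f : (E → Bool) → ℝ) :
    Ex p (fun x => c * f x) = c * Ex p f := by
  unfold Ex
  rw [Finset.mul_sum]
  exact Finset.sum_congr rfl fun x _ => by ring

theorem Ex_mul_right (p c : ℝ) (f : (E → Bool) → ℝ) :
    Ex p (fun x => f x * c) = Ex p f * c := by
  unfold Ex
  rw [Finset.sum_mul]
  exact Finset.sum_congr rfl fun x _ => by ring

theorem Ex_sum {ι : Type*} (p : ℝ) (s : Finset ι) (f : ι → (E → Bool) → ℝ) :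
    Ex p (fun x => ∑ i ∈ s, f i x) = ∑ i ∈ s, Ex p (f i) := by
  unfold Ex
  rw [Finset.sum_comm]
  exact Finset.sum_congr rfl fun x _ => Finset.mul_sum _ _ _

theorem Ex_mono {p : ℝ} (h0 : 0 ≤ p) (h1 : p ≤ 1) {f g : (E → Bool) → ℝ} (h : ∀ x, f x ≤ g x) :
    Ex p f ≤ Ex p g :=
  Finset.sum_le_sum fun x _ => mul_le_mul_of_nonneg_left (h x) (WW_nonneg h0 h1 x)

theorem Ex_nonneg {p : ℝ} (h0 : 0 ≤ p) (h1 : p ≤ 1) {f : (E → Bool) → ℝ} (h : ∀ x, 0 ≤ f x) :
    0 ≤ Ex p f :=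
  Finset.sum_nonneg fun x _ => mul_nonneg (WW_nonneg h0 h1 x) (h x)

theorem abs_Ex_le {p : ℝ} (h0 : 0 ≤ p) (h1 : p ≤ 1) (f : (E → Bool) → ℝ) :
    |Ex p f| ≤ Ex p (fun x => |f x|) := by
  unfold Ex
  refine (Finset.abs_sum_le_sum_abs _ _).trans (le_of_eq ?_)
  exact Finset.sum_congr rfl fun x _ => by rw [abs_mul, abs_of_nonneg (WW_nonneg h0 h1 x)]

/-- Cauchy-Schwarz -/
theorem Ex_mul_sq_le {p : ℝ} (h0 : 0 ≤ p) (h1 : p ≤ 1) (f g : (E → Bool) → ℝ) :
    (Ex p (fun x => f x * g x)) ^ 2 ≤ Ex p (fun x => f x ^ 2) * Ex p (fun x => g x ^ 2) := by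
  have h := Finset.sum_mul_sq_le_sq_mul_sq (Finset.univ : Finset (E → Bool))
    (fun x => Real.sqrt (WW p x) * f x) (fun x => Real.sqrt (WW p x) * g x)
  have e : ∀ x : E → Bool, Real.sqrt (WW p x) * Real.sqrt (WW p x) = WW p x := fun x =>
    Real.mul_self_sqrt (WW_nonneg h0 h1 x)
  have e1 : ∑ x : E → Bool, Real.sqrt (WW p x) * f x * (Real.sqrt (WW p x) * g x) =
      Ex p (fun x => f x * g x) := by
    unfold Ex
    refine Finset.sum_congr rfl fun x _ => ?_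
    calc Real.sqrt (WW p x) * f x * (Real.sqrt (WW p x) * g x)
        = (Real.sqrt (WW p x) * Real.sqrt (WW p x)) * (f x * g x) := by ring
      _ = WW p x * (f x * g x) := by rw [e]
  have e2 : ∀ u : (E → Bool) → ℝ, ∑ x : E → Bool, (Real.sqrt (WW p x) * u x) ^ 2 =
      Ex p (fun x => u x ^ 2) := by
    intro u
    unfold Ex
    refine Finset.sum_congr rfl fun x _ => ?_
    calc (Real.sqrt (WW p x) * u x) ^ 2
        = (Real.sqrt (WW p x) * Real.sqrt (WW p x)) * u x ^ 2 := by ring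
      _ = WW p x * u x ^ 2 := by rw [e]
  rw [e1, e2, e2] at h
  exact h

end FK
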