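import Vale.Agent.FK.Basic

/-!
# P063 / FK / Bonami [BON]: (2,4)-hypercontractivity for the p-biased cube

Induction on the set `A` of variables: `P = P₀ + φ_a P₁`,
`E P⁴ ≤ 3 κ₄ E P₁⁴ + 8 E P₀² P₁² + E P₀⁴`, `κ₄ = E φ⁴ ≤ 1/λ`, `|E φ³| ≤ κ₄^{1/2}`, `B = 16/λ`.
-/

namespace FK

open Finset

variable {E : Type*} [Fintype E] [DecidableEq E]

omit [Fintype E] in
theorem bon_ch_insert {p : ℝ} {S : Finset E} {e : E} (he : e ∉ S) (x : E → Bool) :
    ch p (insert e S) x = ph p (x e) * ch p S x := by
  unfold ch; rw [Finset.prod_insert he]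

omit [Fintype E] in
theorem bon_ch_update {p : ℝ} {S : Finset E} {e : E} (he : e ∉ S) (x : E → Bool) (b : Bool) :
    ch p S (Function.update x e b) = ch p S x := by
  unfold ch
  apply Finset.prod_congr rfl
  intro j hj
  rw [Function.update_of_ne]
  rintro rfl; exact he hj

theorem bon_sum_split (e : E) (F : (E → Bool) → ℝ) :
    ∑ x, (F (Function.update x e true) + F (Function.update x e false)) = 2 * ∑ x, F x := by
  have h1 : ∀ x : E → Bool, F (Function.update x e true) + F (Function.update x e false)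
      = F x + F (Function.update x e (!(x e))) := by
    intro x
    have hx : Function.update x e (x e) = x := Function.update_eq_self e x
    rcases hb : x e with _ | _
    · rw [hb] at hx
      rw [hx]; simp; ring
    · rw [hb] at hx
      rw [hx]; simp
  have hinv : Function.Involutive (fun x : E → Bool => Function.update x e (!(x e))) := by
    intro x
    simp
  rw [Finset.sum_congr rfl (fun x _ => h1 x), Finset.sum_add_distrib, two_mul]
  congr 1
  exact Equiv.sum_comp hinv.toPerm F

theorem bon_WW_update (p : ℝ) (e : E) (x : E → Bool) (b : Bool) :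
    WW p (Function.update x e b) = wt p b * ∏ j ∈ univ.erase e, wt p (x j) := by
  unfold WW
  rw [← Finset.mul_prod_erase univ _ (Finset.mem_univ e)]
  rw [Function.update_self]
  congr 1
  apply Finset.prod_congr rfl
  intro j hj
  rw [Function.update_of_ne (Finset.ne_of_mem_erase hj)]

/-- averaging over one coordinate does not change the expectation -/
theorem bon_Ex_avg (p : ℝ) (e : E) (f : (E → Bool) → ℝ) :
    Ex p f = Ex p (fun x => p * f (Function.update x e true)
      + (1 - p) * f (Function.update x e false)) := by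
  have h : 2 * Ex p f = 2 * Ex p (fun x => p * f (Function.update x e true)
      + (1 - p) * f (Function.update x e false)) := by
    unfold Ex
    rw [← bon_sum_split e, ← bon_sum_split e]
    apply Finset.sum_congr rfl
    intro x _
    simp only [bon_WW_update, Function.update_idem, wt]
    simp
    ring
  linarith

theorem bon_Ex_indep (p : ℝ) (e : E) (h : Bool → ℝ) (F : (E → Bool) → ℝ)
    (hF : ∀ x b, F (Function.update x e b) = F x) :
    Ex p (fun x => h (x e) * F x) = (p * h true + (1 - p) * h false) * Ex p F := by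
  rw [bon_Ex_avg p e, ← Ex_mul_left]
  congr 1
  funext x
  simp only [hF, Function.update_self]
  ring

theorem bon_ph_true (p : ℝ) : ph p true = (1 - p) / √(p * (1 - p)) := by
  unfold ph; simp

theorem bon_ph_false (p : ℝ) : ph p false = -p / √(p * (1 - p)) := by
  unfold ph; simp

theorem bon_m1 (p : ℝ) : p * ph p true + (1 - p) * ph p false = 0 := by
  rw [bon_ph_true, bon_ph_false]; ring

theorem bon_m2 {p : ℝ} (h0 : 0 < p) (h1 : p < 1) :
    p * ph p true ^ 2 + (1 - p) * ph p false ^ 2 = 1 := by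
  have hl : 0 < p * (1 - p) := mul_pos h0 (by linarith)
  rw [bon_ph_true, bon_ph_false]
  simp only [div_pow, Real.sq_sqrt hl.le]
  have : (1 - p) ≠ 0 := by linarith
  field_simp
  ring

omit [Fintype E] in
/-- the decomposition `P = a + φ_e b` -/
theorem bon_dec {p : ℝ} {e : E} {T : Finset E} (he : e ∉ T) (c : Finset E → ℝ) (x : E → Bool) :
    ∑ S ∈ (insert e T).powerset, c S * ch p S x
      = (∑ S ∈ T.powerset, c S * ch p S x)
        + ph p (x e) * ∑ S ∈ T.powerset, c (insert e S) * ch p S x := by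
  rw [Finset.sum_powerset_insert he]
  congr 1
  rw [Finset.mul_sum]
  apply Finset.sum_congr rfl
  intro S hS
  have heS : e ∉ S := fun h => he (Finset.mem_powerset.mp hS h)
  rw [bon_ch_insert heS]; ring

omit [Fintype E] in
theorem bon_inv {p : ℝ} {e : E} {T : Finset E} (he : e ∉ T) (c : Finset E → ℝ) (x : E → Bool)
    (β : Bool) :
    ∑ S ∈ T.powerset, c S * ch p S (Function.update x e β) = ∑ S ∈ T.powerset, c S * ch p S x := by
  apply Finset.sum_congr rfl
  intro S hS
  rw [bon_ch_update (fun h => he (Finset.mem_powerset.mp hS h))]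

/-- second moment of `a + φ_e b` -/
theorem bon_sq {p : ℝ} (h0 : 0 < p) (h1 : p < 1) (e : E) (a b : (E → Bool) → ℝ)
    (hau : ∀ x β, a (Function.update x e β) = a x)
    (hbu : ∀ x β, b (Function.update x e β) = b x) :
    Ex p (fun x => (a x + ph p (x e) * b x) ^ 2)
      = Ex p (fun x => a x ^ 2) + Ex p (fun x => b x ^ 2) := by
  have e1 : ∀ x : E → Bool, (a x + ph p (x e) * b x) ^ 2
      = a x ^ 2 + (ph p (x e) * (2 * (a x * b x)) + (ph p (x e)) ^ 2 * b x ^ 2) := by
    intro x; ring
  simp only [e1]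
  rw [Ex_add, Ex_add]
  rw [bon_Ex_indep p e (ph p) (fun x => 2 * (a x * b x)) (by intro x β; simp only [hau, hbu])]
  rw [bon_Ex_indep p e (fun β => ph p β ^ 2) (fun x => b x ^ 2) (by intro x β; simp only [hbu])]
  rw [bon_m1, bon_m2 h0 h1]
  ring

theorem bon_poly_sq {p : ℝ} (h0 : 0 < p) (h1 : p < 1) (T : Finset E) :
    ∀ (c : Finset E → ℝ),
    Ex p (fun x => (∑ S ∈ T.powerset, c S * ch p S x) ^ 2) = ∑ S ∈ T.powerset, c S ^ 2 := by
  induction T using Finset.induction_on with
  | empty =>
    intro c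
    have : ∀ x : E → Bool, ∑ S ∈ (∅ : Finset E).powerset, c S * ch p S x = c ∅ := by
      intro x; simp [ch]
    simp only [this, Ex_const]
    simp
  | insert e T he ih =>
    intro c
    simp only [bon_dec he]
    rw [bon_sq h0 h1 e _ _ (bon_inv he c) (bon_inv he (fun S => c (insert e S)))]
    rw [ih c, ih (fun S => c (insert e S)), Finset.sum_powerset_insert he]

/-- orthonormality -/
theorem Ex_poly_sq {p : ℝ} (h0 : 0 < p) (h1 : p < 1) (s : Finset (Finset E)) (c : Finset E → ℝ) :
    Ex p (fun x => (∑ S ∈ s, c S * ch p S x) ^ 2) = ∑ S ∈ s, c S ^ 2 := by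
  have h := bon_poly_sq h0 h1 (univ : Finset E) (fun S => if S ∈ s then c S else 0)
  have e1 : ∀ x : E → Bool,
      ∑ S ∈ (univ : Finset E).powerset, (if S ∈ s then c S else 0) * ch p S x
        = ∑ S ∈ s, c S * ch p S x := by
    intro x
    rw [Finset.powerset_univ]
    simp only [ite_mul, zero_mul]
    rw [← Finset.sum_filter]
    congr 1
    ext S; simp
  have e2 : ∑ S ∈ (univ : Finset E).powerset, (if S ∈ s then c S else 0) ^ 2
        = ∑ S ∈ s, c S ^ 2 := by
    rw [Finset.powerset_univ]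
    have : ∀ S : Finset E, (if S ∈ s then c S else 0) ^ 2 = if S ∈ s then c S ^ 2 else 0 := by
      intro S; split_ifs <;> simp
    simp only [this]
    rw [← Finset.sum_filter]
    congr 1
    ext S; simp
  simp only [e1] at h
  rw [h, e2]

theorem bon_fourth {p : ℝ} (h0 : 0 < p) (h1 : p < 1) (e : E) (a b : (E → Bool) → ℝ)
    (hau : ∀ x β, a (Function.update x e β) = a x)
    (hbu : ∀ x β, b (Function.update x e β) = b x) :
    Ex p (fun x => (a x + ph p (x e) * b x) ^ 4)
      ≤ Ex p (fun x => a x ^ 4) + 8 * Ex p (fun x => a x ^ 2 * b x ^ 2)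
        + 3 / (p * (1 - p)) * Ex p (fun x => b x ^ 4) := by
  have hl : 0 < p * (1 - p) := mul_pos h0 (by linarith)
  rw [bon_Ex_avg p e]
  set l : ℝ := p * (1 - p) with hldef
  rw [← Ex_mul_left, ← Ex_mul_left, ← Ex_add, ← Ex_add]
  apply Ex_mono h0.le h1.le
  intro x
  simp only [hau, hbu, Function.update_self]
  have hs : 0 < √l := Real.sqrt_pos.mpr hl
  have hs2 : √l ^ 2 = l := Real.sq_sqrt hl.le
  rw [bon_ph_true, bon_ph_false, ← hldef]
  set A := a x
  set Bv := b x / √l with hBv
  have hb1 : (1 - p) / √l * b x = (1 - p) * Bv := by rw [hBv]; ring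
  have hb0 : -p / √l * b x = - (p * Bv) := by rw [hBv]; ring
  have hb2 : b x ^ 2 = l * Bv ^ 2 := by
    rw [hBv, div_pow, hs2]; field_simp
  have hb4 : 3 / l * b x ^ 4 = 3 * l * Bv ^ 4 := by
    have : b x ^ 4 = (b x ^ 2) ^ 2 := by ring
    rw [this, hb2]; field_simp
  rw [hb1, hb0, hb2, hb4]
  have key : p * (A + (1 - p) * Bv) ^ 4 + (1 - p) * (A + -(p * Bv)) ^ 4
      = A ^ 4 + 6 * l * A ^ 2 * Bv ^ 2 + 4 * l * (1 - 2 * p) * A * Bv ^ 3
        + l * (1 - 3 * l) * Bv ^ 4 := by
    rw [hldef]; ring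
  rw [key]
  have h12 : (1 - 2 * p) ^ 2 ≤ 1 := by nlinarith
  have hAB : 4 * (1 - 2 * p) * A * Bv ≤ 2 * A ^ 2 + 2 * Bv ^ 2 := by
    have : 0 ≤ 2 * (A - (1 - 2 * p) * Bv) ^ 2 + 2 * (1 - (1 - 2 * p) ^ 2) * Bv ^ 2 := by
      have := mul_nonneg (by linarith : (0:ℝ) ≤ 2 * (1 - (1 - 2 * p) ^ 2)) (sq_nonneg Bv)
      nlinarith [sq_nonneg (A - (1 - 2 * p) * Bv)]
    nlinarith
  have h3 : l * Bv ^ 2 * (4 * (1 - 2 * p) * A * Bv) ≤ l * Bv ^ 2 * (2 * A ^ 2 + 2 * Bv ^ 2) :=
    mul_le_mul_of_nonneg_left hAB (mul_nonneg hl.le (sq_nonneg _))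
  have h4 : 0 ≤ l * l * Bv ^ 4 := by positivity
  nlinarith [h3, h4]

/-- The `(2,4)` hypercontractive inequality for polynomials of degree at most `d`. -/
theorem bon_main {p : ℝ} (h0 : 0 < p) (h1 : p < 1) (T : Finset E) :
    ∀ (d : ℕ) (c : Finset E → ℝ), (∀ S, c S ≠ 0 → S.card ≤ d) →
    Ex p (fun x => (∑ S ∈ T.powerset, c S * ch p S x) ^ 4)
      ≤ BB p ^ d * (∑ S ∈ T.powerset, c S ^ 2) ^ 2 := by
  have hl : 0 < p * (1 - p) := mul_pos h0 (by linarith)
  have hl4 : p * (1 - p) ≤ 1 / 4 := by nlinarith [sq_nonneg (p - 1 / 2)]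
  have hB : BB p = 16 / (p * (1 - p)) := rfl
  set B : ℝ := BB p
  have hB64 : 64 ≤ B := by
    rw [hB, le_div_iff₀ hl]; linarith
  have hBpos : 0 < B := by linarith
  induction T using Finset.induction_on with
  | empty =>
    intro d c hc
    have hch : ∀ x : E → Bool, (c ∅ * ch p ∅ x) ^ 4 = c ∅ ^ 4 := by
      intro x; simp [ch]
    simp only [Finset.powerset_empty, Finset.sum_singleton, hch, Ex_const]
    have hone : 1 ≤ B ^ d := one_le_pow₀ (by linarith)
    nlinarith [sq_nonneg (c ∅ ^ 2), pow_nonneg (sq_nonneg (c ∅)) 2]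
  | insert e T he ih =>
    intro d c hc
    rcases d with _ | d
    · -- degree zero: constant
      have hz : ∀ S, S ≠ ∅ → c S = 0 := by
        intro S hS
        by_contra h
        exact hS (Finset.card_eq_zero.mp (Nat.le_zero.mp (hc S h)))
      have : ∀ x : E → Bool, ∑ S ∈ (insert e T).powerset, c S * ch p S x = c ∅ := by
        intro x
        rw [Finset.sum_eq_single ∅]
        · simp [ch]
        · intro S _ hS; rw [hz S hS, zero_mul]
        · intro h; exact absurd (Finset.empty_mem_powerset _) h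
      have h2 : ∑ S ∈ (insert e T).powerset, c S ^ 2 = c ∅ ^ 2 := by
        rw [Finset.sum_eq_single ∅]
        · intro S _ hS; rw [hz S hS]; ring
        · intro h; exact absurd (Finset.empty_mem_powerset _) h
      simp only [this, Ex_const, pow_zero, one_mul, h2]
      apply le_of_eq; ring
    · have hcb : ∀ S : Finset E, (if e ∈ S then 0 else c (insert e S)) ≠ 0 → S.card ≤ d := by
        intro S hS
        by_cases heS : e ∈ S
        · rw [if_pos heS] at hS; exact absurd rfl hS
        · rw [if_neg heS] at hS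
          have := hc _ hS
          rw [Finset.card_insert_of_notMem heS] at this
          omega
      have iha := ih (d + 1) c hc
      have ihb := ih d (fun S => if e ∈ S then 0 else c (insert e S)) hcb
      have eb1 : ∀ x : E → Bool,
          ∑ S ∈ T.powerset, (if e ∈ S then 0 else c (insert e S)) * ch p S x
            = ∑ S ∈ T.powerset, c (insert e S) * ch p S x := by
        intro x
        apply Finset.sum_congr rfl
        intro S hS
        rw [if_neg (fun h => he (Finset.mem_powerset.mp hS h))]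
      have eb2 : ∑ S ∈ T.powerset, (if e ∈ S then 0 else c (insert e S)) ^ 2
            = ∑ S ∈ T.powerset, c (insert e S) ^ 2 := by
        apply Finset.sum_congr rfl
        intro S hS
        rw [if_neg (fun h => he (Finset.mem_powerset.mp hS h))]
      simp only [eb1] at ihb
      rw [eb2] at ihb
      rw [Finset.sum_powerset_insert he]
      simp only [bon_dec he]
      have hm4 := bon_fourth h0 h1 e (fun x => ∑ S ∈ T.powerset, c S * ch p S x)
        (fun x => ∑ S ∈ T.powerset, c (insert e S) * ch p S x) (bon_inv (p := p) he c)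
        (bon_inv (p := p) he (fun S => c (insert e S)))
      set a : (E → Bool) → ℝ := fun x => ∑ S ∈ T.powerset, c S * ch p S x with ha
      set b : (E → Bool) → ℝ := fun x => ∑ S ∈ T.powerset, c (insert e S) * ch p S x with hb
      set P := ∑ S ∈ T.powerset, c S ^ 2 with hP
      set Q := ∑ S ∈ T.powerset, c (insert e S) ^ 2 with hQ
      have hP0 : 0 ≤ P := Finset.sum_nonneg (fun x _ => sq_nonneg _)
      have hQ0 : 0 ≤ Q := Finset.sum_nonneg (fun x _ => sq_nonneg _)
      have hcs : (Ex p (fun x => a x ^ 2 * b x ^ 2)) ^ 2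
          ≤ (B ^ (d + 1) * P ^ 2) * (B ^ d * Q ^ 2) := by
        have h := Ex_mul_sq_le h0.le h1.le (fun x => a x ^ 2) (fun x => b x ^ 2)
        have e1 : ∀ x : E → Bool, (a x ^ 2) ^ 2 = a x ^ 4 := fun x => by ring
        have e2 : ∀ x : E → Bool, (b x ^ 2) ^ 2 = b x ^ 4 := fun x => by ring
        simp only [e1, e2] at h
        refine h.trans (mul_le_mul iha ihb ?_ ?_)
        · exact Ex_nonneg h0.le h1.le (fun x => by positivity)
        · positivity
      have hab : Ex p (fun x => a x ^ 2 * b x ^ 2) ≤ B ^ (d + 1) / 8 * (P * Q) := by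
        apply abs_le_of_sq_le_sq' _ (by positivity) |>.2
        refine hcs.trans ?_
        have : (B ^ (d + 1) / 8 * (P * Q)) ^ 2
            = (B ^ (d + 1) * P ^ 2) * (B ^ d * Q ^ 2) * (B / 64) := by
          rw [pow_succ]; ring
        rw [this]
        exact le_mul_of_one_le_right (by positivity) (by rw [le_div_iff₀ (by norm_num)]; linarith)
      refine hm4.trans ?_
      have h3l : 3 / (p * (1 - p)) * Ex p (fun x => b x ^ 4)
          ≤ 3 / (p * (1 - p)) * (B ^ d * Q ^ 2) :=
        mul_le_mul_of_nonneg_left ihb (by positivity)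
      have h3l' : 3 / (p * (1 - p)) * (B ^ d * Q ^ 2) ≤ B ^ (d + 1) * Q ^ 2 := by
        have : 3 / (p * (1 - p)) ≤ B := by
          rw [hB]; gcongr; norm_num
        calc 3 / (p * (1 - p)) * (B ^ d * Q ^ 2) ≤ B * (B ^ d * Q ^ 2) :=
              mul_le_mul_of_nonneg_right this (by positivity)
          _ = _ := by ring
      have hPQ : 0 ≤ B ^ (d + 1) * (P * Q) := by positivity
      nlinarith [iha, hab, h3l, h3l', hPQ]

/-- Bonami lemma -/
theorem bonami {p : ℝ} (h0 : 0 < p) (h1 : p < 1) (s : Finset (Finset E)) (c : Finset E → ℝ)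
    (d : ℕ) (hd : ∀ S ∈ s, S.card ≤ d) :
    Ex p (fun x => (∑ S ∈ s, c S * ch p S x) ^ 4) ≤ BB p ^ d * (∑ S ∈ s, c S ^ 2) ^ 2 := by
  have h := bon_main h0 h1 (univ : Finset E) d (fun S => if S ∈ s then c S else 0) (by
    intro S hS
    by_cases hs : S ∈ s
    · exact hd S hs
    · rw [if_neg hs] at hS; exact absurd rfl hS)
  have e1 : ∀ x : E → Bool,
      ∑ S ∈ (univ : Finset E).powerset, (if S ∈ s then c S else 0) * ch p S x
        = ∑ S ∈ s, c S * ch p S x := by
    intro x
    rw [Finset.powerset_univ]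
    simp only [ite_mul, zero_mul]
    rw [← Finset.sum_filter]
    congr 1
    ext S; simp
  have e2 : ∑ S ∈ (univ : Finset E).powerset, (if S ∈ s then c S else 0) ^ 2
        = ∑ S ∈ s, c S ^ 2 := by
    rw [Finset.powerset_univ]
    have : ∀ S : Finset E, (if S ∈ s then c S else 0) ^ 2 = if S ∈ s then c S ^ 2 else 0 := by
      intro S; split_ifs <;> simp
    simp only [this]
    rw [← Finset.sum_filter]
    congr 1
    ext S; simp
  simp only [e1] at h
  rw [e2] at h
  exact h

end FK
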