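import Vale.Agent.FK.Bonami

/-!
# P063 / FK / Color [COL]: a random subset of `S` of density `ρ` has many owners

`m = ρ |S| ≥ 16`, `F = {e ∈ S : y e = true}`. `P(| |F| - m | > m/2) ≤ 4/m ≤ 1/4` (Chebyshev), expected
number of unordered pairs in `F` with the same owner `≤ ρ² |S| D / 2 ≤ m/16`, so it is `≥ m/4` with
probability at most `1/4` (Markov); `|o(F)| ≥ |F| - #pairs`.
-/

namespace FK

open Finset

variable {E : Type*} [Fintype E] [DecidableEq E]

/-- indicator of a bit -/
noncomputable def col_u (b : Bool) : ℝ := if b then 1 else 0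

omit [Fintype E] [DecidableEq E] in
theorem col_comb {V : Type*} [DecidableEq V] (F : Finset E) (o : E → V) :
    2 * (F.card : ℝ) ≤ 2 * ((F.image o).card : ℝ)
      + ∑ e ∈ F, (((F.filter fun e' => o e' = o e).card : ℝ) - 1) := by
  have h1 : ∑ v ∈ F.image o, ∑ e ∈ F with o e = v,
      (((F.filter fun e' => o e' = o e).card : ℝ) - 1)
      = ∑ e ∈ F, (((F.filter fun e' => o e' = o e).card : ℝ) - 1) :=
    Finset.sum_fiberwise_of_maps_to (fun e he => Finset.mem_image_of_mem o he) _
  have h2 : (F.card : ℝ) = ∑ v ∈ F.image o, ((F.filter fun e => o e = v).card : ℝ) := by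
    rw [Finset.card_eq_sum_card_image o F]
    push_cast
    rfl
  rw [← h1, h2, Finset.mul_sum]
  have h3 : 2 * ((F.image o).card : ℝ) = ∑ _v ∈ F.image o, (2 : ℝ) := by
    rw [Finset.sum_const, nsmul_eq_mul, mul_comm]
  rw [h3, ← Finset.sum_add_distrib]
  apply Finset.sum_le_sum
  intro v hv
  have h4 : ∑ e ∈ F with o e = v, (((F.filter fun e' => o e' = o e).card : ℝ) - 1)
      = ((F.filter fun e => o e = v).card : ℝ) * (((F.filter fun e => o e = v).card : ℝ) - 1) := by
    rw [Finset.sum_congr rfl (g := fun _ => (((F.filter fun e => o e = v).card : ℝ) - 1))]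
    · rw [Finset.sum_const, nsmul_eq_mul]
    · intro e he
      rw [(Finset.mem_filter.mp he).2]
  rw [h4]
  obtain ⟨e, he, hev⟩ := Finset.mem_image.mp hv
  have hc : 1 ≤ (F.filter fun e => o e = v).card :=
    Finset.card_pos.mpr ⟨e, Finset.mem_filter.mpr ⟨he, hev⟩⟩
  set c := (F.filter fun e => o e = v).card
  rcases Nat.lt_or_ge c 2 with h | h
  · have : c = 1 := by omega
    rw [this]; norm_num
  · have h2 : (2 : ℝ) ≤ c := by exact_mod_cast h
    nlinarith

theorem col_Ex_u (ρ : ℝ) (e : E) : Ex ρ (fun y : E → Bool => col_u (y e)) = ρ := by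
  have h := bon_Ex_indep ρ e col_u (fun _ => 1) (fun _ _ => rfl)
  simp only [mul_one, Ex_const] at h
  rw [h]; simp [col_u]

theorem col_Ex_uu (ρ : ℝ) {e e' : E} (hne : e' ≠ e) :
    Ex ρ (fun y : E → Bool => col_u (y e) * col_u (y e')) = ρ ^ 2 := by
  have h := bon_Ex_indep ρ e col_u (fun y => col_u (y e')) (fun x b => by
    rw [Function.update_of_ne hne])
  rw [h, col_Ex_u]; simp [col_u]; ring

theorem col_var {ρ : ℝ} (h0 : 0 < ρ) (h1 : ρ < 1) (S : Finset E) :
    Ex ρ (fun y : E → Bool => ((∑ e ∈ S, col_u (y e)) - ρ * S.card) ^ 2) ≤ ρ * S.card := by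
  have hl : 0 < ρ * (1 - ρ) := mul_pos h0 (by linarith)
  have h := Ex_poly_sq h0 h1 (S.image fun e => ({e} : Finset E)) (fun _ => √(ρ * (1 - ρ)))
  have hinj : Set.InjOn (fun e : E => ({e} : Finset E)) (S : Set E) := by
    intro a _ b _ hab
    exact Finset.singleton_injective hab
  have e1 : ∀ y : E → Bool,
      ∑ T ∈ S.image (fun e => ({e} : Finset E)), √(ρ * (1 - ρ)) * ch ρ T y
        = (∑ e ∈ S, col_u (y e)) - ρ * S.card := by
    intro y
    rw [Finset.sum_image hinj]
    have : ρ * (S.card : ℝ) = ∑ _e ∈ S, ρ := by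
      rw [Finset.sum_const, nsmul_eq_mul, mul_comm]
    rw [this, ← Finset.sum_sub_distrib]
    apply Finset.sum_congr rfl
    intro e _
    unfold ch ph col_u
    rw [Finset.prod_singleton]
    field_simp [(Real.sqrt_pos.mpr hl).ne']
  have e2 : ∑ T ∈ S.image (fun e => ({e} : Finset E)), √(ρ * (1 - ρ)) ^ 2
      = ρ * (1 - ρ) * S.card := by
    rw [Finset.sum_const, Finset.card_image_of_injOn hinj, Real.sq_sqrt hl.le, nsmul_eq_mul,
      mul_comm]
  simp only [e1] at h
  rw [h, e2]
  have : 0 ≤ ρ * ρ * (S.card : ℝ) := by positivity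
  nlinarith

theorem color {V : Type*} [DecidableEq V] (S : Finset E) (o : E → V) {ρ D : ℝ} (h0 : 0 < ρ)
    (h1 : ρ < 1) (hD : ∀ v, ((S.filter fun e => o e = v).card : ℝ) ≤ D) (hρD : 8 * ρ * D ≤ 1)
    (hk : 16 ≤ ρ * S.card) :
    1 / 2 ≤ Ex ρ (fun y : E → Bool =>
      if ((S.filter fun e => y e = true).card : ℝ) ≤ 2 * ρ * S.card ∧
        ρ * S.card / 4 ≤ (((S.filter fun e => y e = true).image o).card : ℝ) then 1 else 0) := by
  set m : ℝ := ρ * S.card with hm
  have hmpos : 0 < m := by linarith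
  -- the number of ordered pairs with the same owner
  set W : (E → Bool) → ℝ := fun y => ∑ e ∈ S, ∑ e' ∈ S with (e' ≠ e ∧ o e' = o e),
    col_u (y e) * col_u (y e') with hW
  have hEW : Ex ρ W ≤ m / 8 := by
    rw [hW, Ex_sum]
    have h : ∀ e ∈ S, Ex ρ (fun y : E → Bool => ∑ e' ∈ S with (e' ≠ e ∧ o e' = o e),
        col_u (y e) * col_u (y e')) ≤ ρ / 8 := by
      intro e _
      rw [Ex_sum]
      have e1 : ∀ e' ∈ S.filter (fun e' => e' ≠ e ∧ o e' = o e),
          Ex ρ (fun y : E → Bool => col_u (y e) * col_u (y e')) = ρ ^ 2 := by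
        intro e' he'
        exact col_Ex_uu ρ (Finset.mem_filter.mp he').2.1
      rw [Finset.sum_congr rfl e1, Finset.sum_const, nsmul_eq_mul]
      have hc : ((S.filter (fun e' => e' ≠ e ∧ o e' = o e)).card : ℝ) ≤ D := by
        refine le_trans ?_ (hD (o e))
        have hsub : (S.filter (fun e' => e' ≠ e ∧ o e' = o e)) ⊆ (S.filter fun e' => o e' = o e) := by
          intro e' he'
          rw [Finset.mem_filter] at he' ⊢
          exact ⟨he'.1, he'.2.2⟩
        exact_mod_cast Finset.card_le_card hsub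
      calc ((S.filter (fun e' => e' ≠ e ∧ o e' = o e)).card : ℝ) * ρ ^ 2 ≤ D * ρ ^ 2 :=
            mul_le_mul_of_nonneg_right hc (sq_nonneg _)
        _ = (8 * ρ * D) * ρ / 8 := by ring
        _ ≤ 1 * ρ / 8 := by gcongr
        _ = ρ / 8 := by ring
    refine (Finset.sum_le_sum h).trans ?_
    rw [Finset.sum_const, nsmul_eq_mul, hm]
    apply le_of_eq; ring
  have hvar := col_var h0 h1 S
  rw [← hm] at hvar
  have hW0 : ∀ y, 0 ≤ W y := by
    intro y
    refine Finset.sum_nonneg fun e _ => Finset.sum_nonneg fun e' _ => ?_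
    unfold col_u
    split_ifs <;> norm_num
  -- pointwise bound
  have hpt : ∀ y : E → Bool,
      1 - (4 / m ^ 2 * ((∑ e ∈ S, col_u (y e)) - m) ^ 2 + 2 / m * W y) ≤
      (if ((S.filter fun e => y e = true).card : ℝ) ≤ 2 * ρ * S.card ∧
        m / 4 ≤ (((S.filter fun e => y e = true).image o).card : ℝ) then (1 : ℝ) else 0) := by
    intro y
    set F := S.filter fun e => y e = true with hF
    have hX : ∑ e ∈ S, col_u (y e) = F.card := by
      unfold col_u
      rw [Finset.card_filter, Nat.cast_sum]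
      apply Finset.sum_congr rfl
      intro e _
      split_ifs <;> simp
    have hcomb := col_comb F o
    have hWF : W y = ∑ e ∈ F, (((F.filter fun e' => o e' = o e).card : ℝ) - 1) := by
      rw [hW]
      simp only
      have h2 : ∀ e ∈ S, ∑ e' ∈ S with (e' ≠ e ∧ o e' = o e), col_u (y e) * col_u (y e')
          = if y e = true then (((F.filter fun e' => o e' = o e).card : ℝ) - 1) else 0 := by
        intro e he
        by_cases hy : y e = true
        · rw [if_pos hy]
          have h3 : col_u (y e) = 1 := by rw [hy]; simp [col_u]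
          rw [h3]
          simp only [one_mul]
          have h4 : ∑ e' ∈ S with (e' ≠ e ∧ o e' = o e), col_u (y e')
              = (((F.filter fun e' => o e' = o e).erase e).card : ℝ) := by
            unfold col_u
            rw [Finset.sum_ite, Finset.sum_const_zero, add_zero, Finset.sum_const, nsmul_eq_mul,
              mul_one]
            congr 2
            ext e'
            simp only [hF, Finset.mem_filter, Finset.mem_erase]
            tauto
          rw [h4, Finset.card_erase_of_mem]
          · rw [Nat.cast_sub]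
            · simp
            · exact Finset.card_pos.mpr ⟨e, by simp [hF, he, hy]⟩
          · simp [hF, he, hy]
        · rw [if_neg hy]
          have h3 : col_u (y e) = 0 := by unfold col_u; rw [if_neg hy]
          rw [h3]
          simp
      rw [Finset.sum_congr rfl h2, ← Finset.sum_filter]
    split_ifs with hgood
    · have h5 : 0 ≤ 4 / m ^ 2 * ((∑ e ∈ S, col_u (y e)) - m) ^ 2 := by positivity
      have h6 : 0 ≤ 2 / m * W y := mul_nonneg (by positivity) (hW0 y)
      linarith
    · -- bad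
      by_contra hcon
      push Not at hcon
      have h5 : 0 ≤ 4 / m ^ 2 * ((∑ e ∈ S, col_u (y e)) - m) ^ 2 := by positivity
      have h6 : 0 ≤ 2 / m * W y := mul_nonneg (by positivity) (hW0 y)
      have h7 : 4 / m ^ 2 * ((∑ e ∈ S, col_u (y e)) - m) ^ 2 < 1 := by linarith
      have h8 : 2 / m * W y < 1 := by linarith
      have h9 : ((∑ e ∈ S, col_u (y e)) - m) ^ 2 < (m / 2) ^ 2 := by
        rw [div_mul_eq_mul_div, div_lt_one (by positivity)] at h7
        nlinarith
      have h10 := abs_lt_of_sq_lt_sq h9 (by positivity)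
      rw [abs_lt] at h10
      have h11 : W y < m / 2 := by
        rw [div_mul_eq_mul_div, div_lt_one hmpos] at h8
        linarith
      rw [hX] at h10
      apply hgood
      constructor
      · have : 2 * ρ * (S.card : ℝ) = 2 * m := by rw [hm]; ring
        rw [this]; linarith [h10.2]
      · rw [← hWF] at hcomb
        linarith [h10.1]
  refine le_trans ?_ (Ex_mono h0.le h1.le hpt)
  rw [Ex_sub, Ex_const, Ex_add, Ex_mul_left, Ex_mul_left]
  have h12 : 4 / m ^ 2 * Ex ρ (fun y : E → Bool => ((∑ e ∈ S, col_u (y e)) - m) ^ 2) ≤ 1 / 4 := by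
    calc 4 / m ^ 2 * Ex ρ (fun y : E → Bool => ((∑ e ∈ S, col_u (y e)) - m) ^ 2)
        ≤ 4 / m ^ 2 * m := mul_le_mul_of_nonneg_left hvar (by positivity)
      _ = 4 / m := by field_simp
      _ ≤ 4 / 16 := by gcongr
      _ = 1 / 4 := by norm_num
  have h13 : 2 / m * Ex ρ W ≤ 1 / 4 := by
    calc 2 / m * Ex ρ W ≤ 2 / m * (m / 8) := mul_le_mul_of_nonneg_left hEW (by positivity)
      _ = 1 / 4 := by field_simp; norm_num
  linarith

end FK
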