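import Mathlib

/-!
# P063 / FK / Defs: the p-biased cube

`E` is the set of coordinates (edges), a configuration is `x : E → Bool`.
-/

namespace FK

open Finset

/-- weight of one bit -/
noncomputable def wt (p : ℝ) (b : Bool) : ℝ := if b then p else 1 - p

/-- normalised coordinate function -/
noncomputable def ph (p : ℝ) (b : Bool) : ℝ :=
  ((if b then 1 else 0) - p) / Real.sqrt (p * (1 - p))

/-- `λ = p (1 - p)` -/
noncomputable def la (p : ℝ) : ℝ := p * (1 - p)

/-- hypercontractivity constant `B = 16 / λ` -/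
noncomputable def BB (p : ℝ) : ℝ := 16 / (p * (1 - p))

section

variable {E : Type*} [Fintype E] [DecidableEq E]

/-- weight of a configuration -/
noncomputable def WW (p : ℝ) (x : E → Bool) : ℝ := ∏ e, wt p (x e)

/-- expectation -/
noncomputable def Ex (p : ℝ) (g : (E → Bool) → ℝ) : ℝ := ∑ x, WW p x * g x

/-- the p-biased character -/
noncomputable def ch (p : ℝ) (S : Finset E) (x : E → Bool) : ℝ := ∏ e ∈ S, ph p (x e)

/-- Fourier coefficient -/
noncomputable def ft (p : ℝ) (g : (E → Bool) → ℝ) (S : Finset E) : ℝ :=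
  Ex p (fun x => g x * ch p S x)

/-- `y` on `J`, `x` outside `J` -/
def mix (J : Finset E) (x y : E → Bool) : E → Bool := fun e => if e ∈ J then y e else x e

/-- discrete derivative -/
def dd (e : E) (g : (E → Bool) → ℝ) (x : E → Bool) : ℝ :=
  g (Function.update x e true) - g (Function.update x e false)

/-- influence -/
noncomputable def Inf (p : ℝ) (e : E) (g : (E → Bool) → ℝ) : ℝ := Ex p (fun x => (dd e g x) ^ 2)

/-- total influence -/
noncomputable def II (p : ℝ) (g : (E → Bool) → ℝ) : ℝ := ∑ e, Inf p e g

/-- `0/1` valued -/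
def Bool01 (g : (E → Bool) → ℝ) : Prop := ∀ x, g x = 0 ∨ g x = 1

end

end FK
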