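import Vale.Agent.FK.Statement

/-!
# P063 / FK / Hyper: vertex support, invariant functions
-/

namespace FK

/-- vertex support of a set of edges -/
def supp {n r : ℕ} (F : Finset (Edge n r)) : Finset (Fin n) := F.biUnion fun e => e.1

/-- invariance of a function -/
def Symm {n r : ℕ} (f : (Edge n r → Bool) → ℝ) : Prop :=
  ∀ (σ : Equiv.Perm (Fin n)) (x : Edge n r → Bool), f (fun e => x (permE σ e)) = f x

end FK
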