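import Vale.Agent.FK.Parseval
import Vale.Agent.FK.Bonami

/-!
# P063 / FK / Junta [JUN]: the low levels of a 0/1 function sit on the influential coordinates

`s = ∑_{S ∋ e, |S| ≤ d} ft(S)²`, `P = ∑_{S ∋ e, |S| ≤ d} ft(S) χ_{S \ e}`:
`s = √λ E (P · dd)`, `E |P| |dd| ≤ (E P² dd²)^{1/2} Inf^{1/2} ≤ ((E P⁴)^{1/2} Inf^{1/2})^{1/2} Inf^{1/2}`
(`dd² = dd⁴ ∈ {0,1}`), `E P⁴ ≤ B^d s²`, so `s ≤ λ B^{d/2} Inf^{3/2}`.
-/

namespace FK

open Finset

set_option linter.unusedSectionVars false

variable {E : Type*} [Fintype E] [DecidableEq E]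

theorem dd_cube {g : (E → Bool) → ℝ} (hg : Bool01 g) (e : E) (x : E → Bool) :
    dd e g x ^ 3 = dd e g x := by
  unfold dd
  rcases hg (Function.update x e true) with h1 | h1 <;>
    rcases hg (Function.update x e false) with h2 | h2 <;> rw [h1, h2] <;> norm_num

theorem dd_four {g : (E → Bool) → ℝ} (hg : Bool01 g) (e : E) (x : E → Bool) :
    (dd e g x ^ 2) ^ 2 = dd e g x ^ 2 := by
  unfold dd
  rcases hg (Function.update x e true) with h1 | h1 <;>
    rcases hg (Function.update x e false) with h2 | h2 <;> rw [h1, h2] <;> norm_num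

theorem Inf_nonneg {p : ℝ} (h0 : 0 ≤ p) (h1 : p ≤ 1) (e : E) (g : (E → Bool) → ℝ) :
    0 ≤ Inf p e g := Ex_nonneg h0 h1 fun _ => sq_nonneg _

theorem sum_ft_mem_card_le {p : ℝ} (h0 : 0 < p) (h1 : p < 1) {g : (E → Bool) → ℝ}
    (hg : Bool01 g) (e : E) (d : ℕ) :
    ∑ S : Finset E with (e ∈ S ∧ S.card ≤ d), ft p g S ^ 2 ≤
      la p * Real.sqrt (BB p) ^ d * (Inf p e g * Real.sqrt (Inf p e g)) := by
  set A : Finset (Finset E) := Finset.univ.filter (fun S : Finset E => e ∈ S ∧ S.card ≤ d) with hA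
  set s : ℝ := ∑ S ∈ A, ft p g S ^ 2 with hs
  have hs0 : 0 ≤ s := Finset.sum_nonneg fun _ _ => sq_nonneg _
  have hla := la_pos h0 h1
  have hI := Inf_nonneg h0.le h1.le e g
  have hinj : ∀ S ∈ A, ∀ S' ∈ A, S.erase e = S'.erase e → S = S' := by
    intro S hS S' hS' h
    have m1 := (Finset.mem_filter.1 hS).2.1
    have m2 := (Finset.mem_filter.1 hS').2.1
    rw [← Finset.insert_erase m1, ← Finset.insert_erase m2, h]
  -- the polynomial
  set P : (E → Bool) → ℝ := fun x => ∑ S ∈ A, ft p g S * ch p (S.erase e) x with hP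
  have hPimg : ∀ x, P x = ∑ T ∈ A.image (fun S => S.erase e),
      ft p g (insert e T) * ch p T x := by
    intro x
    rw [Finset.sum_image hinj]
    refine Finset.sum_congr rfl fun S hS => ?_
    rw [Finset.insert_erase (Finset.mem_filter.1 hS).2.1]
  have hsimg : ∑ T ∈ A.image (fun S => S.erase e), ft p g (insert e T) ^ 2 = s := by
    rw [Finset.sum_image hinj]
    refine Finset.sum_congr rfl fun S hS => ?_
    rw [Finset.insert_erase (Finset.mem_filter.1 hS).2.1]
  have hP4 : Ex p (fun x => P x ^ 4) ≤ BB p ^ d * s ^ 2 := by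
    have h2 := bonami h0 h1 (A.image (fun S => S.erase e)) (fun T => ft p g (insert e T)) d
      (by
        intro T hT
        obtain ⟨S, hS, rfl⟩ := Finset.mem_image.1 hT
        exact (Finset.card_erase_le).trans (Finset.mem_filter.1 hS).2.2)
    rw [hsimg] at h2
    simp only [hPimg]
    exact h2
  have hsP : s = Real.sqrt (la p) * Ex p (fun x => P x * dd e g x) := by
    have h2 : ∀ S ∈ A, ft p g S ^ 2 =
        Real.sqrt (la p) * Ex p (fun x => ft p g S * (dd e g x * ch p (S.erase e) x)) := by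
      intro S hS
      have h3 := ft_insert h0 h1 g (Finset.notMem_erase e S)
      rw [Finset.insert_erase (Finset.mem_filter.1 hS).2.1] at h3
      rw [Ex_mul_left, sq]
      conv_lhs =>
        rhs
        rw [h3]
      ring
    rw [hs, Finset.sum_congr rfl h2, ← Finset.mul_sum, ← Ex_sum]
    congr 2
    funext x
    rw [hP]
    simp only
    rw [Finset.sum_mul]
    refine Finset.sum_congr rfl fun S _ => ?_
    ring
  -- two Cauchy-Schwarz
  have hCS1 : (Ex p (fun x => P x * dd e g x)) ^ 2 ≤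
      Ex p (fun x => (P x * dd e g x) ^ 2) * Inf p e g := by
    have h2 := Ex_mul_sq_le h0.le h1.le (fun x => P x * dd e g x) (fun x => dd e g x ^ 2)
    have e1 : (fun x => P x * dd e g x * dd e g x ^ 2) = fun x => P x * dd e g x := by
      funext x
      have := dd_cube hg e x
      calc P x * dd e g x * dd e g x ^ 2 = P x * dd e g x ^ 3 := by ring
        _ = _ := by rw [this]
    have e2 : (fun x => (dd e g x ^ 2) ^ 2) = fun x => dd e g x ^ 2 := by
      funext x
      exact dd_four hg e x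
    rw [e1, e2] at h2
    exact h2
  have hCS2 : (Ex p (fun x => (P x * dd e g x) ^ 2)) ^ 2 ≤
      Ex p (fun x => P x ^ 4) * Inf p e g := by
    have h2 := Ex_mul_sq_le h0.le h1.le (fun x => P x ^ 2) (fun x => dd e g x ^ 2)
    have e1 : (fun x => P x ^ 2 * dd e g x ^ 2) = fun x => (P x * dd e g x) ^ 2 := by
      funext x
      ring
    have e2 : (fun x => (dd e g x ^ 2) ^ 2) = fun x => dd e g x ^ 2 := by
      funext x
      exact dd_four hg e x
    have e3 : (fun x => (P x ^ 2) ^ 2) = fun x => P x ^ 4 := by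
      funext x
      ring
    rw [e1, e2, e3] at h2
    exact h2
  set I : ℝ := Inf p e g with hIdef
  set M : ℝ := Ex p (fun x => P x * dd e g x) with hM
  set N : ℝ := Ex p (fun x => (P x * dd e g x) ^ 2) with hN
  have hN0 : 0 ≤ N := Ex_nonneg h0.le h1.le fun _ => sq_nonneg _
  have hB : 0 ≤ BB p := by
    unfold BB
    have : 0 < p * (1 - p) := hla
    positivity
  have hs2 : s ^ 2 = la p * M ^ 2 := by
    rw [hsP, mul_pow, Real.sq_sqrt hla.le]
  have hkey : s ^ 2 * s ^ 2 ≤ (la p ^ 2 * BB p ^ d * I ^ 3) * s ^ 2 := by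
    have h2 : M ^ 2 * M ^ 2 ≤ (N * I) * (N * I) :=
      mul_le_mul hCS1 hCS1 (sq_nonneg _) (mul_nonneg hN0 hI)
    have h3 : N ^ 2 ≤ BB p ^ d * s ^ 2 * I :=
      hCS2.trans (mul_le_mul_of_nonneg_right hP4 hI)
    calc s ^ 2 * s ^ 2 = la p ^ 2 * (M ^ 2 * M ^ 2) := by rw [hs2]; ring
      _ ≤ la p ^ 2 * ((N * I) * (N * I)) := mul_le_mul_of_nonneg_left h2 (sq_nonneg _)
      _ = la p ^ 2 * I ^ 2 * N ^ 2 := by ring
      _ ≤ la p ^ 2 * I ^ 2 * (BB p ^ d * s ^ 2 * I) :=
        mul_le_mul_of_nonneg_left h3 (by positivity)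
      _ = _ := by ring
  have hR0 : 0 ≤ la p * Real.sqrt (BB p) ^ d * (I * Real.sqrt I) := by positivity
  have hRsq : (la p * Real.sqrt (BB p) ^ d * (I * Real.sqrt I)) ^ 2 =
      la p ^ 2 * BB p ^ d * I ^ 3 := by
    have e1 : (Real.sqrt (BB p) ^ d) ^ 2 = BB p ^ d := by
      rw [← pow_mul, mul_comm, pow_mul, Real.sq_sqrt hB]
    calc _ = la p ^ 2 * (Real.sqrt (BB p) ^ d) ^ 2 * (I ^ 2 * Real.sqrt I ^ 2) := by ring
      _ = _ := by rw [e1, Real.sq_sqrt hI]; ring
  rcases hs0.eq_or_lt with hz | hz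
  · rw [← hz]
    exact hR0
  · have h4 : s ^ 2 ≤ la p ^ 2 * BB p ^ d * I ^ 3 :=
      le_of_mul_le_mul_right hkey (by positivity)
    rw [← hRsq] at h4
    exact le_of_sq_le_sq h4 hR0

/-- sets of size `≤ d` which are not contained in the set of coordinates of influence `≥ τ` -/
theorem junta {p : ℝ} (h0 : 0 < p) (h1 : p < 1) {g : (E → Bool) → ℝ}
    (hg : Bool01 g) (d : ℕ) {τ : ℝ} (hτ : 0 ≤ τ) :
    ∑ S : Finset E with (S.card ≤ d ∧ ¬ ∀ e ∈ S, τ ≤ Inf p e g), ft p g S ^ 2 ≤
      la p * Real.sqrt (BB p) ^ d * Real.sqrt τ * II p g := by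
  have hla := la_pos h0 h1
  have hstep : ∑ S : Finset E with (S.card ≤ d ∧ ¬ ∀ e ∈ S, τ ≤ Inf p e g), ft p g S ^ 2 ≤
      ∑ e ∈ Finset.univ.filter (fun e : E => Inf p e g < τ),
        ∑ S : Finset E with (e ∈ S ∧ S.card ≤ d), ft p g S ^ 2 := by
    have h2 : ∀ e : E, ∑ S : Finset E with (e ∈ S ∧ S.card ≤ d), ft p g S ^ 2 =
        ∑ S : Finset E, if (e ∈ S ∧ S.card ≤ d) then ft p g S ^ 2 else 0 := by
      intro e
      rw [Finset.sum_filter]
    rw [Finset.sum_congr rfl fun e _ => h2 e, Finset.sum_comm, Finset.sum_filter]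
    refine Finset.sum_le_sum fun S _ => ?_
    split_ifs with h3
    · obtain ⟨hc, hne⟩ := h3
      push Not at hne
      obtain ⟨e, heS, he⟩ := hne
      have h4 : ft p g S ^ 2 = if (e ∈ S ∧ S.card ≤ d) then ft p g S ^ 2 else 0 := by
        rw [if_pos ⟨heS, hc⟩]
      refine h4.le.trans ?_
      have hmem : e ∈ Finset.univ.filter (fun e : E => Inf p e g < τ) :=
        Finset.mem_filter.2 ⟨mem_univ e, he⟩
      refine Finset.single_le_sum (f := fun e => if (e ∈ S ∧ S.card ≤ d) then ft p g S ^ 2 else 0)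
        (fun e _ => ?_) hmem
      split_ifs
      · exact sq_nonneg _
      · exact le_rfl
    · refine Finset.sum_nonneg fun e _ => ?_
      split_ifs
      · exact sq_nonneg _
      · exact le_rfl
  refine hstep.trans ?_
  have h5 : ∀ e ∈ Finset.univ.filter (fun e : E => Inf p e g < τ),
      ∑ S : Finset E with (e ∈ S ∧ S.card ≤ d), ft p g S ^ 2 ≤
      la p * Real.sqrt (BB p) ^ d * Real.sqrt τ * Inf p e g := by
    intro e he
    have h6 := sum_ft_mem_card_le h0 h1 hg e d
    have hI := Inf_nonneg h0.le h1.le e g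
    have h7 : Real.sqrt (Inf p e g) ≤ Real.sqrt τ :=
      Real.sqrt_le_sqrt (Finset.mem_filter.1 he).2.le
    refine h6.trans ?_
    have h8 : Inf p e g * Real.sqrt (Inf p e g) ≤ Inf p e g * Real.sqrt τ :=
      mul_le_mul_of_nonneg_left h7 hI
    calc la p * Real.sqrt (BB p) ^ d * (Inf p e g * Real.sqrt (Inf p e g))
        ≤ la p * Real.sqrt (BB p) ^ d * (Inf p e g * Real.sqrt τ) :=
          mul_le_mul_of_nonneg_left h8 (by positivity)
      _ = _ := by ring
  refine (Finset.sum_le_sum h5).trans ?_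
  rw [← Finset.mul_sum]
  refine mul_le_mul_of_nonneg_left ?_ (by positivity)
  exact Finset.sum_le_sum_of_subset_of_nonneg (Finset.subset_univ _)
    fun e _ _ => Inf_nonneg h0.le h1.le e g

/-- Markov: number of coordinates with influence at least `τ` -/
theorem card_influential_le {p : ℝ} (h0 : 0 < p) (h1 : p < 1) (g : (E → Bool) → ℝ)
    {τ : ℝ} (hτ : 0 < τ) :
    ((Finset.univ.filter fun e => τ ≤ Inf p e g).card : ℝ) ≤ II p g / τ := by
  rw [le_div_iff₀ hτ]
  have h2 : ((Finset.univ.filter fun e => τ ≤ Inf p e g).card : ℝ) * τ =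
      ∑ _e ∈ Finset.univ.filter (fun e => τ ≤ Inf p e g), τ := by
    rw [Finset.sum_const, nsmul_eq_mul]
  rw [h2]
  refine (Finset.sum_le_sum fun e he => (Finset.mem_filter.1 he).2).trans ?_
  exact Finset.sum_le_sum_of_subset_of_nonneg (Finset.subset_univ _)
    fun e _ _ => Inf_nonneg h0.le h1.le e g

/-- number of subsets of size `≤ d` of a set of size `j` is at most `(j+1)^d` -/
theorem card_small_subsets_le (A : Finset E) (d : ℕ) :
    (A.powerset.filter fun F => F.card ≤ d).card ≤ (A.card + 1) ^ d := by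
  induction d with
  | zero =>
    have : (A.powerset.filter fun F => F.card ≤ 0) = {∅} := by
      ext F
      simp only [Finset.mem_filter, Finset.mem_powerset, Nat.le_zero, Finset.card_eq_zero,
        Finset.mem_singleton]
      constructor
      · exact fun h => h.2
      · rintro rfl
        exact ⟨Finset.empty_subset A, rfl⟩
    rw [this]
    simp
  | succ d ih =>
    have hsub : (A.powerset.filter fun F => F.card ≤ d + 1) ⊆
        ((A.powerset.filter fun F => F.card ≤ d) ×ˢ (insertNone A)).image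
          (fun z => match z.2 with
            | none => z.1
            | some a => insert a z.1) := by
      intro F hF
      obtain ⟨hF1, hF2⟩ := Finset.mem_filter.1 hF
      rw [Finset.mem_image]
      by_cases hd : F.card ≤ d
      · refine ⟨(F, none), ?_, rfl⟩
        rw [Finset.mem_product]
        exact ⟨Finset.mem_filter.2 ⟨hF1, hd⟩, Finset.none_mem_insertNone⟩
      · have hne : F.Nonempty := by
          rw [← Finset.card_pos]
          omega
        obtain ⟨a, ha⟩ := hne
        refine ⟨(F.erase a, some a), ?_, ?_⟩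
        · rw [Finset.mem_product]
          refine ⟨Finset.mem_filter.2 ⟨?_, ?_⟩, ?_⟩
          · rw [Finset.mem_powerset] at hF1 ⊢
            exact (Finset.erase_subset a F).trans hF1
          · rw [Finset.card_erase_of_mem ha]
            omega
          · rw [Finset.some_mem_insertNone]
            exact (Finset.mem_powerset.1 hF1) ha
        · exact Finset.insert_erase ha
    refine (Finset.card_le_card hsub).trans (Finset.card_image_le.trans ?_)
    rw [Finset.card_product, Finset.card_insertNone, pow_succ]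
    exact Nat.mul_le_mul_right _ ih

end FK
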