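import Vale.Agent.FK.Hyper

/-!
# P063 / FK / Owner [OWN]: an owner vertex for each edge, few edges per owner

Strong induction on `S`. If every vertex `v ∈ supp S` had degree `> D` in `S`, then with
`s = |supp S| ≥ 1`: `D s < r |S|`, and `D < deg v ≤ (s - 1).choose (r - 1) ≤ s^(r-1) ≤ (r |S| / D)^(r-1) ≤ D`,
contradiction. So some `v ∈ supp S` has degree `≤ D`: it owns all its edges, and induction for the
edges which do not contain `v`.
-/

namespace FK

open Finset

theorem mem_supp {n r : ℕ} {F : Finset (Edge n r)} {v : Fin n} :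
    v ∈ supp F ↔ ∃ e ∈ F, v ∈ e.1 := by
  unfold supp
  simp only [Finset.mem_biUnion]

theorem sum_deg {n r : ℕ} (S : Finset (Edge n r)) :
    ∑ v ∈ supp S, (S.filter fun e => v ∈ e.1).card = r * S.card := by
  have h1 : ∀ v, (S.filter fun e => v ∈ e.1).card = ∑ e ∈ S, if v ∈ e.1 then 1 else 0 := by
    intro v; rw [Finset.card_filter]
  simp only [h1]
  rw [Finset.sum_comm]
  have h2 : ∀ e ∈ S, ∑ v ∈ supp S, (if v ∈ e.1 then 1 else 0) = r := by
    intro e he
    rw [← Finset.card_filter]
    have : (supp S).filter (fun v => v ∈ e.1) = e.1 := by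
      ext v
      simp only [Finset.mem_filter, mem_supp]
      constructor
      · rintro ⟨_, h⟩; exact h
      · intro h; exact ⟨⟨e, he, h⟩, h⟩
    rw [this, e.2]
  rw [Finset.sum_congr rfl h2, Finset.sum_const, smul_eq_mul, mul_comm]

theorem deg_le {n r : ℕ} (S : Finset (Edge n r)) (v : Fin n) :
    (S.filter fun e => v ∈ e.1).card ≤ (supp S).card ^ (r - 1) := by
  have h : (S.filter fun e => v ∈ e.1).card ≤ ((supp S).powersetCard (r - 1)).card := by
    refine Finset.card_le_card_of_injOn (fun e => e.1.erase v) ?_ ?_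
    · intro e he
      have he' := Finset.mem_filter.1 (Finset.mem_coe.1 he)
      refine Finset.mem_coe.2 (Finset.mem_powersetCard.2 ⟨?_, ?_⟩)
      · intro w hw
        exact mem_supp.2 ⟨e, he'.1, (Finset.mem_erase.1 hw).2⟩
      · rw [Finset.card_erase_of_mem he'.2, e.2]
    · intro e he e' he' hee
      have h1 := Finset.mem_filter.1 (Finset.mem_coe.1 he)
      have h2 := Finset.mem_filter.1 (Finset.mem_coe.1 he')
      apply Subtype.ext
      have hee' : e.1.erase v = e'.1.erase v := hee
      rw [← Finset.insert_erase h1.2, ← Finset.insert_erase h2.2, hee']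
  rw [Finset.card_powersetCard] at h
  exact h.trans (Nat.choose_le_pow _ _)

theorem exists_low_deg {n r : ℕ} (hr : 2 ≤ r) (S : Finset (Edge n r)) (hS : S.Nonempty) {D : ℝ}
    (hD : 0 < D) (h : (r * S.card / D : ℝ) ^ (r - 1) ≤ D) :
    ∃ v ∈ supp S, ((S.filter fun e => v ∈ e.1).card : ℝ) ≤ D := by
  by_contra hcon
  push Not at hcon
  have hne : (supp S).Nonempty := by
    obtain ⟨e, he⟩ := hS
    have : e.1.Nonempty := by
      rw [← Finset.card_pos, e.2]; omega
    obtain ⟨v, hv⟩ := this
    exact ⟨v, mem_supp.2 ⟨e, he, hv⟩⟩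
  have hsum : ((supp S).card : ℝ) * D < r * S.card := by
    have h1 : ∑ v ∈ supp S, D < ∑ v ∈ supp S, ((S.filter fun e => v ∈ e.1).card : ℝ) :=
      Finset.sum_lt_sum_of_nonempty hne hcon
    rw [Finset.sum_const, nsmul_eq_mul] at h1
    have h2 : ∑ v ∈ supp S, ((S.filter fun e => v ∈ e.1).card : ℝ) = r * S.card := by
      have := sum_deg S
      exact_mod_cast this
    linarith
  obtain ⟨v, hv⟩ := hne
  have h1 := hcon v hv
  have h2 : ((S.filter fun e => v ∈ e.1).card : ℝ) ≤ ((supp S).card : ℝ) ^ (r - 1) := by
    exact_mod_cast deg_le S v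
  have h3 : ((supp S).card : ℝ) ≤ r * S.card / D := by
    rw [le_div_iff₀ hD]; exact hsum.le
  have h4 : ((supp S).card : ℝ) ^ (r - 1) ≤ (r * S.card / D : ℝ) ^ (r - 1) :=
    pow_le_pow_left₀ (Nat.cast_nonneg _) h3 _
  linarith

theorem owner {n r : ℕ} (hr : 2 ≤ r) (hn : 0 < n) (S : Finset (Edge n r)) {D : ℝ} (hD : 0 < D)
    (h : (r * S.card / D : ℝ) ^ (r - 1) ≤ D) :
    ∃ o : Edge n r → Fin n, (∀ e ∈ S, o e ∈ e.1) ∧
      ∀ v, ((S.filter fun e => o e = v).card : ℝ) ≤ D := by
  classical
  induction S using Finset.strongInduction with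
  | H S ih =>
    rcases S.eq_empty_or_nonempty with hS | hS
    · subst hS
      refine ⟨fun _ => ⟨0, hn⟩, ?_, ?_⟩
      · intro e he; exact absurd he (Finset.notMem_empty e)
      · intro v; simpa using hD.le
    · obtain ⟨v, hv, hdeg⟩ := exists_low_deg hr S hS hD h
      obtain ⟨e0, he0, hve0⟩ := mem_supp.1 hv
      set S' := S.filter fun e => ¬ v ∈ e.1 with hS'
      have hss : S' ⊂ S := by
        refine Finset.filter_ssubset.2 ⟨e0, he0, ?_⟩
        simpa using hve0
      have hcard : (S'.card : ℝ) ≤ S.card := by
        exact_mod_cast Finset.card_le_card hss.subset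
      have h' : (r * S'.card / D : ℝ) ^ (r - 1) ≤ D := by
        refine le_trans (pow_le_pow_left₀ (by positivity) ?_ _) h
        gcongr
      obtain ⟨o', ho1, ho2⟩ := ih S' hss h'
      refine ⟨fun e => if v ∈ e.1 then v else o' e, ?_, ?_⟩
      · intro e he
        by_cases hve : v ∈ e.1
        · simp only [hve, if_true]
        · simp only [hve, if_false]
          exact ho1 e (Finset.mem_filter.2 ⟨he, hve⟩)
      · intro w
        by_cases hw : w = v
        · subst hw
          refine le_trans ?_ hdeg
          have : (S.filter fun e => (if w ∈ e.1 then w else o' e) = w) ⊆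
              S.filter fun e => w ∈ e.1 := by
            intro e he
            have he' := Finset.mem_filter.1 he
            refine Finset.mem_filter.2 ⟨he'.1, ?_⟩
            by_contra hwe
            have h1 := he'.2
            simp only [hwe, if_false] at h1
            have h2 := ho1 e (Finset.mem_filter.2 ⟨he'.1, hwe⟩)
            rw [h1] at h2
            exact hwe h2
          exact_mod_cast Finset.card_le_card this
        · refine le_trans ?_ (ho2 w)
          have : (S.filter fun e => (if v ∈ e.1 then v else o' e) = w) ⊆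
              S'.filter fun e => o' e = w := by
            intro e he
            have he' := Finset.mem_filter.1 he
            by_cases hve : v ∈ e.1
            · have h1 := he'.2
              simp only [hve, if_true] at h1
              exact absurd h1.symm hw
            · have h1 := he'.2
              simp only [hve, if_false] at h1
              exact Finset.mem_filter.2 ⟨Finset.mem_filter.2 ⟨he'.1, hve⟩, h1⟩
          exact_mod_cast Finset.card_le_card this

end FK
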