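import Vale.Agent.FK.StarC
import Vale.Agent.FK.Sym
import Vale.Agent.FK.Owner
import Vale.Agent.FK.Color

/-!
# P063 / FK / LevelA [LEV]: the mass of a middle level

Average `star` over the random set `J = {e : y e = true}`, `y` of law `ρ`, with
`G = {F : |F| ≤ d, u ≤ |supp F|}`, `d = ⌊2 ρ k⌋`, `u = ⌈ρ k / 4⌉`, `ω = (2 r k / n)^u` (`omega_bound`);
`owner` with `D = 1/(8 ρ)` and `color` give `P(S ∩ J ∈ G) ≥ 1/2` for `|S| = k`.
-/

namespace FK

open Finset

/-- for `|S| = k`, a random subset of `S` is small and has large support with probability `≥ 1/2` -/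
theorem half_le_good {n r : ℕ} (hr : 2 ≤ r) (hn : 0 < n) (k : ℕ) {ρ : ℝ} (hρ0 : 0 < ρ)
    (hρ1 : ρ < 1) (hk : 16 ≤ ρ * k) (how : 8 * (8 * r * k * ρ : ℝ) ^ (r - 1) * ρ ≤ 1)
    (S : Finset (Edge n r)) (hS : S.card = k) :
    1 / 2 ≤ Ex ρ (fun y : Edge n r → Bool =>
      if (S ∩ univ.filter (fun e => y e = true)).card ≤ ⌊2 * ρ * k⌋₊ ∧
        ⌈ρ * k / 4⌉₊ ≤ (supp (S ∩ univ.filter (fun e => y e = true))).card then 1 else 0) := by
  have h8 : 0 < 8 * ρ := by linarith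
  have hD : (0 : ℝ) < 1 / (8 * ρ) := by positivity
  have hown : (r * S.card / (1 / (8 * ρ)) : ℝ) ^ (r - 1) ≤ 1 / (8 * ρ) := by
    have e : (r * S.card / (1 / (8 * ρ)) : ℝ) = 8 * r * k * ρ := by
      rw [hS]
      field_simp
    rw [e, le_div_iff₀ h8]
    linarith
  obtain ⟨o, ho1, ho2⟩ := owner hr hn S hD hown
  have hcol := color S o hρ0 hρ1 ho2 (by field_simp; exact le_rfl) (by rw [hS]; exact hk)
  refine hcol.trans (Ex_mono hρ0.le hρ1.le fun y => ?_)
  have hfil : S ∩ univ.filter (fun e => y e = true) = S.filter (fun e => y e = true) := by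
    ext e
    simp
  rw [hfil]
  split_ifs with h1 h2 h2
  · exact le_rfl
  · exfalso
    apply h2
    rw [hS] at h1
    refine ⟨Nat.le_floor h1.1, Nat.ceil_le.2 (h1.2.trans ?_)⟩
    norm_cast
    apply card_le_card
    intro v hv
    rw [mem_image] at hv
    obtain ⟨e, he, rfl⟩ := hv
    unfold supp
    rw [mem_biUnion]
    exact ⟨e, he, ho1 e (mem_of_mem_filter e he)⟩
  · exact zero_le_one
  · exact le_rfl

theorem level_mid {n r : ℕ} (hr : 2 ≤ r) (hn : 0 < n) {p : ℝ} (h0 : 0 < p) (h1 : p < 1)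
    {f : (Edge n r → Bool) → ℝ} (hf : Bool01 f) (hs : Symm f) (k : ℕ)
    {ρ Q τ η : ℝ} (hρ0 : 0 < ρ) (hρ1 : ρ < 1) (hQ : 0 < Q) (hτ : 0 < τ) (hη : 0 < η)
    (hk : 16 ≤ ρ * k) (how : 8 * (8 * r * k * ρ : ℝ) ^ (r - 1) * ρ ≤ 1) (hkn : 2 * r * k ≤ n) :
    ∑ S : Finset (Edge n r) with S.card = k, ft p f S ^ 2 ≤
      2 * (2 * Real.sqrt (Real.sqrt (BB p ^ k * η)) +
        (II p f / Q + la p * Real.sqrt (BB p) ^ ⌊2 * ρ * k⌋₊ * Real.sqrt τ * II p f) +
        (Q / τ + 1) ^ ⌊2 * ρ * k⌋₊ / η * (2 * r * k / n : ℝ) ^ ⌈ρ * k / 4⌉₊) := by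
  classical
  set d := ⌊2 * ρ * k⌋₊ with hd
  set u := ⌈ρ * k / 4⌉₊ with hu
  set ω : ℝ := (2 * r * k / n : ℝ) ^ u with hω
  set R : ℝ := 2 * Real.sqrt (Real.sqrt (BB p ^ k * η)) +
        (II p f / Q + la p * Real.sqrt (BB p) ^ d * Real.sqrt τ * II p f) +
        (Q / τ + 1) ^ d / η * ω with hR
  set G : Finset (Finset (Edge n r)) := univ.filter (fun F => F.card ≤ d ∧ u ≤ (supp F).card) with hG
  have hmem : ∀ F, F ∈ G ↔ F.card ≤ d ∧ u ≤ (supp F).card := by
    intro F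
    rw [hG, mem_filter]
    exact ⟨fun h => h.2, fun h => ⟨mem_univ _, h⟩⟩
  have hω0 : 0 ≤ ω := by positivity
  have hstar : ∀ J : Finset (Edge n r),
      ∑ S : Finset (Edge n r) with (S.card = k ∧ S ∩ J ∈ G), ft p f S ^ 2 ≤ R := by
    intro J
    refine star h0 h1 hf J G k d (fun F hF => ((hmem F).1 hF).1) hQ hτ hη hω0 ?_
    intro F hF
    exact omega_bound h0 h1 hf hs F k u ((hmem F).1 hF).2 hkn hn
  set T : Finset (Finset (Edge n r)) := univ.filter (fun S => S.card = k) with hT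
  -- average
  have havg : Ex ρ (fun y : Edge n r → Bool => ∑ S ∈ T, ft p f S ^ 2 *
      (if (S ∩ univ.filter (fun e => y e = true)).card ≤ d ∧
        u ≤ (supp (S ∩ univ.filter (fun e => y e = true))).card then (1 : ℝ) else 0)) ≤ R := by
    have h2 : Ex ρ (fun _ : Edge n r → Bool => R) = R := Ex_const ρ R
    rw [← h2]
    refine Ex_mono hρ0.le hρ1.le fun y => ?_
    refine le_trans (le_of_eq ?_) (hstar (univ.filter (fun e => y e = true)))
    have e1 : (univ.filter (fun S : Finset (Edge n r) =>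
        S.card = k ∧ S ∩ univ.filter (fun e => y e = true) ∈ G)) =
        T.filter (fun S => S ∩ univ.filter (fun e => y e = true) ∈ G) := by
      rw [hT, filter_filter]
    rw [e1, sum_filter (s := T) (p := fun S => S ∩ univ.filter (fun e => y e = true) ∈ G)]
    refine sum_congr rfl fun S _ => ?_
    by_cases hc : (S ∩ univ.filter (fun e => y e = true)).card ≤ d ∧
        u ≤ (supp (S ∩ univ.filter (fun e => y e = true))).card
    · rw [if_pos hc, if_pos ((hmem _).2 hc), mul_one]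
    · rw [if_neg hc, if_neg (fun h => hc ((hmem _).1 h)), mul_zero]
  rw [Ex_sum] at havg
  have hlow : ∑ S ∈ T, ft p f S ^ 2 * (1 / 2) ≤ R := by
    refine le_trans (sum_le_sum fun S hS => ?_) havg
    rw [hT, mem_filter] at hS
    rw [Ex_mul_left]
    exact mul_le_mul_of_nonneg_left (half_le_good hr hn k hρ0 hρ1 hk how S hS.2) (sq_nonneg _)
  rw [← sum_mul] at hlow
  linarith

end FK
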