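import Vale.Agent.FK.Junta
import Vale.Agent.FK.Sym

/-!
# P063 / FK / LevelB [LEVL]: the lowest levels
-/

namespace FK

open Finset

theorem level_low {n r : ℕ} {p : ℝ} (h0 : 0 < p) (h1 : p < 1)
    {f : (Edge n r → Bool) → ℝ} (hf : Bool01 f) (hs : Symm f) (k : ℕ) (hk : 1 ≤ k) :
    ∑ S : Finset (Edge n r) with S.card = k, ft p f S ^ 2 ≤
      la p * Real.sqrt (BB p) ^ k *
        (II p f * Real.sqrt (II p f / (Fintype.card (Edge n r) : ℝ))) := by
  classical
  have hI : ∀ e : Edge n r, Inf p e f = II p f / (Fintype.card (Edge n r) : ℝ) := by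
    intro e
    have h : II p f = (Fintype.card (Edge n r) : ℝ) * Inf p e f := by
      unfold II
      rw [Finset.sum_congr rfl fun e' _ => Inf_eq p hs e' e]
      simp
    have hc : (Fintype.card (Edge n r) : ℝ) ≠ 0 := by
      have : 0 < Fintype.card (Edge n r) := Fintype.card_pos_iff.2 ⟨e⟩
      positivity
    rw [h]
    field_simp
  have h2 : ∑ S : Finset (Edge n r) with S.card = k, ft p f S ^ 2 ≤
      ∑ e : Edge n r, ∑ S : Finset (Edge n r) with (e ∈ S ∧ S.card ≤ k), ft p f S ^ 2 := by
    have h3 : ∀ S : Finset (Edge n r), (if S.card = k then ft p f S ^ 2 else 0) ≤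
        ∑ e : Edge n r, if (e ∈ S ∧ S.card ≤ k) then ft p f S ^ 2 else 0 := by
      intro S
      have hnn : ∀ e ∈ (univ : Finset (Edge n r)),
          0 ≤ (if (e ∈ S ∧ S.card ≤ k) then ft p f S ^ 2 else 0) := by
        intro e _
        split_ifs
        · positivity
        · exact le_refl _
      split_ifs with hS
      · have hne : S.Nonempty := by
          rw [← Finset.card_pos]
          omega
        obtain ⟨e, he⟩ := hne
        have := Finset.single_le_sum hnn (Finset.mem_univ e)
        rw [if_pos ⟨he, hS.le⟩] at this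
        exact this
      · exact Finset.sum_nonneg hnn
    calc ∑ S : Finset (Edge n r) with S.card = k, ft p f S ^ 2
        = ∑ S : Finset (Edge n r), (if S.card = k then ft p f S ^ 2 else 0) := by
          rw [Finset.sum_filter]
      _ ≤ ∑ S : Finset (Edge n r), ∑ e : Edge n r,
            (if (e ∈ S ∧ S.card ≤ k) then ft p f S ^ 2 else 0) :=
          Finset.sum_le_sum fun S _ => h3 S
      _ = ∑ e : Edge n r, ∑ S : Finset (Edge n r),
            (if (e ∈ S ∧ S.card ≤ k) then ft p f S ^ 2 else 0) := Finset.sum_comm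
      _ = _ := by
          refine Finset.sum_congr rfl fun e _ => ?_
          rw [Finset.sum_filter]
  refine h2.trans ?_
  calc ∑ e : Edge n r, ∑ S : Finset (Edge n r) with (e ∈ S ∧ S.card ≤ k), ft p f S ^ 2
      ≤ ∑ e : Edge n r, la p * Real.sqrt (BB p) ^ k * (Inf p e f * Real.sqrt (Inf p e f)) :=
        Finset.sum_le_sum fun e _ => sum_ft_mem_card_le h0 h1 hf e k
    _ = la p * Real.sqrt (BB p) ^ k *
        (II p f * Real.sqrt (II p f / (Fintype.card (Edge n r) : ℝ))) := by
        rw [← Finset.mul_sum]
        congr 1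
        unfold II
        rw [Finset.sum_mul]
        refine Finset.sum_congr rfl fun e _ => ?_
        have := hI e
        unfold II at this
        rw [← this]

end FK
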