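import Vale.Agent.FK.Level

/-!
# P063 / FK / ParamA [PAR1]: the middle levels
-/

namespace FK

open Finset

/-- bounds for `BB p` -/
theorem BB_range {p L : ℝ} (hL : 2 ≤ L) (h1 : 1 / L ^ 2 ≤ p) (h2 : p ≤ 1 - 1 / L ^ 2) :
    0 < p ∧ p < 1 ∧ 64 ≤ BB p ∧ BB p ≤ 32 * L ^ 2 := by
  have hL0 : 0 < L := by linarith
  have hL2 : 4 ≤ L ^ 2 := by nlinarith
  have hi : 0 < 1 / L ^ 2 := by positivity
  have hi4 : 1 / L ^ 2 ≤ 1 / 4 := one_div_le_one_div_of_le (by norm_num) hL2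
  have hp0 : 0 < p := by linarith
  have hp1 : p < 1 := by linarith
  have hpp : 0 < p * (1 - p) := mul_pos hp0 (by linarith)
  refine ⟨hp0, hp1, ?_, ?_⟩
  · unfold BB
    rw [le_div_iff₀ hpp]
    nlinarith [sq_nonneg (p - 1 / 2)]
  · unfold BB
    rw [div_le_iff₀ hpp]
    -- p (1 - p) ≥ i (1 - i) ≥ i / 2
    have h3 : 1 / L ^ 2 * (1 - 1 / L ^ 2) ≤ p * (1 - p) := by nlinarith
    have h4 : 1 / (2 * L ^ 2) ≤ p * (1 - p) := by
      have : 1 / (2 * L ^ 2) = 1 / L ^ 2 * (1 / 2) := by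
        field_simp
      rw [this]
      nlinarith
    have h5 : 32 * L ^ 2 * (1 / (2 * L ^ 2)) = 16 := by field_simp; norm_num
    calc (16 : ℝ) = 32 * L ^ 2 * (1 / (2 * L ^ 2)) := h5.symm
      _ ≤ 32 * L ^ 2 * (p * (1 - p)) := mul_le_mul_of_nonneg_left h4 (by positivity)

theorem logBB_range {p L : ℝ} (hL : 6000 ≤ L) (h1 : 1 / L ^ 2 ≤ p) (h2 : p ≤ 1 - 1 / L ^ 2) :
    1 ≤ Real.log (BB p) ∧ 17 * Real.log (BB p) ≤ L := by
  obtain ⟨hp0, hp1, hB1, hB2⟩ := BB_range (by linarith) h1 h2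
  have hL0 : 0 < L := by linarith
  constructor
  · rw [Real.le_log_iff_exp_le (by linarith)]
    have := Real.exp_one_lt_d9
    linarith
  · have e1 : Real.log (BB p) ≤ Real.log (32 * L ^ 2) :=
      Real.log_le_log (by linarith) hB2
    have e2 : Real.log (32 * L ^ 2) = Real.log 32 + 2 * Real.log L := by
      rw [Real.log_mul (by norm_num) (by positivity), Real.log_pow]
      norm_num
    have e3 : Real.log 32 ≤ 31 := by
      have := Real.log_le_sub_one_of_pos (show (0 : ℝ) < 32 by norm_num)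
      linarith
    have e4 : Real.log L ≤ L / 100 + 98 := by
      have a1 : Real.log (L / 100) ≤ L / 100 - 1 := Real.log_le_sub_one_of_pos (by positivity)
      have a2 : Real.log (L / 100) = Real.log L - Real.log 100 :=
        Real.log_div hL0.ne' (by norm_num)
      have a3 : Real.log 100 ≤ 99 := by
        have := Real.log_le_sub_one_of_pos (show (0 : ℝ) < 100 by norm_num)
        linarith
      linarith
    linarith

/-- the condition on the owners -/
theorem how_aux {r : ℕ} (hr : 2 ≤ r) {X κ k ρ : ℝ} (hX : 1 ≤ X) (hρ : ρ = 16 / X) (hk0 : 0 ≤ k)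
    (_hκ0 : 0 < κ) (hκ : κ ≤ 1 / (128 * 128 * r)) (hk : k ≤ κ * X ^ ((r : ℝ) / (r - 1))) :
    8 * (8 * r * k * ρ : ℝ) ^ (r - 1) * ρ ≤ 1 := by
  obtain ⟨m, rfl⟩ : ∃ m, r = m + 1 := ⟨r - 1, by omega⟩
  have hm : 1 ≤ m := by omega
  have hm0 : (0 : ℝ) < m := by exact_mod_cast hm
  have hX0 : 0 < X := by linarith
  have hXk : X ^ (((m + 1 : ℕ) : ℝ) / (((m + 1 : ℕ) : ℝ) - 1)) = X * X ^ ((m : ℝ)⁻¹) := by
    have : ((m + 1 : ℕ) : ℝ) / (((m + 1 : ℕ) : ℝ) - 1) = 1 + (m : ℝ)⁻¹ := by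
      push_cast
      rw [add_sub_cancel_right]
      field_simp
    rw [this, Real.rpow_add hX0, Real.rpow_one]
  rw [hXk] at hk
  set Y : ℝ := X ^ ((m : ℝ)⁻¹) with hY
  have hY0 : 0 < Y := Real.rpow_pos_of_pos hX0 _
  have hYm : Y ^ m = X := Real.rpow_inv_natCast_pow hX0.le (by omega)
  have hr0 : (0 : ℝ) < ((m + 1 : ℕ) : ℝ) := by positivity
  have hb : 8 * ((m + 1 : ℕ) : ℝ) * k * ρ ≤ Y / 128 := by
    rw [hρ]
    have h1 : ((m + 1 : ℕ) : ℝ) * k ≤ 1 / (128 * 128) * (X * Y) := by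
      calc ((m + 1 : ℕ) : ℝ) * k ≤ ((m + 1 : ℕ) : ℝ) * (κ * (X * Y)) :=
            mul_le_mul_of_nonneg_left hk hr0.le
        _ = (((m + 1 : ℕ) : ℝ) * κ) * (X * Y) := by ring
        _ ≤ 1 / (128 * 128) * (X * Y) := by
            refine mul_le_mul_of_nonneg_right ?_ (by positivity)
            calc ((m + 1 : ℕ) : ℝ) * κ ≤ ((m + 1 : ℕ) : ℝ) * (1 / (128 * 128 * ((m + 1 : ℕ) : ℝ))) :=
                  mul_le_mul_of_nonneg_left hκ hr0.le
              _ = 1 / (128 * 128) := by field_simp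
    calc 8 * ((m + 1 : ℕ) : ℝ) * k * (16 / X) = 128 / X * (((m + 1 : ℕ) : ℝ) * k) := by ring
      _ ≤ 128 / X * (1 / (128 * 128) * (X * Y)) :=
          mul_le_mul_of_nonneg_left h1 (by positivity)
      _ = Y / 128 := by field_simp
  have hρ0 : 0 < ρ := by rw [hρ]; positivity
  have hpow : (8 * ((m + 1 : ℕ) : ℝ) * k * ρ) ^ (m + 1 - 1) ≤ X / 128 := by
    rw [Nat.add_sub_cancel]
    calc (8 * ((m + 1 : ℕ) : ℝ) * k * ρ) ^ m ≤ (Y / 128) ^ m :=
          pow_le_pow_left₀ (by positivity) hb m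
      _ = X / 128 ^ m := by rw [div_pow, hYm]
      _ ≤ X / 128 := by
          refine div_le_div_of_nonneg_left hX0.le (by norm_num) ?_
          calc (128 : ℝ) = 128 ^ 1 := (pow_one _).symm
            _ ≤ 128 ^ m := pow_le_pow_right₀ (by norm_num) hm
  calc 8 * (8 * ((m + 1 : ℕ) : ℝ) * k * ρ) ^ (m + 1 - 1) * ρ
      ≤ 8 * (X / 128) * ρ := by
        refine mul_le_mul_of_nonneg_right ?_ hρ0.le
        exact mul_le_mul_of_nonneg_left hpow (by norm_num)
    _ = 1 := by rw [hρ]; field_simp; norm_num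

theorem exp_ge_cube {L : ℝ} (hL : 0 ≤ L) : (L / 150) ^ 3 ≤ Real.exp (L / 50) := by
  have h1 : L / 150 ≤ Real.exp (L / 150) := by
    have := Real.add_one_le_exp (L / 150)
    linarith
  calc (L / 150) ^ 3 ≤ (Real.exp (L / 150)) ^ 3 := pow_le_pow_left₀ (by positivity) h1 3
    _ = Real.exp (L / 50) := by
        rw [← Real.exp_nat_mul]; congr 1; push_cast; ring

/-- the numerical estimate for the middle levels -/
theorem mid_numeric {L Λ ρ κ k I lam B : ℝ} (kk d u : ℕ) (hkk : k = kk) (hL : 6000 ≤ L)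
    (hΛ1 : 1 ≤ Λ) (hρ : ρ * L = 16 * Λ) (_hρ0 : 0 < ρ) (hρk : 16 ≤ ρ * k)
    (hκ : κ ≤ 1 / 6400) (hk : k * Λ ^ 2 ≤ κ * L ^ 2) (hB : B = Real.exp Λ)
    (hI0 : 0 ≤ I) (hI : I ≤ Real.exp (L / 1000)) (_hlam0 : 0 ≤ lam) (hlam : lam ≤ 1 / 4)
    (hd : (d : ℝ) ≤ 2 * ρ * k) (hu : ρ * k / 4 ≤ u) {z : ℝ} (hz0 : 0 ≤ z)
    (hz : z ≤ Real.exp (L / 50) / Real.exp L) :
    2 * (2 * Real.sqrt (Real.sqrt (B ^ kk * Real.exp (-(2 * k * Λ)))) +
      (I / Real.exp (L / 200) + lam * Real.sqrt B ^ d * Real.sqrt (Real.exp (-(L / 100))) * I) +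
      (Real.exp (L / 200) / Real.exp (-(L / 100)) + 1) ^ d / Real.exp (-(2 * k * Λ)) * z ^ u) ≤
      10 * Real.exp (-(L / 2000)) := by
  have hL0 : 0 < L := by linarith
  have hk0 : 0 ≤ k := by rw [hkk]; exact Nat.cast_nonneg _
  have hΛ0 : 0 < Λ := by linarith
  -- k Λ = ρ k L / 16
  have hkΛ : k * Λ = ρ * k * L / 16 := by
    have : ρ * k * L = k * (ρ * L) := by ring
    rw [this, hρ]; ring
  have hkΛL : L ≤ k * Λ := by rw [hkΛ]; nlinarith
  -- T1
  have T1 : Real.sqrt (Real.sqrt (B ^ kk * Real.exp (-(2 * k * Λ)))) ≤ Real.exp (-(L / 2000)) := by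
    have e : B ^ kk * Real.exp (-(2 * k * Λ)) = Real.exp (-(k * Λ)) := by
      rw [hB, ← Real.exp_nat_mul, ← Real.exp_add, ← hkk]; congr 1; ring
    rw [e, ← Real.exp_half, ← Real.exp_half]
    apply Real.exp_le_exp.2
    linarith
  -- T2
  have T2 : I / Real.exp (L / 200) ≤ Real.exp (-(L / 2000)) := by
    rw [div_le_iff₀ (Real.exp_pos _), ← Real.exp_add]
    exact hI.trans (Real.exp_le_exp.2 (by linarith))
  -- T3
  have hρkΛ : ρ * k * Λ ≤ L / 400 := by
    have h1 : ρ * k * Λ * L = 16 * (k * Λ ^ 2) := by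
      calc ρ * k * Λ * L = (ρ * L) * (k * Λ) := by ring
        _ = 16 * (k * Λ ^ 2) := by rw [hρ]; ring
    have h2 : ρ * k * Λ * L ≤ L / 400 * L := by
      rw [h1]
      nlinarith [sq_nonneg L]
    exact le_of_mul_le_mul_right h2 hL0
  have T3 : lam * Real.sqrt B ^ d * Real.sqrt (Real.exp (-(L / 100))) * I ≤
      1 / 4 * Real.exp (-(L / 2000)) := by
    have e1 : Real.sqrt B ^ d ≤ Real.exp (L / 400) := by
      rw [hB, ← Real.exp_half, ← Real.exp_nat_mul]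
      apply Real.exp_le_exp.2
      calc (d : ℝ) * (Λ / 2) ≤ 2 * ρ * k * (Λ / 2) :=
            mul_le_mul_of_nonneg_right hd (by positivity)
        _ = ρ * k * Λ := by ring
        _ ≤ L / 400 := hρkΛ
    have e2 : Real.sqrt (Real.exp (-(L / 100))) = Real.exp (-(L / 200)) := by
      rw [← Real.exp_half]; congr 1; ring
    rw [e2]
    calc lam * Real.sqrt B ^ d * Real.exp (-(L / 200)) * I
        ≤ 1 / 4 * Real.exp (L / 400) * Real.exp (-(L / 200)) * Real.exp (L / 1000) := by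
          gcongr
      _ = 1 / 4 * Real.exp (L / 400 + -(L / 200) + L / 1000) := by
          rw [Real.exp_add, Real.exp_add]; ring
      _ ≤ 1 / 4 * Real.exp (-(L / 2000)) := by
          refine mul_le_mul_of_nonneg_left (Real.exp_le_exp.2 ?_) (by norm_num)
          linarith
  -- T4
  have T4 : (Real.exp (L / 200) / Real.exp (-(L / 100)) + 1) ^ d / Real.exp (-(2 * k * Λ)) * z ^ u
      ≤ Real.exp (-(L / 2000)) := by
    have e1 : Real.exp (L / 200) / Real.exp (-(L / 100)) + 1 ≤ Real.exp (L / 50) := by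
      rw [← Real.exp_sub]
      have a1 : Real.exp (L / 50) = Real.exp (L / 200 - -(L / 100)) * Real.exp (L / 200) := by
        rw [← Real.exp_add]; congr 1; ring
      have a2 : 2 ≤ Real.exp (L / 200) := by
        have := Real.add_one_le_exp (L / 200)
        linarith
      have a3 : 1 ≤ Real.exp (L / 200 - -(L / 100)) := Real.one_le_exp (by linarith)
      rw [a1]
      nlinarith
    have e2 : (Real.exp (L / 200) / Real.exp (-(L / 100)) + 1) ^ d ≤
        Real.exp (ρ * k * L / 25) := by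
      calc (Real.exp (L / 200) / Real.exp (-(L / 100)) + 1) ^ d ≤ Real.exp (L / 50) ^ d :=
            pow_le_pow_left₀ (by positivity) e1 d
        _ = Real.exp (d * (L / 50)) := (Real.exp_nat_mul _ _).symm
        _ ≤ Real.exp (ρ * k * L / 25) := by
            apply Real.exp_le_exp.2
            calc (d : ℝ) * (L / 50) ≤ 2 * ρ * k * (L / 50) :=
                  mul_le_mul_of_nonneg_right hd (by positivity)
              _ = ρ * k * L / 25 := by ring
    have e3 : z ^ u ≤ Real.exp (-(49 / 200 * (ρ * k * L))) := by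
      calc z ^ u ≤ (Real.exp (L / 50) / Real.exp L) ^ u := pow_le_pow_left₀ hz0 hz u
        _ = Real.exp (u * (L / 50 - L)) := by rw [← Real.exp_sub, Real.exp_nat_mul]
        _ ≤ Real.exp (-(49 / 200 * (ρ * k * L))) := by
            apply Real.exp_le_exp.2
            have : ρ * k / 4 * L ≤ u * L := mul_le_mul_of_nonneg_right hu hL0.le
            nlinarith
    rw [div_eq_mul_inv, ← Real.exp_neg]
    calc (Real.exp (L / 200) / Real.exp (-(L / 100)) + 1) ^ d * Real.exp (- -(2 * k * Λ)) * z ^ u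
        ≤ Real.exp (ρ * k * L / 25) * Real.exp (- -(2 * k * Λ)) *
            Real.exp (-(49 / 200 * (ρ * k * L))) := by
          gcongr
      _ = Real.exp (ρ * k * L / 25 + - -(2 * k * Λ) + -(49 / 200 * (ρ * k * L))) := by
          rw [Real.exp_add, Real.exp_add]
      _ ≤ Real.exp (-(L / 2000)) := by
          apply Real.exp_le_exp.2
          have h1 : - -(2 * k * Λ) = ρ * k * L / 8 := by
            rw [neg_neg, mul_assoc, hkΛ]; ring
          rw [h1]
          nlinarith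
  have hpos : 0 < Real.exp (-(L / 2000)) := Real.exp_pos _
  linarith

/-! ## [PAR1] -/
theorem level_all_mid (r : ℕ) (hr : 2 ≤ r) : ∃ κ : ℝ, 0 < κ ∧ κ ≤ 1 ∧ ∃ n0 : ℕ, ∀ n : ℕ,
    n0 ≤ n →
    ∀ p : ℝ, 1 / Real.log n ^ 2 ≤ p → p ≤ 1 - 1 / Real.log n ^ 2 →
    ∀ f : (Edge n r → Bool) → ℝ, Bool01 f → Symm f → II p f ≤ (n : ℝ) ^ (1 / 1000 : ℝ) →
    ∀ k : ℕ, Real.log n / Real.log (BB p) ≤ k →
      (k : ℝ) ≤ κ * (Real.log n / Real.log (BB p)) ^ ((r : ℝ) / (r - 1)) →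
      ∑ S : Finset (Edge n r) with S.card = k, ft p f S ^ 2 ≤ 10 * (n : ℝ) ^ (-(1 / 2000) : ℝ) := by
  have hr0 : (0 : ℝ) < r := by exact_mod_cast (by omega : 0 < r)
  have hr2 : (2 : ℝ) ≤ r := by exact_mod_cast hr
  set κ : ℝ := 1 / (128 * 128 * r) with hκdef
  have hκ0 : 0 < κ := by positivity
  have hκ6400 : κ ≤ 1 / 6400 := by
    rw [hκdef]
    exact one_div_le_one_div_of_le (by norm_num) (by nlinarith)
  refine ⟨κ, hκ0, hκ6400.trans (by norm_num), ⌈Real.exp (2 * r * 150 ^ 3)⌉₊, ?_⟩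
  intro n hn p hp1 hp2 f hf hs hI k hk1 hk2
  set L : ℝ := Real.log n with hLdef
  have hne : Real.exp (2 * r * 150 ^ 3) ≤ n := (Nat.le_ceil _).trans (by exact_mod_cast hn)
  have hn0 : (0 : ℝ) < n := (Real.exp_pos _).trans_le hne
  have hLbig : 2 * r * 150 ^ 3 ≤ L := by
    rw [hLdef, Real.le_log_iff_exp_le hn0]; exact hne
  have hL6 : 6000 ≤ L := by nlinarith
  have hL0 : 0 < L := by linarith
  have hexpL : Real.exp L = n := Real.exp_log hn0
  obtain ⟨hp0, hp1', hB1, hB2⟩ := BB_range (by linarith) hp1 hp2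
  obtain ⟨hΛ1, hΛ17⟩ := logBB_range hL6 hp1 hp2
  set Λ : ℝ := Real.log (BB p) with hΛdef
  have hΛ0 : 0 < Λ := by linarith
  set X : ℝ := L / Λ with hXdef
  have hX17 : 17 ≤ X := by rw [hXdef, le_div_iff₀ hΛ0]; exact hΛ17
  have hX0 : 0 < X := by linarith
  have hXL : X * Λ = L := by rw [hXdef]; field_simp
  set ρ : ℝ := 16 / X with hρdef
  have hρ0 : 0 < ρ := by positivity
  have hρ1 : ρ < 1 := by rw [hρdef, div_lt_one hX0]; linarith
  have hρL : ρ * L = 16 * Λ := by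
    rw [hρdef, ← hXL]; field_simp
  have hρk : 16 ≤ ρ * k := by
    rw [hρdef, div_mul_eq_mul_div, le_div_iff₀ hX0]
    exact mul_le_mul_of_nonneg_left hk1 (by norm_num)
  have hkX2 : (k : ℝ) ≤ κ * X ^ 2 := by
    refine hk2.trans (mul_le_mul_of_nonneg_left ?_ hκ0.le)
    rw [← Real.rpow_natCast X 2]
    refine Real.rpow_le_rpow_of_exponent_le (by linarith) ?_
    push_cast
    rw [div_le_iff₀ (by linarith)]
    linarith
  have hkL2 : (k : ℝ) * Λ ^ 2 ≤ κ * L ^ 2 := by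
    calc (k : ℝ) * Λ ^ 2 ≤ κ * X ^ 2 * Λ ^ 2 := mul_le_mul_of_nonneg_right hkX2 (by positivity)
      _ = κ * L ^ 2 := by rw [← hXL]; ring
  have hkL : (k : ℝ) ≤ L ^ 2 := by
    have h1 : (k : ℝ) * 1 ≤ k * Λ ^ 2 :=
      mul_le_mul_of_nonneg_left (by nlinarith) (Nat.cast_nonneg _)
    have h2 : κ * L ^ 2 ≤ 1 * L ^ 2 :=
      mul_le_mul_of_nonneg_right (hκ6400.trans (by norm_num)) (by positivity)
    linarith
  have hbig : 2 * r * (k : ℝ) ≤ Real.exp (L / 50) := by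
    calc 2 * r * (k : ℝ) ≤ 2 * r * L ^ 2 := mul_le_mul_of_nonneg_left hkL (by positivity)
      _ ≤ (L / 150) ^ 3 := by
          have : (L / 150) ^ 3 = L / 150 ^ 3 * L ^ 2 := by ring
          rw [this]
          refine mul_le_mul_of_nonneg_right ?_ (by positivity)
          rw [le_div_iff₀ (by norm_num)]; exact hLbig
      _ ≤ Real.exp (L / 50) := exp_ge_cube hL0.le
  have hkn : 2 * r * k ≤ n := by
    have : (2 * r * (k : ℝ)) ≤ n := by
      rw [← hexpL]
      exact hbig.trans (Real.exp_le_exp.2 (by linarith))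
    exact_mod_cast this
  have hnpos : 0 < n := by exact_mod_cast hn0
  have how : 8 * (8 * r * k * ρ : ℝ) ^ (r - 1) * ρ ≤ 1 :=
    how_aux hr (by linarith) hρdef (Nat.cast_nonneg _) hκ0 le_rfl hk2
  have hII0 : 0 ≤ II p f := by
    unfold II Inf
    exact Finset.sum_nonneg fun e _ => Ex_nonneg hp0.le hp1'.le fun x => sq_nonneg _
  have hII : II p f ≤ Real.exp (L / 1000) := by
    rw [Real.rpow_def_of_pos hn0] at hI
    refine hI.trans (Real.exp_le_exp.2 ?_)
    rw [← hLdef]; linarith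
  have hmain := level_mid hr hnpos hp0 hp1' hf hs k hρ0 hρ1 (Real.exp_pos (L / 200))
    (Real.exp_pos (-(L / 100))) (Real.exp_pos (-(2 * k * Λ))) hρk how hkn
  have hnum := mid_numeric (L := L) (Λ := Λ) (ρ := ρ) (κ := κ) (k := k) (I := II p f)
    (lam := la p) (B := BB p) k ⌊2 * ρ * k⌋₊ ⌈ρ * k / 4⌉₊ rfl hL6 hΛ1 hρL hρ0 hρk hκ6400 hkL2
    (Real.exp_log (by linarith)).symm hII0 hII (la_pos hp0 hp1').le (la_le p)
    (Nat.floor_le (by positivity)) (Nat.le_ceil _) (z := 2 * r * k / n) (by positivity)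
    (by rw [hexpL]; gcongr)
  refine (hmain.trans hnum).trans (le_of_eq ?_)
  rw [Real.rpow_def_of_pos hn0, ← hLdef]
  congr 2
  ring

end FK
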