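import Vale.Agent.FK.Level

/-!
# P063 / FK / ParamB [PAR2]: the low levels
-/

namespace FK

open Finset

theorem card_edge_ge {n r : ℕ} (hr : 2 ≤ r) (h1 : 2 * r ≤ n) (h2 : (Nat.factorial r) ^ 2 ≤ n) :
    (n : ℝ) ^ (3 / 2 : ℝ) / 4 ≤ (Fintype.card (Edge n r) : ℝ) := by
  have hn0 : (0 : ℝ) < n := by
    have : 0 < n := by omega
    exact_mod_cast this
  have hc : Fintype.card (Edge n r) = n.choose r := by
    rw [Fintype.card_finset_len, Fintype.card_fin]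
  rw [hc]
  have h3 : (((n + 1 - r : ℕ) : ℝ) ^ r) / (Nat.factorial r : ℝ) ≤ (n.choose r : ℝ) := by
    have := Nat.pow_le_choose (α := ℝ) r n
    exact_mod_cast this
  refine le_trans ?_ h3
  have hm : (n : ℝ) / 2 ≤ ((n + 1 - r : ℕ) : ℝ) := by
    have h4 : n ≤ 2 * (n + 1 - r) := by omega
    have h5 : (n : ℝ) ≤ 2 * ((n + 1 - r : ℕ) : ℝ) := by exact_mod_cast h4
    linarith
  have hm1 : (1 : ℝ) ≤ ((n + 1 - r : ℕ) : ℝ) := by
    have h4 : 1 ≤ n + 1 - r := by omega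
    exact_mod_cast h4
  have hpow : (n : ℝ) ^ 2 / 4 ≤ ((n + 1 - r : ℕ) : ℝ) ^ r := by
    calc (n : ℝ) ^ 2 / 4 = ((n : ℝ) / 2) ^ 2 := by ring
      _ ≤ ((n + 1 - r : ℕ) : ℝ) ^ 2 := pow_le_pow_left₀ (by positivity) hm 2
      _ ≤ _ := pow_le_pow_right₀ hm1 hr
  have hfac : (Nat.factorial r : ℝ) ≤ (n : ℝ) ^ (1 / 2 : ℝ) := by
    rw [← Real.sqrt_eq_rpow]
    refine Real.le_sqrt_of_sq_le ?_
    exact_mod_cast h2
  have hf0 : (0 : ℝ) < (Nat.factorial r : ℝ) := by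
    exact_mod_cast Nat.factorial_pos r
  rw [le_div_iff₀ hf0]
  refine le_trans ?_ hpow
  have hs : (n : ℝ) ^ (3 / 2 : ℝ) * (n : ℝ) ^ (1 / 2 : ℝ) = (n : ℝ) ^ 2 := by
    rw [← Real.rpow_add hn0, ← Real.rpow_natCast]
    norm_num
  calc (n : ℝ) ^ (3 / 2 : ℝ) / 4 * (Nat.factorial r : ℝ)
      ≤ (n : ℝ) ^ (3 / 2 : ℝ) / 4 * (n : ℝ) ^ (1 / 2 : ℝ) :=
        mul_le_mul_of_nonneg_left hfac (by positivity)
    _ = (n : ℝ) ^ 2 / 4 := by rw [← hs]; ring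

theorem level_all_low (r : ℕ) (hr : 2 ≤ r) : ∃ n0 : ℕ, ∀ n : ℕ, n0 ≤ n →
    ∀ p : ℝ, 1 / Real.log n ^ 2 ≤ p → p ≤ 1 - 1 / Real.log n ^ 2 →
    ∀ f : (Edge n r → Bool) → ℝ, Bool01 f → Symm f → II p f ≤ (n : ℝ) ^ (1 / 1000 : ℝ) →
    ∀ k : ℕ, 1 ≤ k → (k : ℝ) ≤ Real.log n / Real.log (BB p) →
      ∑ S : Finset (Edge n r) with S.card = k, ft p f S ^ 2 ≤
        10 * (n : ℝ) ^ (-(1 / 2000) : ℝ) := by
  refine ⟨max 3 (max (2 * r) ((Nat.factorial r) ^ 2)), ?_⟩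
  intro n hn p hp1 hp2 f hf hs hII k hk1 hk2
  have hn3 : 3 ≤ n := le_trans (le_max_left _ _) hn
  have hn2r : 2 * r ≤ n := le_trans ((le_max_left _ _).trans (le_max_right _ _)) hn
  have hnf : (Nat.factorial r) ^ 2 ≤ n :=
    le_trans ((le_max_right _ _).trans (le_max_right _ _)) hn
  have hn0 : (0 : ℝ) < n := by
    have : 0 < n := by omega
    exact_mod_cast this
  have hn1 : (1 : ℝ) ≤ n := by
    have : 1 ≤ n := by omega
    exact_mod_cast this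
  have hL : 0 < Real.log n := Real.log_pos (by
    have : 1 < n := by omega
    exact_mod_cast this)
  have hL2 : 0 < 1 / Real.log n ^ 2 := by positivity
  have hp0 : 0 < p := lt_of_lt_of_le hL2 hp1
  have hp1' : p < 1 := by linarith
  have hla0 : 0 < la p := mul_pos hp0 (by linarith)
  have hla : la p ≤ 1 / 4 := by
    unfold la
    nlinarith [sq_nonneg (2 * p - 1)]
  have hBB : 64 ≤ BB p := by
    have h2 : p * (1 - p) ≤ 1 / 4 := hla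
    have h3 : 0 < p * (1 - p) := hla0
    unfold BB
    rw [le_div_iff₀ h3]
    linarith
  have hΛ : 0 < Real.log (BB p) := Real.log_pos (by linarith)
  have hkΛ : (k : ℝ) * Real.log (BB p) ≤ Real.log n := (le_div_iff₀ hΛ).1 hk2
  have hsq : Real.sqrt (BB p) ^ k ≤ (n : ℝ) ^ (1 / 2 : ℝ) := by
    have h2 : Real.sqrt (BB p) = Real.exp (Real.log (BB p) / 2) := by
      rw [Real.exp_half, Real.exp_log (by linarith)]
    rw [h2, ← Real.exp_nat_mul, Real.rpow_def_of_pos hn0]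
    apply Real.exp_le_exp.2
    linarith
  have hcard := card_edge_ge hr hn2r hnf
  have hlow := level_low hp0 hp1' hf hs k hk1
  have hI0 : 0 ≤ II p f := by
    unfold II Inf Ex
    refine Finset.sum_nonneg fun e _ => Finset.sum_nonneg fun x _ => ?_
    refine mul_nonneg ?_ (sq_nonneg _)
    unfold WW wt
    refine Finset.prod_nonneg fun e _ => ?_
    split_ifs
    · exact hp0.le
    · linarith
  have hroot : Real.sqrt (II p f / (Fintype.card (Edge n r) : ℝ)) ≤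
      2 * (n : ℝ) ^ ((1 / 1000 - 3 / 2) / 2 : ℝ) := by
    refine Real.sqrt_le_iff.2 ⟨by positivity, ?_⟩
    have h3 : (0 : ℝ) < (n : ℝ) ^ (3 / 2 : ℝ) / 4 := by positivity
    have h4 : II p f / (Fintype.card (Edge n r) : ℝ) ≤
        (n : ℝ) ^ (1 / 1000 : ℝ) / ((n : ℝ) ^ (3 / 2 : ℝ) / 4) :=
      div_le_div₀ (by positivity) hII h3 hcard
    refine h4.trans (le_of_eq ?_)
    rw [mul_pow, ← Real.rpow_natCast ((n : ℝ) ^ ((1 / 1000 - 3 / 2) / 2 : ℝ)) 2,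
      ← Real.rpow_mul hn0.le]
    have h5 : ((1 / 1000 - 3 / 2) / 2 : ℝ) * ((2 : ℕ) : ℝ) = 1 / 1000 - 3 / 2 := by
      push_cast
      ring
    rw [h5, Real.rpow_sub hn0]
    field_simp
    norm_num
  refine hlow.trans ?_
  have hA : la p * Real.sqrt (BB p) ^ k ≤ 1 / 4 * (n : ℝ) ^ (1 / 2 : ℝ) :=
    mul_le_mul hla hsq (by positivity) (by norm_num)
  have hB : II p f * Real.sqrt (II p f / (Fintype.card (Edge n r) : ℝ)) ≤
      (n : ℝ) ^ (1 / 1000 : ℝ) * (2 * (n : ℝ) ^ ((1 / 1000 - 3 / 2) / 2 : ℝ)) :=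
    mul_le_mul hII hroot (Real.sqrt_nonneg _) (by positivity)
  refine (mul_le_mul hA hB (mul_nonneg hI0 (Real.sqrt_nonneg _)) (by positivity)).trans ?_
  have hC : 1 / 4 * (n : ℝ) ^ (1 / 2 : ℝ) *
      ((n : ℝ) ^ (1 / 1000 : ℝ) * (2 * (n : ℝ) ^ ((1 / 1000 - 3 / 2) / 2 : ℝ))) =
      1 / 2 * (n : ℝ) ^ (1 / 2 + (1 / 1000 + (1 / 1000 - 3 / 2) / 2) : ℝ) := by
    rw [Real.rpow_add hn0, Real.rpow_add hn0]
    ring
  rw [hC]
  have hD : (n : ℝ) ^ (1 / 2 + (1 / 1000 + (1 / 1000 - 3 / 2) / 2) : ℝ) ≤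
      (n : ℝ) ^ (-(1 / 2000) : ℝ) :=
    Real.rpow_le_rpow_of_exponent_le hn1 (by norm_num)
  have hE : (0 : ℝ) < (n : ℝ) ^ (-(1 / 2000) : ℝ) := by positivity
  linarith

end FK
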