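import Vale.Agent.FK.Level

/-!
# P063 / FK / ParamC [PAR3]
-/

namespace FK

open Finset Filter

/-- `log² n ≤ c n^s` eventually -/
theorem log_sq_le_eventually {s c : ℝ} (hs : 0 < s) (hc : 0 < c) :
    ∃ n0 : ℕ, ∀ n : ℕ, n0 ≤ n → Real.log n ^ 2 ≤ c * (n : ℝ) ^ s := by
  have h1 := isLittleO_log_rpow_rpow_atTop (2 : ℝ) hs
  have h2 := h1.bound hc
  have h3 := tendsto_natCast_atTop_atTop (R := ℝ) |>.eventually h2
  obtain ⟨n0, hn0⟩ := eventually_atTop.mp h3
  refine ⟨n0, fun n hn => ?_⟩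
  have h4 := hn0 n hn
  rw [Real.rpow_two, Real.norm_eq_abs, Real.norm_eq_abs, abs_of_nonneg (sq_nonneg _),
    abs_of_nonneg (Real.rpow_nonneg (Nat.cast_nonneg n) s)] at h4
  exact h4

/-- the statement of `level_all_mid` -/
def MidStmt (r : ℕ) : Prop := ∃ κ : ℝ, 0 < κ ∧ κ ≤ 1 ∧ ∃ n0 : ℕ, ∀ n : ℕ, n0 ≤ n →
    ∀ p : ℝ, 1 / Real.log n ^ 2 ≤ p → p ≤ 1 - 1 / Real.log n ^ 2 →
    ∀ f : (Edge n r → Bool) → ℝ, Bool01 f → Symm f → II p f ≤ (n : ℝ) ^ (1 / 1000 : ℝ) →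
    ∀ k : ℕ, Real.log n / Real.log (BB p) ≤ k →
      (k : ℝ) ≤ κ * (Real.log n / Real.log (BB p)) ^ ((r : ℝ) / (r - 1)) →
      ∑ S : Finset (Edge n r) with S.card = k, ft p f S ^ 2 ≤ 10 * (n : ℝ) ^ (-(1 / 2000) : ℝ)

/-- the statement of `level_all_low` -/
def LowStmt (r : ℕ) : Prop := ∃ n0 : ℕ, ∀ n : ℕ, n0 ≤ n →
    ∀ p : ℝ, 1 / Real.log n ^ 2 ≤ p → p ≤ 1 - 1 / Real.log n ^ 2 →
    ∀ f : (Edge n r → Bool) → ℝ, Bool01 f → Symm f → II p f ≤ (n : ℝ) ^ (1 / 1000 : ℝ) →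
    ∀ k : ℕ, 1 ≤ k → (k : ℝ) ≤ Real.log n / Real.log (BB p) →
      ∑ S : Finset (Edge n r) with S.card = k, ft p f S ^ 2 ≤ 10 * (n : ℝ) ^ (-(1 / 2000) : ℝ)

/-- Parseval: `la · II ≥ K (Var - K δ)` when the levels `1 ≤ k ≤ K` have mass at most `δ` -/
theorem la_II_ge {E : Type*} [Fintype E] [DecidableEq E] {p : ℝ} (h0 : 0 < p) (h1 : p < 1)
    {f : (E → Bool) → ℝ} (hf : Bool01 f) {K δ : ℝ} (hK : 0 ≤ K) (hδ : 0 ≤ δ)
    (hlev : ∀ k : ℕ, 1 ≤ k → (k : ℝ) ≤ K →
      ∑ S : Finset E with S.card = k, ft p f S ^ 2 ≤ δ) :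
    K * (Ex p f - Ex p f ^ 2 - K * δ) ≤ la p * II p f := by
  have hP := parseval h0 h1 f
  have hf2 : (fun x => f x ^ 2) = f := by
    funext x
    rcases hf x with h | h <;> rw [h] <;> norm_num
  rw [hf2] at hP
  have hI := sum_card_ft_le h0 h1 f
  set a : Finset E → ℝ := fun S => ft p f S ^ 2 with ha
  have ha0 : ∀ S, 0 ≤ a S := fun S => sq_nonneg _
  -- split according to the cardinality
  have hsplit : ∑ S : Finset E, a S = a ∅ + ∑ S : Finset E with (1 ≤ S.card ∧ (S.card : ℝ) ≤ K), a S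
      + ∑ S : Finset E with K < (S.card : ℝ), a S := by
    have e1 : ∀ S : Finset E, a S = (if S = ∅ then a S else 0) +
        (if (1 ≤ S.card ∧ (S.card : ℝ) ≤ K) then a S else 0) +
        (if K < (S.card : ℝ) then a S else 0) := by
      intro S
      by_cases hS : S = ∅
      · subst hS
        simp [hK]
      · have hc : 1 ≤ S.card := Finset.card_pos.mpr (Finset.nonempty_iff_ne_empty.mpr hS)
        by_cases hk : (S.card : ℝ) ≤ K
        · rw [if_neg hS, if_pos ⟨hc, hk⟩, if_neg (not_lt.mpr hk)]; ring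
        · rw [if_neg hS, if_neg (fun h => hk h.2), if_pos (not_le.mp hk)]; ring
    rw [Finset.sum_congr rfl fun S _ => e1 S, Finset.sum_add_distrib, Finset.sum_add_distrib,
      Finset.sum_ite_eq' Finset.univ ∅ a, if_pos (Finset.mem_univ _), ← Finset.sum_filter,
      ← Finset.sum_filter]
  have hlow : ∑ S : Finset E with (1 ≤ S.card ∧ (S.card : ℝ) ≤ K), a S ≤ K * δ := by
    have e2 : ∑ S : Finset E with (1 ≤ S.card ∧ (S.card : ℝ) ≤ K), a S ≤
        ∑ k ∈ Finset.Icc 1 ⌊K⌋₊, ∑ S : Finset E with S.card = k, a S := by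
      rw [← Finset.sum_fiberwise_of_maps_to (s := Finset.univ.filter
        (fun S : Finset E => 1 ≤ S.card ∧ (S.card : ℝ) ≤ K)) (t := Finset.Icc 1 ⌊K⌋₊)
        (g := fun S => S.card)]
      · apply Finset.sum_le_sum
        intro k _
        apply Finset.sum_le_sum_of_subset_of_nonneg
        · intro S hS
          simp only [Finset.mem_filter, Finset.mem_univ, true_and] at hS ⊢
          exact hS.2
        · intro S _ _; exact ha0 S
      · intro S hS
        simp only [Finset.mem_filter, Finset.mem_univ, true_and] at hS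
        rw [Finset.mem_Icc]
        exact ⟨hS.1, Nat.le_floor hS.2⟩
    refine e2.trans ?_
    have e3 : ∀ k ∈ Finset.Icc 1 ⌊K⌋₊, ∑ S : Finset E with S.card = k, a S ≤ δ := by
      intro k hk
      rw [Finset.mem_Icc] at hk
      exact hlev k hk.1 ((Nat.le_floor_iff hK).mp hk.2)
    refine (Finset.sum_le_sum e3).trans ?_
    rw [Finset.sum_const, Nat.card_Icc, nsmul_eq_mul, Nat.add_sub_cancel]
    exact mul_le_mul_of_nonneg_right (Nat.floor_le hK) hδ
  have hhigh : K * ∑ S : Finset E with K < (S.card : ℝ), a S ≤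
      ∑ S : Finset E, (S.card : ℝ) * ft p f S ^ 2 := by
    rw [Finset.mul_sum]
    refine (Finset.sum_le_sum (g := fun S => (S.card : ℝ) * a S) ?_).trans ?_
    · intro S hS
      simp only [Finset.mem_filter, Finset.mem_univ, true_and] at hS
      exact mul_le_mul_of_nonneg_right hS.le (ha0 S)
    · apply Finset.sum_le_sum_of_subset_of_nonneg (Finset.filter_subset _ _)
      intro S _ _
      exact mul_nonneg (Nat.cast_nonneg _) (ha0 S)
  have hempty : a ∅ = Ex p f ^ 2 := by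
    show ft p f ∅ ^ 2 = _
    rw [ft_empty]
  have hmain : Ex p f - Ex p f ^ 2 - K * δ ≤ ∑ S : Finset E with K < (S.card : ℝ), a S := by
    rw [hsplit, hempty] at hP
    linarith
  calc K * (Ex p f - Ex p f ^ 2 - K * δ)
      ≤ K * ∑ S : Finset E with K < (S.card : ℝ), a S := mul_le_mul_of_nonneg_left hmain hK
    _ ≤ ∑ S : Finset E, (S.card : ℝ) * ft p f S ^ 2 := hhigh
    _ ≤ la p * II p f := hI

theorem influence_lower_aux (r : ℕ) (hr : 2 ≤ r) (hmid : MidStmt r) (hlow : LowStmt r)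
    {ε : ℝ} (hε : 0 < ε) (hε2 : ε < 1 / 2) :
    ∃ c : ℝ, 0 < c ∧ ∃ n0 : ℕ, ∀ n : ℕ, n0 ≤ n →
    ∀ p : ℝ, 1 / Real.log n ^ 2 ≤ p → p ≤ 1 - 1 / Real.log n ^ 2 →
    ∀ f : (Edge n r → Bool) → ℝ, Bool01 f → Symm f → ε ≤ Ex p f → Ex p f ≤ 1 - ε →
      c * Real.log n ^ ((r : ℝ) / (r - 1)) ≤ II p f := by
  obtain ⟨κ, hκ0, hκ1, n1, hmid⟩ := hmid
  obtain ⟨n2, hlow⟩ := hlow
  obtain ⟨n3, hn3⟩ := log_sq_le_eventually (s := 1 / 1000) (c := 1) (by norm_num) (by norm_num)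
  obtain ⟨n4, hn4⟩ := log_sq_le_eventually (s := 1 / 2000) (c := ε / 40) (by norm_num)
    (by positivity)
  have hrR : (2 : ℝ) ≤ r := by exact_mod_cast hr
  set a : ℝ := (r : ℝ) / (r - 1) with ha
  have ha1 : 1 ≤ a := by
    rw [ha, le_div_iff₀ (by linarith)]; linarith
  have ha2 : a ≤ 2 := by
    rw [ha, div_le_iff₀ (by linarith)]; linarith
  refine ⟨κ * ε / 256, by positivity, max (max (max n1 n2) (max n3 n4)) 3, ?_⟩
  intro n hn p hp1 hp2 f hf hs he1 he2
  have hn1 : n1 ≤ n := by omega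
  have hn2 : n2 ≤ n := by omega
  have hn3' : n3 ≤ n := by omega
  have hn4' : n4 ≤ n := by omega
  have hn3'' : 3 ≤ n := by omega
  have hnR : (3 : ℝ) ≤ n := by exact_mod_cast hn3''
  set L : ℝ := Real.log n with hL
  have hL1 : 1 ≤ L := by
    rw [hL, Real.le_log_iff_exp_le (by linarith)]
    have := Real.exp_one_lt_d9
    linarith
  have hp0 : 0 < p := lt_of_lt_of_le (by positivity) hp1
  have hp1' : p < 1 := by
    have : 0 < 1 / L ^ 2 := by positivity
    linarith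
  have hla := la_pos hp0 hp1'
  have hla4 := la_le p
  have hBB : BB p = 16 / la p := rfl
  have hBB64 : 64 ≤ BB p := by
    rw [hBB, le_div_iff₀ hla]; linarith
  set Λ : ℝ := Real.log (BB p) with hΛ
  have hΛ1 : 1 ≤ Λ := by
    rw [hΛ, Real.le_log_iff_exp_le (by linarith)]
    have := Real.exp_one_lt_d9
    linarith
  set X : ℝ := L / Λ with hX
  have hX0 : 0 < X := by positivity
  have hLa : L ^ a ≤ L ^ 2 := by
    rw [← Real.rpow_two]
    exact Real.rpow_le_rpow_of_exponent_le hL1 ha2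
  have hLa0 : 0 ≤ L ^ a := by positivity
  by_cases hII : II p f ≤ (n : ℝ) ^ (1 / 1000 : ℝ)
  · set K : ℝ := κ * X ^ a with hK
    have hXa0 : 0 < X ^ a := Real.rpow_pos_of_pos hX0 a
    have hK0 : 0 < K := by positivity
    set δ : ℝ := 10 * (n : ℝ) ^ (-(1 / 2000) : ℝ) with hδ
    have hδ0 : 0 < δ := by positivity
    have hlev : ∀ k : ℕ, 1 ≤ k → (k : ℝ) ≤ K →
        ∑ S : Finset (Edge n r) with S.card = k, ft p f S ^ 2 ≤ δ := by
      intro k hk1 hkK
      by_cases hkX : X ≤ (k : ℝ)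
      · exact hmid n hn1 p hp1 hp2 f hf hs hII k hkX hkK
      · push Not at hkX
        exact hlow n hn2 p hp1 hp2 f hf hs hII k hk1 hkX.le
    have h1 := la_II_ge hp0 hp1' hf hK0.le hδ0.le hlev
    -- variance
    have hvar : ε / 2 ≤ Ex p f - Ex p f ^ 2 := by nlinarith
    -- `K δ ≤ ε / 4`
    have hXL : X ≤ L := by
      rw [hX, div_le_iff₀ (by linarith)]
      nlinarith
    have hXaL : X ^ a ≤ L ^ a := Real.rpow_le_rpow hX0.le hXL (by linarith)
    have hKL : K ≤ L ^ 2 := by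
      calc K = κ * X ^ a := rfl
        _ ≤ 1 * L ^ a := mul_le_mul hκ1 hXaL hXa0.le (by norm_num)
        _ ≤ L ^ 2 := by rw [one_mul]; exact hLa
    have hKδ : K * δ ≤ ε / 4 := by
      have h2 := hn4 n hn4'
      have hns : 0 < (n : ℝ) ^ (1 / 2000 : ℝ) := Real.rpow_pos_of_pos (by linarith) _
      have h3 : (n : ℝ) ^ (-(1 / 2000) : ℝ) * (n : ℝ) ^ (1 / 2000 : ℝ) = 1 := by
        rw [← Real.rpow_add (by linarith)]
        norm_num
      calc K * δ ≤ L ^ 2 * δ := mul_le_mul_of_nonneg_right hKL hδ0.le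
        _ ≤ (ε / 40 * (n : ℝ) ^ (1 / 2000 : ℝ)) * δ := mul_le_mul_of_nonneg_right h2 hδ0.le
        _ = ε / 4 * ((n : ℝ) ^ (-(1 / 2000) : ℝ) * (n : ℝ) ^ (1 / 2000 : ℝ)) := by
            rw [hδ]; ring
        _ = ε / 4 := by rw [h3, mul_one]
    have h4 : K * (ε / 4) ≤ la p * II p f := by
      refine le_trans (mul_le_mul_of_nonneg_left ?_ hK0.le) h1
      linarith
    -- `la Λ² ≤ 64`
    have h5 : la p * Λ ^ 2 ≤ 64 := by
      have h6 : Λ ≤ 2 * Real.sqrt (BB p) := by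
        have h7 : 0 < Real.sqrt (BB p) := Real.sqrt_pos.mpr (by linarith)
        have h8 : Λ = 2 * Real.log (Real.sqrt (BB p)) := by
          rw [hΛ, Real.log_sqrt (by linarith)]; ring
        rw [h8]
        have := Real.log_le_sub_one_of_pos h7
        linarith
      have h9 : Λ ^ 2 ≤ (2 * Real.sqrt (BB p)) ^ 2 := by gcongr
      rw [mul_pow, Real.sq_sqrt (by linarith), hBB] at h9
      calc la p * Λ ^ 2 ≤ la p * (2 ^ 2 * (16 / la p)) := mul_le_mul_of_nonneg_left h9 hla.le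
        _ = 64 := by field_simp; norm_num
    -- conclusion
    have h10 : X ^ a = L ^ a / Λ ^ a := by
      rw [hX, Real.div_rpow (by linarith) (by linarith)]
    have hΛa : Λ ^ a ≤ Λ ^ 2 := by
      rw [← Real.rpow_two]
      exact Real.rpow_le_rpow_of_exponent_le hΛ1 ha2
    have hΛa0 : 0 < Λ ^ a := Real.rpow_pos_of_pos (by linarith) a
    have h11 : la p * Λ ^ a ≤ 64 :=
      (mul_le_mul_of_nonneg_left hΛa hla.le).trans h5
    -- `κ L^a ε/4 ≤ la Λ^a II ≤ 64 II`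
    have h12 : κ * L ^ a * (ε / 4) ≤ (la p * Λ ^ a) * II p f := by
      have h13 : K * (ε / 4) * Λ ^ a ≤ la p * II p f * Λ ^ a :=
        mul_le_mul_of_nonneg_right h4 hΛa0.le
      have h14 : K * (ε / 4) * Λ ^ a = κ * L ^ a * (ε / 4) := by
        rw [hK, h10]; field_simp
      rw [h14] at h13
      linarith
    have hII0 : 0 ≤ II p f := by
      have : 0 < la p * II p f := lt_of_lt_of_le (by positivity) h4
      exact ((pos_iff_pos_of_mul_pos this).mp hla).le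
    have h15 : (la p * Λ ^ a) * II p f ≤ 64 * II p f := mul_le_mul_of_nonneg_right h11 hII0
    have h16 : κ * ε / 256 * L ^ a = κ * L ^ a * (ε / 4) / 64 := by ring
    rw [h16]
    linarith
  · push Not at hII
    have h2 := hn3 n hn3'
    rw [one_mul] at h2
    have h3 : κ * ε / 256 ≤ 1 := by nlinarith
    calc κ * ε / 256 * L ^ a ≤ 1 * L ^ a := mul_le_mul_of_nonneg_right h3 hLa0
      _ ≤ L ^ 2 := by rw [one_mul]; exact hLa
      _ ≤ (n : ℝ) ^ (1 / 1000 : ℝ) := h2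
      _ ≤ II p f := hII.le

end FK
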