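import Vale.Agent.FK.Level
import Vale.Agent.FK.ParamA
import Vale.Agent.FK.ParamB
import Vale.Agent.FK.ParamC

/-!
# P063 / FK / Param [PAR]: choice of the parameters

`L = log n`, `Λ = log (BB p)`, `X = L / Λ`, `1/L² ≤ p ≤ 1 - 1/L²`, so `64 ≤ BB p ≤ 32 L²`.
`ρ = 16 Λ / L`, `Q = n^(1/200)`, `τ = n^(-1/100)`, `η = (BB p)^(-2k)`, `κ ≤ 1/6400`,
`κ ≤ 1/(128 * 128 * r)`, `II ≤ n^(1/1000)`.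

Case `k ≥ X` (`ρ k ≥ 16`), `k ≤ κ X^(r/(r-1)) ≤ κ X²`:
* `how`: `8 (128 r k / X)^(r-1) ≤ X / 16` since `128 r κ X^(1/(r-1)) ≤ (X/128)^(1/(r-1))`.
* `2 (BB^k η)^(1/4) = 2 BB^(-k/4) ≤ 2 n^(-1/4)`.
* `II / Q ≤ n^(-1/250)`.
* `√BB^d ≤ e^(Λ ρ k) = e^(16 Λ² k / L) ≤ n^(16 κ) ≤ n^(1/400)`, times `√τ II ≤ n^(-1/200 + 1/1000)`.
* `(Q/τ+1)^d ≤ n^(ρ k / 25)` (as `n^(3/200) + 1 ≤ n^(1/50)`), `1/η = e^(2 Λ k) = n^(ρ k / 8)`,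
  `(2 r k / n)^u ≤ n^(-(49/50) ρ k / 4)` (as `2 r k ≤ n^(1/50)`): total `n^(-0.08 ρ k) ≤ n^(-1.28)`.
Case `k ≤ X`: `√BB^k ≤ n^(1/2)`, `card (Edge n r) = choose n r ≥ n² / C_r`.
-/

namespace FK

open Finset

/-! ## [PAR3] -/
/-- `K = κ X^(r/(r-1))`: `λ II ≥ ∑ |S| ft² ≥ K (Var - ∑_{1 ≤ k ≤ K} level_k)`, `K ≤ L²`, and
`K/λ ≥ κ L^(r/(r-1)) / (λ Λ²)`, `λ Λ² ≤ 5`; or `II > n^(1/1000) ≥ L²`. -/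
theorem influence_lower (r : ℕ) (hr : 2 ≤ r) {ε : ℝ} (hε : 0 < ε) (hε2 : ε < 1 / 2) :
    ∃ c : ℝ, 0 < c ∧ ∃ n0 : ℕ, ∀ n : ℕ, n0 ≤ n →
    ∀ p : ℝ, 1 / Real.log n ^ 2 ≤ p → p ≤ 1 - 1 / Real.log n ^ 2 →
    ∀ f : (Edge n r → Bool) → ℝ, Bool01 f → Symm f → ε ≤ Ex p f → Ex p f ≤ 1 - ε →
      c * Real.log n ^ ((r : ℝ) / (r - 1)) ≤ II p f :=
  influence_lower_aux r hr (level_all_mid r hr) (level_all_low r hr) hε hε2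

end FK
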