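import Vale.Agent.FK.Basic

/-!
# P063 / FK / Parseval [PARS]

`∑_S χ_S(x) χ_S(y) = ∏_e (1 + φ(x_e) φ(y_e)) = δ_{xy} / W(x)`; `Finset.prod_one_add` or
`Finset.prod_add`.
-/

namespace FK

open Finset

variable {E : Type*} [Fintype E] [DecidableEq E]

theorem wt_mul_ph {p : ℝ} (h0 : 0 < p) (h1 : p < 1) (a b : Bool) :
    wt p a * (1 + ph p a * ph p b) = if a = b then 1 else 0 := by
  have h2 : 0 < p * (1 - p) := mul_pos h0 (by linarith)
  have h3 : Real.sqrt (p * (1 - p)) * Real.sqrt (p * (1 - p)) = p * (1 - p) :=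
    Real.mul_self_sqrt h2.le
  have h4 : Real.sqrt (p * (1 - p)) ≠ 0 := (Real.sqrt_pos.mpr h2).ne'
  have h5 : (1 - p) ≠ 0 := by linarith
  have h6 : ∀ u v : ℝ, u / Real.sqrt (p * (1 - p)) * (v / Real.sqrt (p * (1 - p))) =
      u * v / (p * (1 - p)) := by
    intro u v
    rw [div_mul_div_comm, h3]
  cases a <;> cases b <;> simp only [wt, ph, h6] <;> simp <;> field_simp <;> ring_nf <;> simp

theorem sum_ch {p : ℝ} (h0 : 0 < p) (h1 : p < 1) (x y : E → Bool) :
    WW p x * ∑ S : Finset E, ch p S x * ch p S y = if x = y then 1 else 0 := by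
  have h2 : ∑ S : Finset E, ch p S x * ch p S y = ∏ e, (1 + ph p (x e) * ph p (y e)) := by
    rw [Finset.prod_one_add, Finset.powerset_univ]
    refine Finset.sum_congr rfl fun S _ => ?_
    unfold ch
    rw [← Finset.prod_mul_distrib]
  rw [h2]
  unfold WW
  rw [← Finset.prod_mul_distrib]
  rw [Finset.prod_congr rfl fun e _ => wt_mul_ph h0 h1 (x e) (y e)]
  split_ifs with h
  · refine Finset.prod_eq_one fun e _ => ?_
    rw [h, if_pos rfl]
  · have h3 : ∃ e, x e ≠ y e := by
      by_contra hc
      push Not at hc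
      exact h (funext hc)
    obtain ⟨e, he⟩ := h3
    exact Finset.prod_eq_zero (Finset.mem_univ e) (if_neg he)

theorem parseval {p : ℝ} (h0 : 0 < p) (h1 : p < 1) (g : (E → Bool) → ℝ) :
    ∑ S : Finset E, ft p g S ^ 2 = Ex p (fun x => g x ^ 2) := by
  have h2 : ∀ S : Finset E, ft p g S ^ 2 =
      ∑ x, ∑ y, (g x * (WW p y * g y)) * (WW p x * (ch p S x * ch p S y)) := by
    intro S
    unfold ft Ex
    rw [sq, Finset.sum_mul_sum]
    refine Finset.sum_congr rfl fun x _ => Finset.sum_congr rfl fun y _ => ?_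
    ring
  rw [Finset.sum_congr rfl fun S _ => h2 S, Finset.sum_comm]
  unfold Ex
  refine Finset.sum_congr rfl fun x _ => ?_
  rw [Finset.sum_comm]
  have h3 : ∀ y, ∑ S : Finset E, (g x * (WW p y * g y)) * (WW p x * (ch p S x * ch p S y)) =
      if x = y then g x * (WW p y * g y) else 0 := by
    intro y
    rw [← Finset.mul_sum, ← Finset.mul_sum, sum_ch h0 h1]
    split_ifs <;> ring
  rw [Finset.sum_congr rfl fun y _ => h3 y, Finset.sum_ite_eq, if_pos (Finset.mem_univ x)]
  ring

/-- resampling one coordinate -/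
theorem Ex_coord (p : ℝ) (e : E) (u : Bool → ℝ) (h : (E → Bool) → ℝ) :
    Ex p (fun x => h x * u (x e)) =
      p * u true * Ex p (fun x => h (Function.update x e true)) +
        (1 - p) * u false * Ex p (fun x => h (Function.update x e false)) := by
  have h1 : (fun x : E → Bool => h x * u (x e)) = fun x =>
      (if x e then u true else 0) * h (Function.update x e true) +
        (if x e then 0 else u false) * h (Function.update x e false) := by
    funext x
    cases hx : x e
    · have : Function.update x e false = x := by rw [← hx, Function.update_eq_self]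
      rw [this]
      simp [mul_comm]
    · have : Function.update x e true = x := by rw [← hx, Function.update_eq_self]
      rw [this]
      simp [mul_comm]
  rw [h1, Ex_add]
  have h2 := Ex_indep p e (fun b => if b then u true else 0)
    (fun x => h (Function.update x e true)) (fun x b => by simp)
  have h3 := Ex_indep p e (fun b => if b then 0 else u false)
    (fun x => h (Function.update x e false)) (fun x b => by simp)
  rw [h2, h3]
  simp

theorem ch_update (p : ℝ) {e : E} {T : Finset E} (he : e ∉ T) (x : E → Bool) (b : Bool) :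
    ch p T (Function.update x e b) = ch p T x := by
  unfold ch
  refine Finset.prod_congr rfl fun a ha => ?_
  rw [Function.update_of_ne]
  rintro rfl
  exact he ha

/-- coefficient of the derivative, `e ∉ T` -/
theorem ft_insert {p : ℝ} (h0 : 0 < p) (h1 : p < 1) (g : (E → Bool) → ℝ) {e : E} {T : Finset E}
    (he : e ∉ T) : ft p g (insert e T) = Real.sqrt (la p) * Ex p (fun x => dd e g x * ch p T x) := by
  have h2 : ft p g (insert e T) = Ex p (fun x => (g x * ch p T x) * ph p (x e)) := by
    unfold ft
    congr 1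
    funext x
    unfold ch
    rw [Finset.prod_insert he]
    ring
  rw [h2, Ex_coord]
  have h3 : 0 < p * (1 - p) := mul_pos h0 (by linarith)
  have h4 : Real.sqrt (p * (1 - p)) ≠ 0 := (Real.sqrt_pos.mpr h3).ne'
  have h5 : Real.sqrt (p * (1 - p)) * Real.sqrt (p * (1 - p)) = p * (1 - p) :=
    Real.mul_self_sqrt h3.le
  have h6 : p * ph p true = Real.sqrt (la p) := by
    unfold ph la
    simp only [if_true]
    rw [mul_div_assoc', div_eq_iff h4, h5]
  have h7 : (1 - p) * ph p false = -Real.sqrt (la p) := by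
    unfold ph la
    simp only [Bool.false_eq_true, if_false]
    rw [mul_div_assoc', div_eq_iff h4, neg_mul, h5]
    ring
  rw [h6, h7]
  have h8 : (fun x => dd e g x * ch p T x) = fun x =>
      g (Function.update x e true) * ch p T (Function.update x e true) -
        g (Function.update x e false) * ch p T (Function.update x e false) := by
    funext x
    rw [ch_update p he, ch_update p he]
    unfold dd
    ring
  rw [h8, Ex_sub]
  ring

theorem sum_ft_mem_le {p : ℝ} (h0 : 0 < p) (h1 : p < 1) (g : (E → Bool) → ℝ) (e : E) :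
    ∑ S : Finset E with e ∈ S, ft p g S ^ 2 ≤ la p * Inf p e g := by
  have h2 : 0 < la p := la_pos h0 h1
  have h3 : ∀ S ∈ (univ : Finset (Finset E)).filter (fun S => e ∈ S),
      ft p g S ^ 2 = la p * ft p (dd e g) (S.erase e) ^ 2 := by
    intro S hS
    rw [Finset.mem_filter] at hS
    have h4 := ft_insert h0 h1 g (Finset.notMem_erase e S)
    rw [Finset.insert_erase hS.2] at h4
    rw [h4, mul_pow, Real.sq_sqrt h2.le]
    rfl
  rw [Finset.sum_congr rfl h3, ← Finset.mul_sum]
  apply mul_le_mul_of_nonneg_left _ h2.le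
  have h5 : ∑ S : Finset E with e ∈ S, ft p (dd e g) (S.erase e) ^ 2 ≤
      ∑ T : Finset E, ft p (dd e g) T ^ 2 := by
    have h6 : Set.InjOn (fun S : Finset E => S.erase e)
        ((univ : Finset (Finset E)).filter (fun S => e ∈ S) : Set (Finset E)) := by
      intro S hS S' hS' hh
      have a1 : e ∈ S := by simpa using hS
      have a2 : e ∈ S' := by simpa using hS'
      have a3 : S.erase e = S'.erase e := hh
      rw [← Finset.insert_erase a1, ← Finset.insert_erase a2, a3]
    rw [← Finset.sum_image (f := fun T => ft p (dd e g) T ^ 2) h6]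
    exact Finset.sum_le_sum_of_subset_of_nonneg (Finset.subset_univ _) fun _ _ _ => sq_nonneg _
  refine h5.trans ?_
  rw [parseval h0 h1]
  rfl

theorem sum_card_ft_le {p : ℝ} (h0 : 0 < p) (h1 : p < 1) (g : (E → Bool) → ℝ) :
    ∑ S : Finset E, (S.card : ℝ) * ft p g S ^ 2 ≤ la p * II p g := by
  have h2 : ∑ S : Finset E, (S.card : ℝ) * ft p g S ^ 2 =
      ∑ e, ∑ S : Finset E with e ∈ S, ft p g S ^ 2 := by
    have h3 : ∀ S : Finset E, (S.card : ℝ) * ft p g S ^ 2 =
        ∑ e, if e ∈ S then ft p g S ^ 2 else 0 := by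
      intro S
      rw [← Finset.sum_filter, Finset.sum_const, nsmul_eq_mul]
      congr 2
      simp
    rw [Finset.sum_congr rfl fun S _ => h3 S, Finset.sum_comm]
    refine Finset.sum_congr rfl fun e _ => ?_
    rw [Finset.sum_filter]
  rw [h2]
  unfold II
  rw [Finset.mul_sum]
  exact Finset.sum_le_sum fun e _ => sum_ft_mem_le h0 h1 g e

theorem ft_empty (p : ℝ) (g : (E → Bool) → ℝ) : ft p g ∅ = Ex p g := by
  unfold ft ch
  simp

end FK
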