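import Vale.Agent.FK.Defs

/-!
# P063 / FK / Russo: the formula of Russo and the width of the threshold
-/

set_option linter.unusedSectionVars false

namespace FK

open Finset

variable {E : Type*} [Fintype E] [DecidableEq E]

/-- flip one coordinate -/
def rus_flp (e : E) (x : E → Bool) : E → Bool := Function.update x e (!(x e))

theorem rus_flp_flp (e : E) (x : E → Bool) : rus_flp e (rus_flp e x) = x := by
  funext j
  unfold rus_flp
  by_cases h : j = e
  · subst h; simp
  · simp [h]

theorem rus_sum_flp (e : E) (H : (E → Bool) → ℝ) : ∑ x, H (rus_flp e x) = ∑ x, H x :=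
  Equiv.sum_comp (Function.Involutive.toPerm (rus_flp e) (rus_flp_flp e)) H

theorem rus_update_flp (e : E) (b : Bool) (x : E → Bool) :
    Function.update (rus_flp e x) e b = Function.update x e b := by
  unfold rus_flp
  simp

theorem rus_dd_flp (e : E) (g : (E → Bool) → ℝ) (x : E → Bool) : dd e g (rus_flp e x) = dd e g x := by
  unfold dd
  rw [rus_update_flp, rus_update_flp]

/-- product over the other coordinates -/
noncomputable def rus_M0 (p : ℝ) (e : E) (x : E → Bool) : ℝ := ∏ j ∈ univ.erase e, wt p (x j)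

theorem rus_M0_flp (p : ℝ) (e : E) (x : E → Bool) : rus_M0 p e (rus_flp e x) = rus_M0 p e x := by
  unfold rus_M0
  apply prod_congr rfl
  intro j hj
  have : j ≠ e := (mem_erase.mp hj).1
  unfold rus_flp
  rw [Function.update_of_ne this]

theorem rus_WW_eq (p : ℝ) (e : E) (x : E → Bool) : WW p x = wt p (x e) * rus_M0 p e x := by
  unfold WW rus_M0
  rw [mul_prod_erase univ (fun j => wt p (x j)) (mem_univ e)]

/-- derivative of the weight of a bit -/
noncomputable def rus_sg (b : Bool) : ℝ := if b then 1 else -1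

theorem hasDerivAt_wt (p : ℝ) (b : Bool) : HasDerivAt (fun q => wt q b) (rus_sg b) p := by
  cases b
  · simp only [wt, rus_sg]
    simpa using (hasDerivAt_id p).const_sub 1
  · simp only [wt, rus_sg]
    exact hasDerivAt_id' p

theorem hasDerivAt_WW (p : ℝ) (x : E → Bool) :
    HasDerivAt (fun q => WW q x) (∑ e, rus_M0 p e x * rus_sg (x e)) p := by
  unfold WW rus_M0
  have := HasDerivAt.fun_finsetProd (u := (univ : Finset E)) (f := fun e q => wt q (x e))
    (f' := fun e => rus_sg (x e)) (x := p) (fun e _ => hasDerivAt_wt p (x e))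
  simpa [smul_eq_mul] using this

theorem rus_sg_key (e : E) (g : (E → Bool) → ℝ) (x : E → Bool) :
    rus_sg (x e) * g x + rus_sg (rus_flp e x e) * g (rus_flp e x) = dd e g x := by
  have h1 : rus_flp e x e = !(x e) := by simp [rus_flp]
  rw [h1]
  unfold dd rus_flp
  rcases hx : x e with _ | _
  · have h2 : Function.update x e false = x := by
      rw [← hx]; exact Function.update_eq_self e x
    rw [h2]
    simp only [rus_sg, Bool.not_false]
    norm_num
    ring
  · have h2 : Function.update x e true = x := by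
      rw [← hx]; exact Function.update_eq_self e x
    rw [h2]
    simp only [rus_sg, Bool.not_true]
    norm_num
    ring

theorem sum_M0_sg (p : ℝ) (e : E) (g : (E → Bool) → ℝ) :
    2 * ∑ x, rus_M0 p e x * (rus_sg (x e) * g x) = ∑ x, rus_M0 p e x * dd e g x := by
  have h := rus_sum_flp e (fun x => rus_M0 p e x * (rus_sg (x e) * g x))
  rw [two_mul]
  nth_rewrite 2 [← h]
  rw [← sum_add_distrib]
  apply sum_congr rfl
  intro x _
  rw [rus_M0_flp, ← mul_add, rus_sg_key]

theorem two_Ex_dd (p : ℝ) (e : E) (g : (E → Bool) → ℝ) :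
    2 * Ex p (dd e g) = ∑ x, rus_M0 p e x * dd e g x := by
  have h := rus_sum_flp e (fun x => WW p x * dd e g x)
  unfold Ex
  rw [two_mul]
  nth_rewrite 2 [← h]
  rw [← sum_add_distrib]
  apply sum_congr rfl
  intro x _
  rw [rus_dd_flp, rus_WW_eq p e x, rus_WW_eq p e (rus_flp e x), rus_M0_flp]
  have h1 : rus_flp e x e = !(x e) := by simp [rus_flp]
  rw [h1]
  rcases x e with _ | _
  · simp [wt]; ring
  · simp [wt]; ring

/-- formula of Russo -/
theorem russo (p : ℝ) (g : (E → Bool) → ℝ) :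
    HasDerivAt (fun q => Ex q g) (∑ e, Ex p (dd e g)) p := by
  have h1 : HasDerivAt (fun q => Ex q g) (∑ x, (∑ e, rus_M0 p e x * rus_sg (x e)) * g x) p := by
    unfold Ex
    apply HasDerivAt.fun_sum
    intro x _
    exact (hasDerivAt_WW p x).mul_const (g x)
  have h2 : ∑ x, (∑ e, rus_M0 p e x * rus_sg (x e)) * g x = ∑ e, Ex p (dd e g) := by
    simp_rw [sum_mul]
    rw [sum_comm]
    apply sum_congr rfl
    intro e _
    have h3 := sum_M0_sg p e g
    have h4 := two_Ex_dd p e g
    have h5 : ∑ x, rus_M0 p e x * rus_sg (x e) * g x = ∑ x, rus_M0 p e x * (rus_sg (x e) * g x) :=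
      sum_congr rfl (fun x _ => by ring)
    rw [h5]
    linarith
  rw [h2] at h1
  exact h1

theorem rus_update_mono (e : E) (x : E → Bool) :
    Function.update x e false ≤ Function.update x e true := by
  intro j
  by_cases h : j = e
  · subst h; simp
  · simp [h]

theorem rus_dd_sq {g : (E → Bool) → ℝ} (hg : Bool01 g) (hm : Monotone g) (e : E) (x : E → Bool) :
    (dd e g x) ^ 2 = dd e g x := by
  have h1 := hm (rus_update_mono e x)
  unfold dd
  rcases hg (Function.update x e true) with h | h <;>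
    rcases hg (Function.update x e false) with h' | h' <;> rw [h, h'] <;> norm_num
  rw [h, h'] at h1
  norm_num at h1

theorem II_eq {g : (E → Bool) → ℝ} (hg : Bool01 g) (hm : Monotone g) (p : ℝ) :
    II p g = ∑ e, Ex p (dd e g) := by
  unfold II Inf
  apply sum_congr rfl
  intro e _
  congr 1
  funext x
  exact rus_dd_sq hg hm e x

theorem russo_mono {g : (E → Bool) → ℝ} (hg : Bool01 g) (hm : Monotone g) (p : ℝ) :
    HasDerivAt (fun q => Ex q g) (II p g) p := by
  rw [II_eq hg hm]
  exact russo p g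

/-- [RUS] -/
theorem hasDerivAt_Ex (f : (E → Bool) → ℝ) (p : ℝ) :
    HasDerivAt (fun q => Ex q f) (∑ e, Ex p (dd e f)) p := russo p f

theorem sum_dd_eq_II (p : ℝ) {f : (E → Bool) → ℝ} (hf : Bool01 f) (hm : Monotone f) :
    ∑ e, Ex p (dd e f) = II p f := (II_eq hf hm p).symm

theorem rus_wt_nonneg {p : ℝ} (h0 : 0 ≤ p) (h1 : p ≤ 1) (b : Bool) : 0 ≤ wt p b := by
  unfold wt; split_ifs <;> linarith

theorem rus_II_nonneg {p : ℝ} (h0 : 0 ≤ p) (h1 : p ≤ 1) (g : (E → Bool) → ℝ) : 0 ≤ II p g := by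
  unfold II Inf Ex WW
  exact sum_nonneg (fun e _ => sum_nonneg (fun x _ =>
    mul_nonneg (prod_nonneg (fun j _ => rus_wt_nonneg h0 h1 _)) (sq_nonneg _)))

theorem Ex_continuous (g : (E → Bool) → ℝ) : Continuous (fun q => Ex q g) :=
  continuous_iff_continuousAt.mpr (fun p => (russo p g).continuousAt)

theorem Ex_monotoneOn {g : (E → Bool) → ℝ} (hg : Bool01 g) (hm : Monotone g) :
    MonotoneOn (fun q => Ex q g) (Set.Icc 0 1) := by
  apply monotoneOn_of_deriv_nonneg (convex_Icc 0 1) (Ex_continuous g).continuousOn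
  · intro p _
    exact (russo p g).differentiableAt.differentiableWithinAt
  · intro p hp
    rw [interior_Icc] at hp
    rw [(russo_mono hg hm p).deriv]
    exact rus_II_nonneg hp.1.le hp.2.le g

/-- the sum of all weights -/
theorem rus_sum_WW (p : ℝ) : ∑ x : E → Bool, WW p x = 1 := by
  unfold WW
  have h := Finset.prod_univ_sum (fun _ : E => (univ : Finset Bool)) (fun _ b => wt p b)
  rw [Fintype.piFinset_univ] at h
  rw [← h]
  simp [wt]

theorem rus_Ex_le_one {p : ℝ} (h0 : 0 ≤ p) (h1 : p ≤ 1) {g : (E → Bool) → ℝ} (hg : Bool01 g) :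
    Ex p g ≤ 1 := by
  rw [← rus_sum_WW (E := E) p]
  unfold Ex
  apply sum_le_sum
  intro x _
  have h2 : 0 ≤ WW p x := prod_nonneg (fun j _ => rus_wt_nonneg h0 h1 _)
  rcases hg x with h | h <;> rw [h]
  · simpa using h2
  · simp

theorem rus_Ex_nonneg {p : ℝ} (h0 : 0 ≤ p) (h1 : p ≤ 1) {g : (E → Bool) → ℝ} (hg : Bool01 g) :
    0 ≤ Ex p g := by
  unfold Ex
  apply sum_nonneg
  intro x _
  have h2 : 0 ≤ WW p x := prod_nonneg (fun j _ => rus_wt_nonneg h0 h1 _)
  rcases hg x with h | h <;> rw [h]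
  · simp
  · simpa using h2

/-- the threshold `p_a` -/
noncomputable def pth (g : (E → Bool) → ℝ) (a : ℝ) : ℝ := sInf {p : ℝ | 0 ≤ p ∧ p ≤ 1 ∧ a ≤ Ex p g}

theorem Ex_one (g : (E → Bool) → ℝ) : Ex 1 g = g (fun _ => true) := by
  unfold Ex WW
  rw [sum_eq_single (fun _ => true)]
  · simp [wt]
  · intro x _ hx
    have : ∃ e, x e = false := by
      by_contra h
      push Not at h
      exact hx (funext (fun e => by simpa using h e))
    obtain ⟨e, he⟩ := this
    rw [prod_eq_zero (mem_univ e) (by rw [he]; simp [wt]), zero_mul]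
  · intro h
    exact absurd (mem_univ _) h

/-- width from a lower bound of the total influence inside the window -/
theorem width_le {g : (E → Bool) → ℝ} (hg : Bool01 g) (hm : Monotone g)
    (htop : g (fun _ => true) = 1) {ε δ D : ℝ} (hε : 0 < ε) (hε1 : ε < 1 / 2) (hδ : 0 < δ)
    (hD : 0 < D)
    (hI : ∀ p, δ < p → p < 1 - δ → ε ≤ Ex p g → Ex p g ≤ 1 - ε → D ≤ II p g) :
    pth g (1 - ε) - pth g ε ≤ 2 * δ + 1 / D := by
  have hbd : ∀ a : ℝ, BddBelow {p : ℝ | 0 ≤ p ∧ p ≤ 1 ∧ a ≤ Ex p g} :=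
    fun a => ⟨0, fun p hp => hp.1⟩
  have hne : ∀ a : ℝ, a ≤ 1 → (1 : ℝ) ∈ {p : ℝ | 0 ≤ p ∧ p ≤ 1 ∧ a ≤ Ex p g} := by
    intro a ha
    refine ⟨zero_le_one, le_rfl, ?_⟩
    rw [Ex_one, htop]
    exact ha
  obtain ⟨a, ha⟩ : ∃ a, a = pth g ε := ⟨_, rfl⟩
  obtain ⟨b, hb⟩ : ∃ b, b = pth g (1 - ε) := ⟨_, rfl⟩
  rw [← ha, ← hb]
  have ha0 : 0 ≤ a := by
    rw [ha]
    exact le_csInf ⟨1, hne ε (by linarith)⟩ (fun p hp => hp.1)
  have hb1 : b ≤ 1 := by
    rw [hb]
    exact csInf_le (hbd _) (hne (1 - ε) (by linarith))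
  have hlow : ∀ p, a < p → p ≤ 1 → ε ≤ Ex p g := by
    intro p hp hp1
    rw [ha] at hp
    obtain ⟨q, hq, hqp⟩ := exists_lt_of_csInf_lt ⟨1, hne ε (by linarith)⟩ hp
    exact hq.2.2.trans (Ex_monotoneOn hg hm ⟨hq.1, hq.2.1⟩ ⟨by linarith [hq.1], hp1⟩ hqp.le)
  have hupp : ∀ p, 0 ≤ p → p < b → Ex p g ≤ 1 - ε := by
    intro p hp0 hp
    by_contra hcon
    push Not at hcon
    have : b ≤ p := by
      rw [hb]
      exact csInf_le (hbd _) ⟨hp0, by linarith, hcon.le⟩
    linarith
  have hDi : 0 ≤ 1 / D := by positivity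
  by_cases hcase : max a δ < min b (1 - δ)
  · obtain ⟨p0, hp0⟩ : ∃ p0, p0 = max a δ := ⟨_, rfl⟩
    obtain ⟨p1, hp1⟩ : ∃ p1, p1 = min b (1 - δ) := ⟨_, rfl⟩
    rw [← hp0, ← hp1] at hcase
    have e1 : a ≤ p0 := by rw [hp0]; exact le_max_left _ _
    have e2 : δ ≤ p0 := by rw [hp0]; exact le_max_right _ _
    have e3 : p1 ≤ b := by rw [hp1]; exact min_le_left _ _
    have e4 : p1 ≤ 1 - δ := by rw [hp1]; exact min_le_right _ _
    have e5 : p0 ≤ a + δ := by rw [hp0]; exact max_le (by linarith) (by linarith)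
    have e6 : b - δ ≤ p1 := by rw [hp1]; exact le_min (by linarith) (by linarith)
    obtain ⟨c, hc, hceq⟩ := exists_hasDerivAt_eq_slope (fun q => Ex q g) (fun q => II q g) hcase
      (Ex_continuous g).continuousOn (fun q _ => russo_mono hg hm q)
    have hc1 := hc.1
    have hc2 := hc.2
    have hDc : D ≤ II c g := hI c (by linarith) (by linarith) (hlow c (by linarith) (by linarith))
      (hupp c (by linarith) (by linarith))
    rw [hceq] at hDc
    have h5 : Ex p1 g ≤ 1 := rus_Ex_le_one (by linarith) (by linarith) hg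
    have h6 : 0 ≤ Ex p0 g := rus_Ex_nonneg (by linarith) (by linarith) hg
    have h7 : 0 < p1 - p0 := by linarith
    rw [le_div_iff₀ h7] at hDc
    have h8 : p1 - p0 ≤ 1 / D := by
      rw [le_div_iff₀ hD]
      linarith
    linarith
  · push Not at hcase
    rcases le_total a δ with h1 | h1
    · rw [max_eq_right h1] at hcase
      rcases le_total b (1 - δ) with h2 | h2
      · rw [min_eq_left h2] at hcase
        linarith
      · rw [min_eq_right h2] at hcase
        linarith
    · rw [max_eq_left h1] at hcase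
      rcases le_total b (1 - δ) with h2 | h2
      · rw [min_eq_left h2] at hcase
        linarith
      · rw [min_eq_right h2] at hcase
        linarith

end FK
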