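import Vale.Agent.FK.Junta

/-!
# P063 / FK / StarA [STAR1]
-/

namespace FK

open Finset

variable {E : Type*} [Fintype E] [DecidableEq E]

set_option linter.unusedSectionVars false

theorem star_L {p : ℝ} (f : (E → Bool) → ℝ) (J F : Finset E) (s : Finset (Finset E))
    (hs : ∀ S ∈ s, S ∩ J = F) :
    Ex p (fun x => (∑ S ∈ s, ft p f S * ch p (S \ J) x) * ft p (fun y => f (mix J x y)) F) =
      ∑ S ∈ s, ft p f S ^ 2 := by
  have h1 : ∀ x : E → Bool,
      (∑ S ∈ s, ft p f S * ch p (S \ J) x) * ft p (fun y => f (mix J x y)) F =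
        ∑ S ∈ s, ft p f S * Ex p (fun y => f (mix J x y) * ch p S (mix J x y)) := by
    intro x
    rw [Finset.sum_mul]
    refine Finset.sum_congr rfl fun S hS => ?_
    rw [mul_assoc]
    congr 1
    unfold ft
    rw [← Ex_mul_left]
    congr 1
    funext y
    rw [ch_mix, hs S hS]
    ring
  have h2 : (fun x : E → Bool =>
      (∑ S ∈ s, ft p f S * ch p (S \ J) x) * ft p (fun y => f (mix J x y)) F) =
      fun x => ∑ S ∈ s, ft p f S * Ex p (fun y => f (mix J x y) * ch p S (mix J x y)) :=
    funext h1
  rw [h2, Ex_sum]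
  refine Finset.sum_congr rfl fun S _ => ?_
  rw [Ex_mul_left, Ex_mix p J (fun z => f z * ch p S z), sq]
  rfl

theorem mix_update_mem {J : Finset E} {e : E} (he : e ∈ J) (x y : E → Bool) (b : Bool) :
    mix J x (Function.update y e b) = Function.update (mix J x y) e b := by
  funext i
  unfold mix
  by_cases hi : i = e
  · subst hi
    simp [he]
  · simp [Function.update_of_ne hi]

theorem mix_update_notMem {J : Finset E} {e : E} (he : e ∉ J) (x y : E → Bool) (b : Bool) :
    mix J x (Function.update y e b) = mix J x y := by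
  funext i
  unfold mix
  by_cases hi : i = e
  · subst hi
    simp [he]
  · simp [Function.update_of_ne hi]

theorem Inf_nonneg' {p : ℝ} (h0 : 0 < p) (h1 : p < 1) (e : E) (g : (E → Bool) → ℝ) :
    0 ≤ Inf p e g := Ex_nonneg h0.le h1.le fun _ => sq_nonneg _

theorem II_nonneg' {p : ℝ} (h0 : 0 < p) (h1 : p < 1) (g : (E → Bool) → ℝ) :
    0 ≤ II p g := Finset.sum_nonneg fun e _ => Inf_nonneg' h0 h1 e g

theorem Ex_II_mix_le {p : ℝ} (h0 : 0 < p) (h1 : p < 1) (f : (E → Bool) → ℝ) (J : Finset E) :
    Ex p (fun x => II p (fun y => f (mix J x y))) ≤ II p f := by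
  unfold II
  rw [Ex_sum]
  refine Finset.sum_le_sum fun e _ => ?_
  by_cases he : e ∈ J
  · have h : ∀ x y : E → Bool, dd e (fun y => f (mix J x y)) y = dd e f (mix J x y) := by
      intro x y
      unfold dd
      simp only [mix_update_mem he]
    have h2 : (fun x : E → Bool => Inf p e (fun y => f (mix J x y))) =
        fun x => Ex p (fun y => dd e f (mix J x y) ^ 2) := by
      funext x
      unfold Inf
      congr 1
      funext y
      rw [h]
    rw [h2, Ex_mix p J (fun z => dd e f z ^ 2)]
    rfl
  · have h : ∀ x y : E → Bool, dd e (fun y => f (mix J x y)) y = 0 := by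
      intro x y
      unfold dd
      simp only [mix_update_notMem he, sub_self]
    have h2 : (fun x : E → Bool => Inf p e (fun y => f (mix J x y))) = fun x => 0 := by
      funext x
      unfold Inf
      have h3 : (fun y : E → Bool => dd e (fun y => f (mix J x y)) y ^ 2) = fun _ => 0 := by
        funext y
        rw [h]; ring
      rw [h3, Ex_const]
    rw [h2, Ex_const]
    exact Inf_nonneg' h0 h1 e f

end FK
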