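import Vale.Agent.FK.StarDefs
import Vale.Agent.FK.StarA

/-!
# P063 / FK / StarB [STAR2]
-/

namespace FK

open Finset

variable {E : Type*} [Fintype E] [DecidableEq E]

set_option linter.unusedSectionVars false
set_option linter.unusedVariables false

theorem Ex_sq_bool_le {p : ℝ} (h0 : 0 < p) (h1 : p < 1) {g : (E → Bool) → ℝ} (hg : Bool01 g) :
    Ex p (fun x => g x ^ 2) ≤ 1 := by
  have h : Ex p (fun x => g x ^ 2) ≤ Ex p (fun _ : E → Bool => (1 : ℝ)) :=
    Ex_mono h0.le h1.le fun x => by rcases hg x with h | h <;> rw [h] <;> norm_num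
  rwa [Ex_const] at h

theorem sum_sq_le_one {p : ℝ} (h0 : 0 < p) (h1 : p < 1) {f : (E → Bool) → ℝ} (hf : Bool01 f)
    (J : Finset E) :
    ∑ F : Finset E, Ex p (fun x => ft p (fun y => f (mix J x y)) F ^ 2) ≤ 1 := by
  rw [← Ex_sum]
  have h : ∀ x : E → Bool, ∑ F : Finset E, ft p (fun y => f (mix J x y)) F ^ 2 ≤ 1 := by
    intro x
    rw [parseval h0 h1]
    exact Ex_sq_bool_le h0 h1 (bool01_mix hf J x)
  calc Ex p (fun x => ∑ F : Finset E, ft p (fun y => f (mix J x y)) F ^ 2)
      ≤ Ex p (fun _ : E → Bool => (1 : ℝ)) := Ex_mono h0.le h1.le h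
    _ = 1 := Ex_const p 1

theorem err_pointwise {p : ℝ} (h0 : 0 < p) (h1 : p < 1) {f : (E → Bool) → ℝ} (hf : Bool01 f)
    (J : Finset E) (d : ℕ) {Q τ : ℝ} (hQ : 0 < Q) (hτ : 0 < τ) (x : E → Bool) :
    ∑ F : Finset E with F.card ≤ d,
      (ft p (fun y => f (mix J x y)) F - hh p f J Q τ F x) ^ 2 ≤
      (1 / Q + la p * Real.sqrt (BB p) ^ d * Real.sqrt τ) * II p (fun y => f (mix J x y)) := by
  classical
  set g : (E → Bool) → ℝ := fun y => f (mix J x y) with hg
  have hgb : Bool01 g := bool01_mix hf J x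
  have hII : 0 ≤ II p g := II_nonneg' h0 h1 g
  have hla : 0 ≤ la p * Real.sqrt (BB p) ^ d * Real.sqrt τ := by
    have := la_pos h0 h1
    positivity
  by_cases hgood : II p g ≤ Q
  · have e1 : ∑ F : Finset E with F.card ≤ d, (ft p g F - hh p f J Q τ F x) ^ 2 =
        ∑ F : Finset E with (F.card ≤ d ∧ ¬ ∀ e ∈ F, τ ≤ Inf p e g), ft p g F ^ 2 := by
      rw [← Finset.filter_filter, Finset.sum_filter (p := fun F => ¬ ∀ e ∈ F, τ ≤ Inf p e g)]
      refine Finset.sum_congr rfl fun F _ => ?_
      unfold hh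
      rw [← hg]
      by_cases hF : ∀ e ∈ F, τ ≤ Inf p e g
      · rw [if_pos ⟨hgood, hF⟩, if_neg (not_not.2 hF)]; ring
      · rw [if_neg (fun h => hF h.2), if_pos hF]; ring
    rw [e1]
    have := junta h0 h1 hgb d hτ.le
    have h2 : 0 ≤ 1 / Q * II p g := by positivity
    calc _ ≤ la p * Real.sqrt (BB p) ^ d * Real.sqrt τ * II p g := by convert this
      _ ≤ (1 / Q + la p * Real.sqrt (BB p) ^ d * Real.sqrt τ) * II p g := by rw [add_mul]; linarith
  · push Not at hgood
    have e1 : ∑ F : Finset E with F.card ≤ d, (ft p g F - hh p f J Q τ F x) ^ 2 ≤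
        ∑ F : Finset E, ft p g F ^ 2 := by
      refine le_trans (le_of_eq ?_)
        (Finset.sum_le_univ_sum_of_nonneg (s := Finset.univ.filter fun F : Finset E => F.card ≤ d)
          (f := fun F : Finset E => ft p g F ^ 2) fun F => sq_nonneg _)
      refine Finset.sum_congr rfl fun F _ => ?_
      unfold hh
      rw [← hg, if_neg (fun h => absurd h.1 (not_le.2 hgood)), sub_zero]
    rw [parseval h0 h1] at e1
    have e2 := Ex_sq_bool_le h0 h1 hgb
    have e3 : 1 ≤ 1 / Q * II p g := by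
      rw [one_div, inv_mul_eq_div, le_div_iff₀ hQ]
      linarith
    have e4 := mul_nonneg hla hII
    rw [add_mul]
    linarith

theorem sum_err_le {p : ℝ} (h0 : 0 < p) (h1 : p < 1) {f : (E → Bool) → ℝ} (hf : Bool01 f)
    (J : Finset E) (d : ℕ) {Q τ : ℝ} (hQ : 0 < Q) (hτ : 0 < τ) :
    ∑ F : Finset E with F.card ≤ d,
      Ex p (fun x => (ft p (fun y => f (mix J x y)) F - hh p f J Q τ F x) ^ 2) ≤
      II p f / Q + la p * Real.sqrt (BB p) ^ d * Real.sqrt τ * II p f := by
  rw [← Ex_sum]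
  have h := Ex_mono h0.le h1.le (fun x => err_pointwise h0 h1 hf J d hQ hτ x)
  rw [Ex_mul_left] at h
  have h2 := Ex_II_mix_le h0 h1 f J
  have hla : 0 ≤ 1 / Q + la p * Real.sqrt (BB p) ^ d * Real.sqrt τ := by
    have := la_pos h0 h1
    positivity
  calc _ ≤ _ := h
    _ ≤ (1 / Q + la p * Real.sqrt (BB p) ^ d * Real.sqrt τ) * II p f :=
        mul_le_mul_of_nonneg_left h2 hla
    _ = _ := by ring

theorem sum_PP_le {p : ℝ} (h0 : 0 < p) (h1 : p < 1) {f : (E → Bool) → ℝ} (hf : Bool01 f)
    (J : Finset E) (d : ℕ) {Q τ : ℝ} (hQ : 0 < Q) (hτ : 0 < τ) :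
    ∑ F : Finset E with F.card ≤ d, PP p f J Q τ F ≤ (Q / τ + 1) ^ d := by
  classical
  unfold PP
  rw [← Ex_sum]
  have h : ∀ x : E → Bool, (∑ F : Finset E with F.card ≤ d,
      (if hh p f J Q τ F x = 0 then (0 : ℝ) else 1)) ≤ (Q / τ + 1) ^ d := by
    intro x
    set g : (E → Bool) → ℝ := fun y => f (mix J x y) with hg
    have hQτ : 0 ≤ Q / τ := by positivity
    by_cases hgood : II p g ≤ Q
    · set A : Finset E := Finset.univ.filter fun e => τ ≤ Inf p e g with hA
      have hAc : (A.card : ℝ) ≤ Q / τ :=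
        (card_influential_le h0 h1 g hτ).trans (div_le_div_of_nonneg_right hgood hτ.le)
      have h2 : (∑ F : Finset E with F.card ≤ d, (if hh p f J Q τ F x = 0 then (0 : ℝ) else 1)) ≤
          ((A.powerset.filter fun F => F.card ≤ d).card : ℝ) := by
        rw [Finset.card_eq_sum_ones, Nat.cast_sum, Finset.sum_filter, Finset.sum_filter]
        rw [← Finset.sum_subset (Finset.subset_univ A.powerset)]
        · refine Finset.sum_le_sum fun F _ => ?_
          split_ifs <;> simp
        · intro F _ hF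
          rw [Finset.mem_powerset] at hF
          have : hh p f J Q τ F x = 0 := by
            unfold hh
            rw [← hg, if_neg]
            intro hc
            exact hF fun e he => Finset.mem_filter.2 ⟨Finset.mem_univ _, hc.2 e he⟩
          rw [if_pos this]
          split_ifs <;> rfl
      have h3 : ((A.powerset.filter fun F => F.card ≤ d).card : ℝ) ≤ ((A.card : ℝ) + 1) ^ d := by
        exact_mod_cast card_small_subsets_le A d
      exact h2.trans (h3.trans (pow_le_pow_left₀ (by positivity) (by linarith) d))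
    · have h2 : (∑ F : Finset E with F.card ≤ d,
          (if hh p f J Q τ F x = 0 then (0 : ℝ) else 1)) = 0 := by
        refine Finset.sum_eq_zero fun F _ => ?_
        have : hh p f J Q τ F x = 0 := by
          unfold hh
          rw [← hg, if_neg]
          intro hc
          exact hgood hc.1
        rw [if_pos this]
      rw [h2]
      positivity
  calc _ ≤ Ex p (fun _ : E → Bool => (Q / τ + 1) ^ d) := Ex_mono h0.le h1.le h
    _ = _ := Ex_const _ _

end FK
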