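import Vale.Agent.FK.StarB

/-!
# P063 / FK / StarC [STAR3]: proofs of `normal_le` and `star`
-/

namespace FK

open Finset

variable {E : Type*} [Fintype E] [DecidableEq E]

/-- the polynomial `∑ S ∈ s, c S * ch (S \ J)` re-indexed over the sets `S \ J` -/
theorem sum_sdiff_reindex (p : ℝ) (J F : Finset E) (s : Finset (Finset E))
    (hs : ∀ S ∈ s, S ∩ J = F) (c : Finset E → ℝ) (x : E → Bool) :
    ∑ S ∈ s, c S * ch p (S \ J) x =
      ∑ T ∈ s.image (fun S => S \ J), c (T ∪ F) * ch p T x := by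
  rw [Finset.sum_image]
  · refine Finset.sum_congr rfl fun S hS => ?_
    have h : S \ J ∪ F = S := by
      rw [← hs S hS]; exact Finset.sdiff_union_inter S J
    rw [h]
  · intro S hS S' hS' h
    have h1 : S \ J ∪ S ∩ J = S := Finset.sdiff_union_inter S J
    have h2 : S' \ J ∪ S' ∩ J = S' := Finset.sdiff_union_inter S' J
    have h3 : S \ J = S' \ J := h
    rw [← h1, ← h2, h3, hs S hS, hs S' hS']

theorem sum_sdiff_sq (J F : Finset E) (s : Finset (Finset E))
    (hs : ∀ S ∈ s, S ∩ J = F) (c : Finset E → ℝ) :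
    ∑ T ∈ s.image (fun S => S \ J), c (T ∪ F) ^ 2 = ∑ S ∈ s, c S ^ 2 := by
  rw [Finset.sum_image]
  · refine Finset.sum_congr rfl fun S hS => ?_
    have h : S \ J ∪ F = S := by
      rw [← hs S hS]; exact Finset.sdiff_union_inter S J
    rw [h]
  · intro S hS S' hS' h
    have h1 : S \ J ∪ S ∩ J = S := Finset.sdiff_union_inter S J
    have h2 : S' \ J ∪ S' ∩ J = S' := Finset.sdiff_union_inter S' J
    have h3 : S \ J = S' \ J := h
    rw [← h1, ← h2, h3, hs S hS, hs S' hS']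

theorem Ex_L_sq {p : ℝ} (h0 : 0 < p) (h1 : p < 1) (J F : Finset E) (s : Finset (Finset E))
    (hs : ∀ S ∈ s, S ∩ J = F) (c : Finset E → ℝ) :
    Ex p (fun x => (∑ S ∈ s, c S * ch p (S \ J) x) ^ 2) = ∑ S ∈ s, c S ^ 2 := by
  have h : (fun x : E → Bool => (∑ S ∈ s, c S * ch p (S \ J) x) ^ 2) =
      fun x => (∑ T ∈ s.image (fun S => S \ J), c (T ∪ F) * ch p T x) ^ 2 := by
    funext x; rw [sum_sdiff_reindex p J F s hs c x]
  rw [h, Ex_poly_sq h0 h1, sum_sdiff_sq J F s hs c]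

theorem Ex_L_four {p : ℝ} (h0 : 0 < p) (h1 : p < 1) (J F : Finset E) (s : Finset (Finset E))
    (hs : ∀ S ∈ s, S ∩ J = F) (c : Finset E → ℝ) (k : ℕ) (hk : ∀ S ∈ s, S.card ≤ k) :
    Ex p (fun x => (∑ S ∈ s, c S * ch p (S \ J) x) ^ 4) ≤ BB p ^ k * (∑ S ∈ s, c S ^ 2) ^ 2 := by
  have h : (fun x : E → Bool => (∑ S ∈ s, c S * ch p (S \ J) x) ^ 4) =
      fun x => (∑ T ∈ s.image (fun S => S \ J), c (T ∪ F) * ch p T x) ^ 4 := by
    funext x; rw [sum_sdiff_reindex p J F s hs c x]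
  rw [h, ← sum_sdiff_sq J F s hs c]
  refine bonami h0 h1 _ _ k ?_
  intro T hT
  obtain ⟨S, hS, rfl⟩ := Finset.mem_image.1 hT
  exact (Finset.card_le_card Finset.sdiff_subset).trans (hk S hS)

/-- Cauchy-Schwarz in square root form -/
theorem Ex_mul_le_sqrt {p : ℝ} (h0 : 0 ≤ p) (h1 : p ≤ 1) (f g : (E → Bool) → ℝ) :
    Ex p (fun x => f x * g x) ≤
      Real.sqrt (Ex p (fun x => f x ^ 2)) * Real.sqrt (Ex p (fun x => g x ^ 2)) := by
  rw [← Real.sqrt_mul (Ex_nonneg h0 h1 fun x => sq_nonneg _)]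
  exact Real.le_sqrt_of_sq_le (Ex_mul_sq_le h0 h1 f g)

theorem hh_sq_le (p : ℝ) (f : (E → Bool) → ℝ) (J : Finset E) (Q τ : ℝ) (F : Finset E)
    (x : E → Bool) : hh p f J Q τ F x ^ 2 ≤ ft p (fun y => f (mix J x y)) F ^ 2 := by
  unfold hh
  split_ifs
  · exact le_rfl
  · nlinarith [sq_nonneg (ft p (fun y => f (mix J x y)) F)]

theorem BB_pos {p : ℝ} (h0 : 0 < p) (h1 : p < 1) : 0 < BB p := by
  unfold BB
  have : 0 < p * (1 - p) := mul_pos h0 (by linarith)
  positivity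

/-- `a ≤ Ex h²` -/
theorem sum_ft_sq_le {p : ℝ} (h0 : 0 < p) (h1 : p < 1) (f : (E → Bool) → ℝ)
    (J F : Finset E) (s : Finset (Finset E)) (hs : ∀ S ∈ s, S ∩ J = F) :
    ∑ S ∈ s, ft p f S ^ 2 ≤ Ex p (fun x => ft p (fun y => f (mix J x y)) F ^ 2) := by
  have hL := star_L (p := p) f J F s hs
  have hcs := Ex_mul_sq_le h0.le h1.le
    (fun x => ∑ S ∈ s, ft p f S * ch p (S \ J) x) (fun x => ft p (fun y => f (mix J x y)) F)
  rw [hL, Ex_L_sq h0 h1 J F s hs] at hcs
  have ha : 0 ≤ ∑ S ∈ s, ft p f S ^ 2 := Finset.sum_nonneg fun S _ => sq_nonneg _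
  rcases ha.eq_or_lt with h | h
  · rw [← h]
    exact Ex_nonneg h0.le h1.le fun x => sq_nonneg _
  · rw [pow_two] at hcs
    exact le_of_mul_le_mul_left hcs h

/-- hypercontractive estimate for one `F` -/
theorem normal_le {p : ℝ} (h0 : 0 < p) (h1 : p < 1) {f : (E → Bool) → ℝ} (_hf : Bool01 f)
    (J F : Finset E) (k : ℕ) {Q τ η : ℝ} (_hη : 0 ≤ η) (hP : PP p f J Q τ F ≤ η)
    (s : Finset (Finset E)) (hs : ∀ S ∈ s, S ∩ J = F) (hk : ∀ S ∈ s, S.card ≤ k) :
    Ex p (fun x => (∑ S ∈ s, ft p f S * ch p (S \ J) x) * hh p f J Q τ F x) ≤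
      Real.sqrt (Real.sqrt (BB p ^ k * η)) *
        Ex p (fun x => ft p (fun y => f (mix J x y)) F ^ 2) := by
  classical
  set a : ℝ := ∑ S ∈ s, ft p f S ^ 2 with ha
  set H : ℝ := Ex p (fun x => ft p (fun y => f (mix J x y)) F ^ 2) with hH
  set L : (E → Bool) → ℝ := fun x => ∑ S ∈ s, ft p f S * ch p (S \ J) x with hLdef
  set h' : (E → Bool) → ℝ := hh p f J Q τ F with hh'
  set one : (E → Bool) → ℝ := fun x => if h' x = 0 then 0 else 1 with hone
  have hB : 0 ≤ BB p ^ k := (pow_pos (BB_pos h0 h1) k).le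
  have ha0 : 0 ≤ a := Finset.sum_nonneg fun S _ => sq_nonneg _
  have haH : a ≤ H := sum_ft_sq_le h0 h1 f J F s hs
  have hH0 : 0 ≤ H := ha0.trans haH
  -- first Cauchy-Schwarz
  have e1 : (fun x => L x * h' x) = fun x => (L x * one x) * h' x := by
    funext x
    simp only [hone]
    split_ifs with hx
    · rw [hx]; ring
    · ring
  have c1 : Ex p (fun x => L x * h' x) ≤
      Real.sqrt (Ex p (fun x => (L x * one x) ^ 2)) * Real.sqrt (Ex p (fun x => h' x ^ 2)) := by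
    rw [e1]
    exact Ex_mul_le_sqrt h0.le h1.le _ _
  -- second
  have one_sq : ∀ x, one x ^ 2 = one x := by
    intro x; simp only [hone]; split_ifs <;> norm_num
  have e2 : (fun x => (L x * one x) ^ 2) = fun x => (L x ^ 2) * one x := by
    funext x; rw [mul_pow, one_sq]
  have c2 : Ex p (fun x => (L x * one x) ^ 2) ≤
      Real.sqrt (Ex p (fun x => (L x ^ 2) ^ 2)) * Real.sqrt (Ex p (fun x => one x ^ 2)) := by
    rw [e2]
    exact Ex_mul_le_sqrt h0.le h1.le _ _
  have e3 : Ex p (fun x => (L x ^ 2) ^ 2) ≤ BB p ^ k * a ^ 2 := by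
    have : (fun x : E → Bool => (L x ^ 2) ^ 2) = fun x => (L x) ^ 4 := by
      funext x; ring
    rw [this]
    exact Ex_L_four h0 h1 J F s hs _ k hk
  have e4 : Ex p (fun x => one x ^ 2) ≤ η := by
    have : (fun x : E → Bool => one x ^ 2) = one := by funext x; exact one_sq x
    rw [this]
    exact hP
  have c3 : Ex p (fun x => (L x * one x) ^ 2) ≤ a * Real.sqrt (BB p ^ k * η) := by
    refine c2.trans ?_
    have g1 : Real.sqrt (Ex p (fun x => (L x ^ 2) ^ 2)) ≤ Real.sqrt (BB p ^ k) * a := by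
      refine (Real.sqrt_le_sqrt e3).trans ?_
      rw [Real.sqrt_mul hB, Real.sqrt_sq ha0]
    have g2 : Real.sqrt (Ex p (fun x => one x ^ 2)) ≤ Real.sqrt η := Real.sqrt_le_sqrt e4
    calc Real.sqrt (Ex p (fun x => (L x ^ 2) ^ 2)) * Real.sqrt (Ex p (fun x => one x ^ 2))
        ≤ (Real.sqrt (BB p ^ k) * a) * Real.sqrt η :=
          mul_le_mul g1 g2 (Real.sqrt_nonneg _) (mul_nonneg (Real.sqrt_nonneg _) ha0)
      _ = a * Real.sqrt (BB p ^ k * η) := by rw [Real.sqrt_mul hB]; ring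
  have c4 : Ex p (fun x => h' x ^ 2) ≤ H :=
    Ex_mono h0.le h1.le fun x => hh_sq_le p f J Q τ F x
  calc Ex p (fun x => L x * h' x)
      ≤ Real.sqrt (Ex p (fun x => (L x * one x) ^ 2)) * Real.sqrt (Ex p (fun x => h' x ^ 2)) := c1
    _ ≤ Real.sqrt (a * Real.sqrt (BB p ^ k * η)) * Real.sqrt H :=
        mul_le_mul (Real.sqrt_le_sqrt c3) (Real.sqrt_le_sqrt c4) (Real.sqrt_nonneg _)
          (Real.sqrt_nonneg _)
    _ ≤ Real.sqrt (H * Real.sqrt (BB p ^ k * η)) * Real.sqrt H := by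
        refine mul_le_mul_of_nonneg_right (Real.sqrt_le_sqrt ?_) (Real.sqrt_nonneg _)
        exact mul_le_mul_of_nonneg_right haH (Real.sqrt_nonneg _)
    _ = Real.sqrt (Real.sqrt (BB p ^ k * η)) * H := by
        rw [Real.sqrt_mul hH0, mul_comm (Real.sqrt H), mul_assoc, Real.mul_self_sqrt hH0]

theorem sum_inter_mem (p : ℝ) (f : (E → Bool) → ℝ) (J : Finset E) (G : Finset (Finset E))
    (k : ℕ) :
    ∑ S : Finset E with (S.card = k ∧ S ∩ J ∈ G), ft p f S ^ 2 =
      ∑ F ∈ G, ∑ S : Finset E with (S.card = k ∧ S ∩ J = F), ft p f S ^ 2 := by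
  classical
  rw [← Finset.sum_fiberwise_of_maps_to (s := Finset.univ.filter fun S : Finset E =>
    S.card = k ∧ S ∩ J ∈ G) (t := G) (g := fun S => S ∩ J)
    (fun S hS => (Finset.mem_filter.1 hS).2.2)]
  refine Finset.sum_congr rfl fun F hF => ?_
  refine Finset.sum_congr ?_ fun _ _ => rfl
  ext S
  simp only [Finset.mem_filter, Finset.mem_univ, true_and]
  constructor
  · rintro ⟨⟨h1, _⟩, h3⟩; exact ⟨h1, h3⟩
  · rintro ⟨h1, h3⟩; exact ⟨⟨h1, by rw [h3]; exact hF⟩, h3⟩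

/-- the main inequality -/
theorem star {p : ℝ} (h0 : 0 < p) (h1 : p < 1) {f : (E → Bool) → ℝ} (hf : Bool01 f)
    (J : Finset E) (G : Finset (Finset E)) (k d : ℕ) (hG : ∀ F ∈ G, F.card ≤ d)
    {Q τ η ω : ℝ} (hQ : 0 < Q) (hτ : 0 < τ) (hη : 0 < η) (hω0 : 0 ≤ ω)
    (hω : ∀ F ∈ G, ∑ S : Finset E with (S.card = k ∧ F ⊆ S), ft p f S ^ 2 ≤ ω) :
    ∑ S : Finset E with (S.card = k ∧ S ∩ J ∈ G), ft p f S ^ 2 ≤
      2 * Real.sqrt (Real.sqrt (BB p ^ k * η)) +
        (II p f / Q + la p * Real.sqrt (BB p) ^ d * Real.sqrt τ * II p f) +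
        (Q / τ + 1) ^ d / η * ω := by
  classical
  set θ : ℝ := Real.sqrt (Real.sqrt (BB p ^ k * η)) with hθ
  set ε : ℝ := II p f / Q + la p * Real.sqrt (BB p) ^ d * Real.sqrt τ * II p f with hε
  -- notation
  set fib : Finset E → Finset (Finset E) := fun F =>
    Finset.univ.filter fun S : Finset E => S.card = k ∧ S ∩ J = F with hfib
  have fibJ : ∀ F, ∀ S ∈ fib F, S ∩ J = F := fun F S hS => (Finset.mem_filter.1 hS).2.2
  have fibk : ∀ F, ∀ S ∈ fib F, S.card ≤ k := fun F S hS => (Finset.mem_filter.1 hS).2.1.le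
  set a : Finset E → ℝ := fun F => ∑ S ∈ fib F, ft p f S ^ 2 with ha
  set L : Finset E → (E → Bool) → ℝ := fun F x => ∑ S ∈ fib F, ft p f S * ch p (S \ J) x with hL
  set h : Finset E → (E → Bool) → ℝ := fun F x => ft p (fun y => f (mix J x y)) F with hh0
  set h' : Finset E → (E → Bool) → ℝ := hh p f J Q τ with hh'
  have a0 : ∀ F, 0 ≤ a F := fun F => Finset.sum_nonneg fun S _ => sq_nonneg _
  rw [sum_inter_mem p f J G k]
  change ∑ F ∈ G, a F ≤ _
  set N := G.filter fun F => PP p f J Q τ F ≤ η with hN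
  set X := G.filter fun F => ¬ PP p f J Q τ F ≤ η with hX
  have hsplit : ∑ F ∈ G, a F = ∑ F ∈ N, a F + ∑ F ∈ X, a F :=
    (Finset.sum_filter_add_sum_filter_not G _ _).symm
  -- normal part
  have hNG : N ⊆ G := Finset.filter_subset _ _
  set A : ℝ := ∑ F ∈ N, a F with hA
  have hA0 : 0 ≤ A := Finset.sum_nonneg fun F _ => a0 F
  have hid : ∀ F, a F = Ex p (fun x => L F x * h' F x) +
      Ex p (fun x => L F x * (h F x - h' F x)) := by
    intro F
    rw [← Ex_add]
    have e : (fun x => L F x * h' F x + L F x * (h F x - h' F x)) = fun x => L F x * h F x := by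
      funext x; ring
    rw [e]
    exact (star_L (p := p) f J F (fib F) (fibJ F)).symm
  have n1 : ∑ F ∈ N, Ex p (fun x => L F x * h' F x) ≤ θ := by
    calc ∑ F ∈ N, Ex p (fun x => L F x * h' F x)
        ≤ ∑ F ∈ N, θ * Ex p (fun x => h F x ^ 2) := by
          refine Finset.sum_le_sum fun F hF => ?_
          exact normal_le h0 h1 hf J F k hη.le (Finset.mem_filter.1 hF).2 (fib F) (fibJ F) (fibk F)
      _ = θ * ∑ F ∈ N, Ex p (fun x => h F x ^ 2) := by rw [Finset.mul_sum]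
      _ ≤ θ * ∑ F : Finset E, Ex p (fun x => h F x ^ 2) := by
          refine mul_le_mul_of_nonneg_left ?_ (Real.sqrt_nonneg _)
          exact Finset.sum_le_sum_of_subset_of_nonneg (Finset.subset_univ _)
            fun F _ _ => Ex_nonneg h0.le h1.le fun x => sq_nonneg _
      _ ≤ θ * 1 := mul_le_mul_of_nonneg_left (sum_sq_le_one h0 h1 hf J) (Real.sqrt_nonneg _)
      _ = θ := mul_one _
  have n2 : ∑ F ∈ N, Ex p (fun x => L F x * (h F x - h' F x)) ≤ (A + ε) / 2 := by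
    have step : ∀ F, Ex p (fun x => L F x * (h F x - h' F x)) ≤
        (a F + Ex p (fun x => (h F x - h' F x) ^ 2)) / 2 := by
      intro F
      have e1 : Ex p (fun x => L F x ^ 2) = a F := Ex_L_sq h0 h1 J F (fib F) (fibJ F) _
      have e2 : Ex p (fun x => L F x * (h F x - h' F x)) ≤
          Ex p (fun x => (L F x ^ 2 + (h F x - h' F x) ^ 2) * (1 / 2)) := by
        refine Ex_mono h0.le h1.le fun x => ?_
        nlinarith [sq_nonneg (L F x - (h F x - h' F x))]
      rw [Ex_mul_right, Ex_add, e1] at e2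
      linarith
    calc ∑ F ∈ N, Ex p (fun x => L F x * (h F x - h' F x))
        ≤ ∑ F ∈ N, (a F + Ex p (fun x => (h F x - h' F x) ^ 2)) / 2 :=
          Finset.sum_le_sum fun F _ => step F
      _ = (A + ∑ F ∈ N, Ex p (fun x => (h F x - h' F x) ^ 2)) / 2 := by
          rw [← Finset.sum_div, Finset.sum_add_distrib]
      _ ≤ (A + ε) / 2 := by
          have : ∑ F ∈ N, Ex p (fun x => (h F x - h' F x) ^ 2) ≤ ε := by
            refine le_trans ?_ (sum_err_le h0 h1 hf J d hQ hτ)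
            refine Finset.sum_le_sum_of_subset_of_nonneg ?_
              fun F _ _ => Ex_nonneg h0.le h1.le fun x => sq_nonneg _
            intro F hF
            exact Finset.mem_filter.2 ⟨Finset.mem_univ _, hG F (hNG hF)⟩
          linarith
  have hAle : A ≤ 2 * θ + ε := by
    have : A = ∑ F ∈ N, Ex p (fun x => L F x * h' F x) +
        ∑ F ∈ N, Ex p (fun x => L F x * (h F x - h' F x)) := by
      rw [hA, ← Finset.sum_add_distrib]
      exact Finset.sum_congr rfl fun F _ => hid F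
    linarith
  -- exceptional part
  have hXG : X ⊆ G := Finset.filter_subset _ _
  have hcard : (X.card : ℝ) ≤ (Q / τ + 1) ^ d / η := by
    rw [le_div_iff₀ hη]
    have hpp : ∀ F, 0 ≤ PP p f J Q τ F := by
      intro F
      unfold PP
      refine Ex_nonneg h0.le h1.le fun x => ?_
      split_ifs <;> norm_num
    calc (X.card : ℝ) * η = ∑ F ∈ X, η := by rw [Finset.sum_const, nsmul_eq_mul]
      _ ≤ ∑ F ∈ X, PP p f J Q τ F :=
          Finset.sum_le_sum fun F hF => (not_le.1 (Finset.mem_filter.1 hF).2).le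
      _ ≤ ∑ F : Finset E with F.card ≤ d, PP p f J Q τ F := by
          refine Finset.sum_le_sum_of_subset_of_nonneg ?_ fun F _ _ => hpp F
          intro F hF
          exact Finset.mem_filter.2 ⟨Finset.mem_univ _, hG F (hXG hF)⟩
      _ ≤ (Q / τ + 1) ^ d := sum_PP_le h0 h1 hf J d hQ hτ
  have hXle : ∑ F ∈ X, a F ≤ (Q / τ + 1) ^ d / η * ω := by
    calc ∑ F ∈ X, a F ≤ ∑ F ∈ X, ω := by
          refine Finset.sum_le_sum fun F hF => ?_
          refine le_trans ?_ (hω F (hXG hF))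
          refine Finset.sum_le_sum_of_subset_of_nonneg ?_ fun S _ _ => sq_nonneg _
          intro S hS
          have hS' := (Finset.mem_filter.1 hS).2
          refine Finset.mem_filter.2 ⟨Finset.mem_univ _, hS'.1, ?_⟩
          rw [← hS'.2]; exact Finset.inter_subset_left
      _ = (X.card : ℝ) * ω := by rw [Finset.sum_const, nsmul_eq_mul]
      _ ≤ (Q / τ + 1) ^ d / η * ω := mul_le_mul_of_nonneg_right hcard hω0
  rw [hsplit]
  linarith

end FK
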