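import Vale.Agent.FK.Junta

/-!
# P063 / FK / StarDefs: the truncated coefficient
-/

namespace FK

open Finset

variable {E : Type*} [Fintype E] [DecidableEq E]

set_option linter.unusedSectionVars false

theorem bool01_mix {f : (E → Bool) → ℝ} (hf : Bool01 f) (J : Finset E) (x : E → Bool) :
    Bool01 (fun y => f (mix J x y)) := fun y => hf _

/-- the truncated coefficient -/
noncomputable def hh (p : ℝ) (f : (E → Bool) → ℝ) (J : Finset E) (Q τ : ℝ) (F : Finset E)
    (x : E → Bool) : ℝ :=
  open Classical in
  if II p (fun y => f (mix J x y)) ≤ Q ∧ ∀ e ∈ F, τ ≤ Inf p e (fun y => f (mix J x y)) then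
    ft p (fun y => f (mix J x y)) F else 0

/-- probability that the truncated coefficient does not vanish -/
noncomputable def PP (p : ℝ) (f : (E → Bool) → ℝ) (J : Finset E) (Q τ : ℝ) (F : Finset E) : ℝ :=
  open Classical in Ex p (fun x => if hh p f J Q τ F x = 0 then 0 else 1)

end FK
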