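import Mathlib

/-!
# P063: hypergraph properties and threshold widths (the definitions of the final statement)
-/

namespace FK

/-- `E_{n,r}`: the `r`-element subsets of `[n]` -/
abbrev Edge (n r : ℕ) := {e : Finset (Fin n) // e.card = r}

/-- action of a permutation of the vertex set on the `r`-subsets -/
def permE {n r : ℕ} (σ : Equiv.Perm (Fin n)) : Equiv.Perm (Edge n r) where
  toFun e := ⟨e.1.map σ.toEmbedding, by rw [Finset.card_map]; exact e.2⟩
  invFun e := ⟨e.1.map σ.symm.toEmbedding, by rw [Finset.card_map]; exact e.2⟩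
  left_inv e := by
    apply Subtype.ext
    simp [Finset.map_map]
  right_inv e := by
    apply Subtype.ext
    simp [Finset.map_map]

/-- an `r`-uniform hypergraph property on `n` vertices: a family of points of `{0,1}^{E_{n,r}}`
(a point is an `r`-uniform hypergraph on `[n]`; `x e = true` means that `e` is an edge) which is
invariant under all permutations of the vertex set -/
def IsHypergraphProperty {n r : ℕ} (P : Set (Edge n r → Bool)) : Prop :=
  ∀ (σ : Equiv.Perm (Fin n)) (x : Edge n r → Bool), x ∈ P → (fun e => x (permE σ e)) ∈ P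

/-- adding edges preserves membership -/
def IsIncreasing {n r : ℕ} (P : Set (Edge n r → Bool)) : Prop :=
  ∀ x y : Edge n r → Bool, x ∈ P → (∀ e, x e = true → y e = true) → y ∈ P

/-- neither empty nor everything -/
def IsNontrivial {n r : ℕ} (P : Set (Edge n r → Bool)) : Prop :=
  P.Nonempty ∧ P ≠ Set.univ

open Classical in
/-- `μ_p(P)`: the probability that the random hypergraph, in which each edge is present
independently with probability `p`, lies in `P` -/
noncomputable def mu {n r : ℕ} (P : Set (Edge n r → Bool)) (p : ℝ) : ℝ :=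
  ∑ x : Edge n r → Bool, if x ∈ P then ∏ e, (if x e = true then p else 1 - p) else 0

/-- `p_a(P) = inf {p ∈ [0,1] : μ_p(P) ≥ a}` -/
noncomputable def thr {n r : ℕ} (P : Set (Edge n r → Bool)) (a : ℝ) : ℝ :=
  sInf {p : ℝ | 0 ≤ p ∧ p ≤ 1 ∧ a ≤ mu P p}

/-- the threshold width `w_ε(P) = p_{1-ε}(P) - p_ε(P)` -/
noncomputable def width {n r : ℕ} (P : Set (Edge n r → Bool)) (ε : ℝ) : ℝ :=
  thr P (1 - ε) - thr P ε

end FK
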