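import Vale.Agent.FK.Hyper

/-!
# P063 / FK / Sym [SYM1]: permutations mapping a given set into a given set
-/

namespace FK

open Finset

/-- one more point: `(n - |U|) N(insert a U) ≤ |X| N(U)` -/
theorem perm_count_step {n : ℕ} (U X : Finset (Fin n)) {a : Fin n} (ha : a ∉ U) :
    (Uᶜ).card * (univ.filter fun σ : Equiv.Perm (Fin n) =>
      (insert a U).map σ.toEmbedding ⊆ X).card ≤
    X.card * (univ.filter fun σ : Equiv.Perm (Fin n) => U.map σ.toEmbedding ⊆ X).card := by
  rw [← Finset.card_product, ← Finset.card_product]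
  refine Finset.card_le_card_of_injOn
    (fun q : Fin n × Equiv.Perm (Fin n) => (q.2 a, (Equiv.swap a q.1).trans q.2)) ?_ ?_
  · rintro ⟨b, σ⟩ hq
    simp only [Finset.coe_product, Set.mem_prod, Finset.mem_coe, Finset.mem_compl,
      Finset.mem_filter, Finset.mem_univ, true_and] at hq ⊢
    obtain ⟨hb, hσ⟩ := hq
    constructor
    · apply hσ
      rw [Finset.mem_map]
      exact ⟨a, Finset.mem_insert_self _ _, rfl⟩
    · intro y hy
      rw [Finset.mem_map] at hy
      obtain ⟨u, hu, rfl⟩ := hy
      apply hσ
      rw [Finset.mem_map]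
      refine ⟨u, Finset.mem_insert_of_mem hu, ?_⟩
      have h1 : u ≠ a := by rintro rfl; exact ha hu
      have h2 : u ≠ b := by rintro rfl; exact hb hu
      show σ u = σ (Equiv.swap a b u)
      rw [Equiv.swap_apply_of_ne_of_ne h1 h2]
  · rintro ⟨b, σ⟩ _ ⟨b', σ'⟩ _ hh
    simp only [Prod.mk.injEq] at hh
    obtain ⟨h1, h2⟩ := hh
    have hb : b = b' := by
      have e1 : ((Equiv.swap a b).trans σ) b = σ a := by
        show σ (Equiv.swap a b b) = σ a
        rw [Equiv.swap_apply_right]
      have e2 : ((Equiv.swap a b').trans σ') b' = σ' a := by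
        show σ' (Equiv.swap a b' b') = σ' a
        rw [Equiv.swap_apply_right]
      have e3 : ((Equiv.swap a b).trans σ) b = ((Equiv.swap a b).trans σ) b' := by
        rw [e1, h2, e2, h1]
      exact ((Equiv.swap a b).trans σ).injective e3
    subst hb
    have hσ : σ = σ' := by
      ext x
      have e4 : ((Equiv.swap a b).trans σ) (Equiv.swap a b x) =
          ((Equiv.swap a b).trans σ') (Equiv.swap a b x) := by rw [h2]
      have e5 : ∀ τ : Equiv.Perm (Fin n), ((Equiv.swap a b).trans τ) (Equiv.swap a b x) = τ x := by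
        intro τ
        show τ (Equiv.swap a b (Equiv.swap a b x)) = τ x
        rw [Equiv.swap_apply_self]
      rw [e5, e5] at e4
      rw [e4]
    rw [hσ]

/-- [SYM1] -/
theorem perm_count {n : ℕ} (U X : Finset (Fin n)) (hU : 2 * U.card ≤ n) :
    ((univ.filter fun σ : Equiv.Perm (Fin n) => U.map σ.toEmbedding ⊆ X).card : ℝ) ≤
      (2 * X.card / n : ℝ) ^ U.card * (Nat.factorial n : ℝ) := by
  induction U using Finset.induction_on with
  | empty =>
    have h1 : (univ.filter fun σ : Equiv.Perm (Fin n) =>
        (∅ : Finset (Fin n)).map σ.toEmbedding ⊆ X) = univ := by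
      apply Finset.filter_true_of_mem
      intro σ _
      simp
    rw [h1, Finset.card_univ, Fintype.card_perm, Fintype.card_fin]
    simp
  | insert a U ha ih =>
    rw [Finset.card_insert_of_notMem ha] at hU ⊢
    have ih' := ih (by omega)
    have hs := perm_count_step U X ha
    set N := (univ.filter fun σ : Equiv.Perm (Fin n) => (insert a U).map σ.toEmbedding ⊆ X).card
      with hN
    set M := (univ.filter fun σ : Equiv.Perm (Fin n) => U.map σ.toEmbedding ⊆ X).card with hM
    have hc : (Uᶜ).card = n - U.card := by rw [Finset.card_compl, Fintype.card_fin]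
    rw [hc] at hs
    have hn : 0 < n := by omega
    have hnR : (0 : ℝ) < n := by exact_mod_cast hn
    have h1 : n * N ≤ 2 * (X.card * M) := by
      calc n * N ≤ (2 * (n - U.card)) * N := Nat.mul_le_mul_right _ (by omega)
        _ = 2 * ((n - U.card) * N) := by ring
        _ ≤ 2 * (X.card * M) := Nat.mul_le_mul_left _ hs
    have h1R : (n : ℝ) * N ≤ 2 * (X.card * M) := by exact_mod_cast h1
    have h2 : (N : ℝ) ≤ (2 * X.card / n) * M := by
      have h3 : (2 * (X.card : ℝ) / n) * M = 2 * (X.card * M) / n := by ring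
      rw [h3, le_div_iff₀ hnR]
      linarith
    refine h2.trans ?_
    have h4 : (0 : ℝ) ≤ 2 * X.card / n := by positivity
    calc (2 * (X.card : ℝ) / n) * M ≤ (2 * X.card / n) * ((2 * X.card / n : ℝ) ^ U.card *
          (Nat.factorial n : ℝ)) := mul_le_mul_of_nonneg_left ih' h4
      _ = _ := by rw [pow_succ]; ring

end FK
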