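import Vale.Agent.FK.Defs
import Vale.Agent.FK.Hyper

/-!
# P063 / FK / SymB [SYM2]: invariance of Fourier coefficients and influences
-/

namespace FK

open Finset

section

variable {E : Type*} [Fintype E] [DecidableEq E]

omit [DecidableEq E] in
theorem WW_perm_b (p : ℝ) (π : Equiv.Perm E) (x : E → Bool) :
    WW p (fun e => x (π e)) = WW p x := by
  unfold WW
  exact Equiv.prod_comp π (fun e => wt p (x e))

theorem Ex_perm_b (p : ℝ) (π : Equiv.Perm E) (g : (E → Bool) → ℝ) :
    Ex p (fun x => g (fun e => x (π e))) = Ex p g := by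
  unfold Ex
  have hb : Function.Bijective (fun (x : E → Bool) (e : E) => x (π e)) := by
    constructor
    · intro x y h
      funext e
      have := congrFun h (π.symm e)
      simpa using this
    · intro y
      refine ⟨fun e => y (π.symm e), ?_⟩
      funext e
      simp
  rw [← hb.sum_comp (fun x => WW p x * g x)]
  refine Finset.sum_congr rfl fun x _ => ?_
  rw [WW_perm_b]

omit [Fintype E] in
theorem dd_perm_b {f : (E → Bool) → ℝ} (π : Equiv.Perm E)
    (hf : ∀ x, f (fun e => x (π e)) = f x) (e : E) (x : E → Bool) :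
    dd (π e) f x = dd e f (fun a => x (π a)) := by
  unfold dd
  have h : ∀ b : Bool, (fun a => Function.update x (π e) b (π a)) =
      Function.update (fun a => x (π a)) e b := by
    intro b
    funext a
    by_cases ha : a = e
    · subst ha
      simp
    · rw [Function.update_of_ne (fun hc => ha (π.injective hc)), Function.update_of_ne ha]
  rw [← hf (Function.update x (π e) true), ← hf (Function.update x (π e) false), h, h]

theorem exists_perm_b {n : ℕ} (A B : Finset (Fin n)) (h : A.card = B.card) :
    ∃ σ : Equiv.Perm (Fin n), A.map σ.toEmbedding = B := by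
  have e := Finset.equivOfCardEq h
  refine ⟨e.extendSubtype, ?_⟩
  refine Finset.eq_of_subset_of_card_le ?_ ?_
  · intro y hy
    obtain ⟨x, hx, rfl⟩ := Finset.mem_map.1 hy
    exact e.extendSubtype_mem x hx
  · rw [Finset.card_map, h]

end

theorem ft_perm {n r : ℕ} (p : ℝ) {f : (Edge n r → Bool) → ℝ} (hs : Symm f)
    (σ : Equiv.Perm (Fin n)) (S : Finset (Edge n r)) :
    ft p f (S.map (permE σ).toEmbedding) = ft p f S := by
  unfold ft
  rw [← Ex_perm_b p (permE σ) (fun x => f x * ch p S x)]
  congr 1
  funext x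
  rw [hs σ x]
  congr 1
  unfold ch
  rw [Finset.prod_map]
  rfl

/-- all influences are equal -/
theorem Inf_eq {n r : ℕ} (p : ℝ) {f : (Edge n r → Bool) → ℝ} (hs : Symm f) (e e' : Edge n r) :
    Inf p e f = Inf p e' f := by
  obtain ⟨σ, hσ⟩ := exists_perm_b e.1 e'.1 (e.2.trans e'.2.symm)
  have he : permE σ e = e' := Subtype.ext hσ
  rw [← he]
  unfold Inf
  rw [← Ex_perm_b p (permE σ) (fun x => dd e f x ^ 2)]
  congr 1
  funext x
  rw [dd_perm_b (permE σ) (fun x => hs σ x) e x]

end FK
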