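import Vale.Agent.FK.Parseval
import Vale.Agent.FK.SymA
import Vale.Agent.FK.SymB

/-!
# P063 / FK / Sym [SYM3]: average over all permutations
-/

namespace FK

open Finset

theorem supp_mono {n r : ℕ} {F S : Finset (Edge n r)} (h : F ⊆ S) : supp F ⊆ supp S := by
  unfold supp
  exact Finset.biUnion_subset_biUnion_of_subset_left _ h

theorem supp_map {n r : ℕ} (σ : Equiv.Perm (Fin n)) (F : Finset (Edge n r)) :
    supp (F.map (permE σ).toEmbedding) = (supp F).map σ.toEmbedding := by
  ext v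
  unfold supp
  simp only [Finset.mem_biUnion, Finset.mem_map]
  constructor
  · rintro ⟨e, ⟨e', he', rfl⟩, hv⟩
    have hv' : v ∈ e'.1.map σ.toEmbedding := hv
    rw [Finset.mem_map] at hv'
    obtain ⟨w, hw, rfl⟩ := hv'
    exact ⟨w, ⟨e', he', hw⟩, rfl⟩
  · rintro ⟨w, ⟨e', he', hw⟩, rfl⟩
    refine ⟨permE σ e', ⟨e', he', rfl⟩, ?_⟩
    show σ w ∈ e'.1.map σ.toEmbedding
    rw [Finset.mem_map]
    exact ⟨w, hw, rfl⟩

theorem supp_card_le {n r : ℕ} (S : Finset (Edge n r)) : (supp S).card ≤ r * S.card := by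
  unfold supp
  refine Finset.card_biUnion_le.trans ?_
  rw [Finset.sum_congr rfl fun e _ => e.2, Finset.sum_const, smul_eq_mul, mul_comm]

theorem sum_ft_le_one {E : Type*} [Fintype E] [DecidableEq E] {p : ℝ} (h0 : 0 < p) (h1 : p < 1)
    {f : (E → Bool) → ℝ} (hf : Bool01 f) : ∑ S : Finset E, ft p f S ^ 2 ≤ 1 := by
  rw [parseval h0 h1]
  have h2 : Ex p (fun x => f x ^ 2) ≤ Ex p (fun _ : E → Bool => (1 : ℝ)) := by
    apply Ex_mono h0.le h1.le
    intro x
    rcases hf x with h | h <;> rw [h] <;> norm_num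
  rwa [Ex_const] at h2

/-- invariance -/
theorem omega_inv {n r : ℕ} (p : ℝ) {f : (Edge n r → Bool) → ℝ}
    (hs : Symm f) (F : Finset (Edge n r)) (k : ℕ) (σ : Equiv.Perm (Fin n)) :
    ∑ S : Finset (Edge n r) with (S.card = k ∧ F ⊆ S), ft p f S ^ 2 =
      ∑ S : Finset (Edge n r) with
        (S.card = k ∧ F.map (permE σ).toEmbedding ⊆ S), ft p f S ^ 2 := by
  refine Finset.sum_bij (fun S _ => S.map (permE σ).toEmbedding) ?_ ?_ ?_ ?_
  · intro S hS
    rw [Finset.mem_filter] at hS ⊢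
    exact ⟨Finset.mem_univ _, by rw [Finset.card_map]; exact hS.2.1,
      Finset.map_subset_map.mpr hS.2.2⟩
  · intro S _ S' _ h
    exact Finset.map_injective _ h
  · intro T hT
    rw [Finset.mem_filter] at hT
    have hback : (T.map (permE σ).symm.toEmbedding).map (permE σ).toEmbedding = T := by
      rw [Finset.map_map]
      ext e
      simp
    refine ⟨T.map (permE σ).symm.toEmbedding, ?_, hback⟩
    rw [Finset.mem_filter]
    refine ⟨Finset.mem_univ _, by rw [Finset.card_map]; exact hT.2.1, ?_⟩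
    rw [← Finset.map_subset_map (f := (permE σ).toEmbedding), hback]
    exact hT.2.2
  · intro S _
    rw [ft_perm p hs σ S]

/-- average over all permutations -/
theorem omega_avg {n r : ℕ} (p : ℝ) {f : (Edge n r → Bool) → ℝ}
    (hs : Symm f) (F : Finset (Edge n r)) (k : ℕ) :
    (Nat.factorial n : ℝ) *
      ∑ S : Finset (Edge n r) with (S.card = k ∧ F ⊆ S), ft p f S ^ 2 =
      ∑ S : Finset (Edge n r) with S.card = k,
      ft p f S ^ 2 * ((univ.filter fun σ : Equiv.Perm (Fin n) =>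
        F.map (permE σ).toEmbedding ⊆ S).card : ℝ) := by
  have hcard : (Fintype.card (Equiv.Perm (Fin n)) : ℝ) = (Nat.factorial n : ℝ) := by
    rw [Fintype.card_perm, Fintype.card_fin]
  have h4 : (Nat.factorial n : ℝ) *
      ∑ S : Finset (Edge n r) with (S.card = k ∧ F ⊆ S), ft p f S ^ 2 =
      ∑ σ : Equiv.Perm (Fin n),
      ∑ S : Finset (Edge n r) with (S.card = k ∧ F.map (permE σ).toEmbedding ⊆ S),
        ft p f S ^ 2 := by
    rw [← Finset.sum_congr rfl fun σ _ => omega_inv p hs F k σ, Finset.sum_const,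
      Finset.card_univ, nsmul_eq_mul, hcard]
  rw [h4]
  have h5 : ∀ σ : Equiv.Perm (Fin n),
      ∑ S : Finset (Edge n r) with (S.card = k ∧ F.map (permE σ).toEmbedding ⊆ S),
        ft p f S ^ 2 = ∑ S : Finset (Edge n r) with S.card = k,
          if F.map (permE σ).toEmbedding ⊆ S then ft p f S ^ 2 else 0 := by
    intro σ
    rw [← Finset.sum_filter, Finset.filter_filter]
  rw [Finset.sum_congr rfl fun σ _ => h5 σ, Finset.sum_comm]
  refine Finset.sum_congr rfl fun S _ => ?_
  rw [← Finset.sum_filter, Finset.sum_const, nsmul_eq_mul, mul_comm]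

/-- the number of permutations mapping `F` into `S` -/
theorem omega_card {n r : ℕ} (F S : Finset (Edge n r)) (k u : ℕ) (hu : u ≤ (supp F).card)
    (hk : 2 * r * k ≤ n) (hn : 0 < n) (hS : S.card = k) (hsF : 2 * (supp F).card ≤ n) :
    ((univ.filter fun σ : Equiv.Perm (Fin n) =>
        F.map (permE σ).toEmbedding ⊆ S).card : ℝ) ≤
      (2 * r * k / n : ℝ) ^ u * (Nat.factorial n : ℝ) := by
  have hnR : (0 : ℝ) < n := by exact_mod_cast hn
  have hb0 : (0 : ℝ) ≤ 2 * r * k / n := by positivity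
  have hb1 : (2 * r * k / n : ℝ) ≤ 1 := by
    rw [div_le_one hnR]
    exact_mod_cast hk
  have hfac : (0 : ℝ) < (Nat.factorial n : ℝ) := by exact_mod_cast Nat.factorial_pos n
  have h7 : (univ.filter fun σ : Equiv.Perm (Fin n) =>
      F.map (permE σ).toEmbedding ⊆ S).card ≤
      (univ.filter fun σ : Equiv.Perm (Fin n) =>
        (supp F).map σ.toEmbedding ⊆ supp S).card := by
    apply Finset.card_le_card
    intro σ hσ
    rw [Finset.mem_filter] at hσ ⊢
    refine ⟨Finset.mem_univ _, ?_⟩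
    rw [← supp_map]
    exact supp_mono hσ.2
  have h8 := perm_count (supp F) (supp S) hsF
  have h9 : ((supp S).card : ℝ) ≤ r * k := by
    have := supp_card_le S
    rw [hS] at this
    exact_mod_cast this
  have h10 : (2 * (supp S).card / n : ℝ) ≤ 2 * r * k / n := by
    apply div_le_div_of_nonneg_right _ hnR.le
    linarith
  have h7' : ((univ.filter fun σ : Equiv.Perm (Fin n) =>
      F.map (permE σ).toEmbedding ⊆ S).card : ℝ) ≤
      ((univ.filter fun σ : Equiv.Perm (Fin n) =>
        (supp F).map σ.toEmbedding ⊆ supp S).card : ℝ) := by exact_mod_cast h7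
  refine h7'.trans (h8.trans ?_)
  apply mul_le_mul_of_nonneg_right _ hfac.le
  exact (pow_le_pow_left₀ (by positivity) h10 _).trans (pow_le_pow_of_le_one hb0 hb1 hu)

/-- [SYM3] -/
theorem omega_bound {n r : ℕ} {p : ℝ} (h0 : 0 < p) (h1 : p < 1) {f : (Edge n r → Bool) → ℝ}
    (hf : Bool01 f) (hs : Symm f) (F : Finset (Edge n r)) (k u : ℕ) (hu : u ≤ (supp F).card)
    (hk : 2 * r * k ≤ n) (hn : 0 < n) :
    ∑ S : Finset (Edge n r) with (S.card = k ∧ F ⊆ S), ft p f S ^ 2 ≤
      (2 * r * k / n : ℝ) ^ u := by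
  have hb0 : (0 : ℝ) ≤ 2 * r * k / n := by positivity
  rcases Nat.lt_or_ge k F.card with hFk | hFk
  · rw [Finset.sum_eq_zero]
    · positivity
    · intro S hS
      rw [Finset.mem_filter] at hS
      have := Finset.card_le_card hS.2.2
      omega
  have hsF : 2 * (supp F).card ≤ n := by
    have h2 := supp_card_le F
    calc 2 * (supp F).card ≤ 2 * (r * F.card) := Nat.mul_le_mul_left _ h2
      _ ≤ 2 * (r * k) := Nat.mul_le_mul_left _ (Nat.mul_le_mul_left _ hFk)
      _ = 2 * r * k := by ring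
      _ ≤ n := hk
  have hfac : (0 : ℝ) < (Nat.factorial n : ℝ) := by exact_mod_cast Nat.factorial_pos n
  have h3 := omega_avg p hs F k
  set A := ∑ S : Finset (Edge n r) with (S.card = k ∧ F ⊆ S), ft p f S ^ 2 with hA
  set c : ℝ := (2 * r * k / n : ℝ) ^ u with hc
  have hc0 : 0 ≤ c := pow_nonneg hb0 _
  have h6 : (Nat.factorial n : ℝ) * A ≤ ∑ S : Finset (Edge n r) with S.card = k,
      ft p f S ^ 2 * (c * (Nat.factorial n : ℝ)) := by
    rw [h3]
    apply Finset.sum_le_sum
    intro S hS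
    rw [Finset.mem_filter] at hS
    exact mul_le_mul_of_nonneg_left (omega_card F S k u hu hk hn hS.2 hsF) (sq_nonneg _)
  rw [← Finset.sum_mul] at h6
  have h12 : ∑ S : Finset (Edge n r) with S.card = k, ft p f S ^ 2 ≤ 1 :=
    (Finset.sum_le_sum_of_subset_of_nonneg (Finset.subset_univ _)
      fun _ _ _ => sq_nonneg _).trans (sum_ft_le_one h0 h1 hf)
  have h14 : 0 ≤ c * (Nat.factorial n : ℝ) := mul_nonneg hc0 hfac.le
  have h13 : (Nat.factorial n : ℝ) * A ≤ (Nat.factorial n : ℝ) * c := by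
    have h15 := mul_le_mul_of_nonneg_right h12 h14
    linarith
  exact le_of_mul_le_mul_left h13 hfac

end FK
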