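import Vale.Agent.FK.Param
import Vale.Agent.FK.Russo

/-!
# P063 / FK / Width [WID]: from the influence bound to the threshold width

`μ(p) = Ex p f`, `f = 1_P`, is continuous, nondecreasing on `[0,1]` with `μ(0) = 0`, `μ(1) = 1`, and
`μ(p_a) = a`. On `[α, β]`, `α = max p_ε L⁻²`, `β = min p_{1-ε} (1 - L⁻²)`: `μ' = II ≥ c L^s`,
`s = r/(r-1) ∈ (1, 2]`, so `β - α ≤ 1/(c L^s)` and `w_ε ≤ 2 L⁻² + 1/(c L^s)`. For `n < n0` use `w ≤ 1`.
-/

namespace FK

open Finset

open Classical in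
/-- the indicator of a property -/
noncomputable def ind {n r : ℕ} (P : Set (Edge n r → Bool)) (x : Edge n r → Bool) : ℝ :=
  if x ∈ P then 1 else 0

theorem ind_bool {n r : ℕ} (P : Set (Edge n r → Bool)) : Bool01 (ind P) := by
  intro x
  unfold ind
  split_ifs
  · exact Or.inr rfl
  · exact Or.inl rfl

theorem permE_inv_apply {n r : ℕ} (σ : Equiv.Perm (Fin n)) (e : Edge n r) :
    permE σ (permE σ⁻¹ e) = e := by
  have h : (permE σ⁻¹ : Equiv.Perm (Edge n r)) e = (permE σ).symm e := rfl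
  rw [h]
  exact Equiv.apply_symm_apply _ _

theorem ind_symm {n r : ℕ} {P : Set (Edge n r → Bool)} (h : IsHypergraphProperty P) :
    Symm (ind P) := by
  intro σ x
  have h1 : (fun e => x (permE σ e)) ∈ P ↔ x ∈ P := by
    constructor
    · intro hx
      have h2 := h σ⁻¹ _ hx
      have h3 : (fun e => (fun e' => x (permE σ e')) (permE σ⁻¹ e)) = x := by
        funext e
        simp only [permE_inv_apply]
      rw [h3] at h2
      exact h2
    · exact h σ x
  unfold ind
  by_cases hx : x ∈ P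
  · rw [if_pos hx, if_pos (h1.mpr hx)]
  · rw [if_neg hx, if_neg (fun h4 => hx (h1.mp h4))]

theorem ind_mono {n r : ℕ} {P : Set (Edge n r → Bool)} (h : IsIncreasing P) :
    Monotone (ind P) := by
  intro x y hxy
  unfold ind
  by_cases hx : x ∈ P
  · have hy : y ∈ P := h x y hx (fun e he => by
      have := hxy e
      rw [he] at this
      exact this rfl)
    rw [if_pos hx, if_pos hy]
  · rw [if_neg hx]
    split_ifs
    · exact zero_le_one
    · exact le_rfl

theorem mu_eq {n r : ℕ} (P : Set (Edge n r → Bool)) (p : ℝ) : mu P p = Ex p (ind P) := by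
  unfold mu Ex WW ind wt
  apply sum_congr rfl
  intro x _
  split_ifs
  · rw [mul_one]
  · rw [mul_zero]

theorem thr_eq {n r : ℕ} (P : Set (Edge n r → Bool)) (a : ℝ) : thr P a = pth (ind P) a := by
  unfold thr pth
  simp only [mu_eq]

theorem ind_top {n r : ℕ} {P : Set (Edge n r → Bool)} (h : IsIncreasing P) (hn : P.Nonempty) :
    ind P (fun _ => true) = 1 := by
  obtain ⟨x, hx⟩ := hn
  have : (fun _ => true) ∈ P := h x _ hx (fun _ _ => rfl)
  unfold ind
  rw [if_pos this]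

theorem width_le_one {n r : ℕ} {P : Set (Edge n r → Bool)} (h : IsIncreasing P) (hn : P.Nonempty)
    {ε : ℝ} (hε : 0 < ε) : width P ε ≤ 1 := by
  unfold width
  rw [thr_eq, thr_eq]
  unfold pth
  have h1 : sInf {p : ℝ | 0 ≤ p ∧ p ≤ 1 ∧ 1 - ε ≤ Ex p (ind P)} ≤ 1 := by
    apply csInf_le ⟨0, fun p hp => hp.1⟩
    refine ⟨zero_le_one, le_rfl, ?_⟩
    rw [Ex_one, ind_top h hn]
    linarith
  have h2 : 0 ≤ sInf {p : ℝ | 0 ≤ p ∧ p ≤ 1 ∧ ε ≤ Ex p (ind P)} :=
    Real.sInf_nonneg (fun p hp => hp.1)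
  linarith

theorem width_bound (r : ℕ) (hr : 2 ≤ r) {ε : ℝ} (hε : 0 < ε) (hε2 : ε < 1 / 2) :
    ∃ C : ℝ, ∀ n : ℕ, r ≤ n → ∀ P : Set (Edge n r → Bool),
      IsHypergraphProperty P → IsIncreasing P → IsNontrivial P →
      width P ε ≤ C * Real.log n ^ (-((r : ℝ) / (r - 1))) := by
  obtain ⟨c, hc, n0, hI⟩ := influence_lower r hr hε hε2
  obtain ⟨s, hs⟩ : ∃ s : ℝ, s = (r : ℝ) / (r - 1) := ⟨_, rfl⟩
  have hr' : (2 : ℝ) ≤ (r : ℝ) := by exact_mod_cast hr
  have hs1 : 0 ≤ s := by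
    rw [hs]
    exact div_nonneg (by linarith) (by linarith)
  have hs2 : s ≤ 2 := by
    rw [hs, div_le_iff₀ (by linarith)]
    linarith
  rw [← hs]
  obtain ⟨N, hN⟩ : ∃ N : ℕ, N = max n0 3 := ⟨_, rfl⟩
  refine ⟨2 + 1 / c + Real.log N ^ s, ?_⟩
  intro n hn P hP hinc hnt
  have hn2 : (2 : ℝ) ≤ (n : ℝ) := by exact_mod_cast (le_trans hr hn)
  have hL : 0 < Real.log n := Real.log_pos (by linarith)
  have hN3 : 3 ≤ N := by rw [hN]; exact le_max_right _ _
  have hNn0 : n0 ≤ N := by rw [hN]; exact le_max_left _ _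
  have hLN : 0 < Real.log N := Real.log_pos (by
    have : (3 : ℝ) ≤ (N : ℝ) := by exact_mod_cast hN3
    linarith)
  have hLs : 0 < Real.log n ^ s := Real.rpow_pos_of_pos hL s
  have hLs' : 0 < Real.log n ^ (-s) := Real.rpow_pos_of_pos hL _
  have hci : 0 < 1 / c := by positivity
  rcases lt_or_ge n N with hlt | hge
  · have h1 := width_le_one hinc hnt.1 hε
    have h2 : Real.log n ^ s ≤ Real.log N ^ s := by
      apply Real.rpow_le_rpow hL.le _ hs1
      apply Real.log_le_log (by linarith)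
      exact_mod_cast hlt.le
    have h3 : Real.log n ^ s * Real.log n ^ (-s) = 1 := by
      rw [← Real.rpow_add hL]
      simp
    nlinarith
  · have hn0 : n0 ≤ n := hNn0.trans hge
    have hn3 : (3 : ℝ) ≤ (n : ℝ) := by exact_mod_cast hN3.trans hge
    have hL1 : 1 ≤ Real.log n := by
      rw [Real.le_log_iff_exp_le (by linarith)]
      have := Real.exp_one_lt_d9
      linarith
    have h1 : pth (ind P) (1 - ε) - pth (ind P) ε ≤ 2 * (1 / Real.log n ^ 2) +
        1 / (c * Real.log n ^ s) := by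
      apply width_le (ind_bool P) (ind_mono hinc) (ind_top hinc hnt.1) hε hε2 (by positivity)
        (by positivity)
      intro p hp1 hp2 h3 h4
      rw [hs]
      exact hI n hn0 p hp1.le hp2.le (ind P) (ind_bool P) (ind_symm hP) h3 h4
    unfold width
    rw [thr_eq, thr_eq]
    have h2 : 1 / Real.log n ^ 2 ≤ Real.log n ^ (-s) := by
      rw [Real.rpow_neg hL.le, one_div]
      apply inv_anti₀ hLs
      have h5 : Real.log n ^ s ≤ Real.log n ^ (2 : ℝ) :=
        Real.rpow_le_rpow_of_exponent_le hL1 hs2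
      rw [Real.rpow_two] at h5
      exact h5
    have h3 : 1 / (c * Real.log n ^ s) = 1 / c * Real.log n ^ (-s) := by
      rw [Real.rpow_neg hL.le]
      field_simp
    rw [h3] at h1
    have h4 : 0 ≤ Real.log N ^ s := (Real.rpow_pos_of_pos hLN s).le
    have h5 : 0 ≤ Real.log N ^ s * Real.log n ^ (-s) := mul_nonneg h4 hLs'.le
    nlinarith

end FK
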